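import Vale.Agent.P227.Calabi

open scoped ContDiff Topology
open Filter Set MeasureTheory
noncomputable section
namespace Vale.Agent.P227
variable {n : ℕ}

lemma inv_sub {A B A' B' : Fin n → Fin n → ℝ}
    (h : ∀ i k, ∑ j, A i j * B j k = if i = k then 1 else 0)
    (h' : ∀ i k, ∑ j, A' i j * B' j k = if i = k then 1 else 0) (i j) :
    A i j - A' i j = ∑ k, ∑ l, A i k * (B' k l - B k l) * A' l j := by
  have h1 : Matrix.of A * Matrix.of B = 1 := by
    ext i k; simp [Matrix.mul_apply, h, Matrix.one_apply]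
  have h2 : Matrix.of A' * Matrix.of B' = 1 := by
    ext i k; simp [Matrix.mul_apply, h', Matrix.one_apply]
  have h3 : Matrix.of A - Matrix.of A' =
      Matrix.of A * (Matrix.of B' - Matrix.of B) * Matrix.of A' := by
    rw [mul_sub, sub_mul, h1, mul_assoc, mul_eq_one_comm.1 h2, mul_one, one_mul]
  have := congrFun (congrFun h3 i) j
  rw [Finset.sum_comm]
  simpa [Matrix.mul_apply, Finset.sum_mul] using this

lemma D_HN {a b} {φ : Sm n} (h : Ad a b φ) (V v) :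
    D v (HN V φ) = LT φ (D v φ) - rad (D v φ) + D v V := by
  simp only [HN, map_add, map_sub, h.D_G0, D_rad]; ring

lemma quad_nonneg {ι : Type*} [Fintype ι] (T : ι → ι → ι → ℝ) (η : ι → ℝ) :
    0 ≤ ∑ i, ∑ j, η i * η j * ∑ k, ∑ l, T i k l * T j k l := by
  have : ∑ i, ∑ j, η i * η j * ∑ k, ∑ l, T i k l * T j k l = ∑ k, ∑ l, (∑ i, η i * T i k l) ^ 2 := by
    simp only [Finset.mul_sum, sq, Finset.sum_mul]
    rw [sum4_swap]
    exact Finset.sum_congr rfl fun _ _ => Finset.sum_congr rfl fun _ _ =>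
      Finset.sum_congr rfl fun _ _ => Finset.sum_congr rfl fun _ _ => by ring
  rw [this]
  exact Finset.sum_nonneg fun _ _ => Finset.sum_nonneg fun _ _ => sq_nonneg _

lemma PF.hp_quad {m : Fin n → E n} {t : ℝ} {x : E n} {φ : ℝ → Sm n}
    {σ : ℝ → Fin n → Fin n → Sm n} {V : Sm n} (p : PF m t x φ σ V) (η : Fin n → ℝ) :
    ∃ c, HP m t x (fun r => ∑ i, ∑ j, cst (η i * η j) * σ r i j) c ∧
      D (∑ i, η i • m i) (D (∑ i, η i • m i) V) x - ∑ i, η i ^ 2 ≤ c := by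
  refine ⟨_, HP.sum _ fun i _ => HP.sum _ fun j _ => (HP.cst _).mul (p.hp_σ i j), ?_⟩
  have a1 := quad_nonneg (fun i k l => T3 m (φ t) i k l x) η
  have a2 : ∑ i, ∑ j, η i * η j * D (m i) (D (m j) V) x =
      D (∑ i, η i • m i) (D (∑ i, η i • m i) V) x := by
    simp only [D_sum_dir, D_smul_dir, map_sum, Derivation.map_smul, Sm.sum_apply,
      Sm.smul_apply, Finset.mul_sum]
    exact Finset.sum_congr rfl fun _ _ => Finset.sum_congr rfl fun _ _ => by rw [D_comm]; ring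
  simp only [D_cst, Sm.zero_apply, zero_mul, Finset.sum_const_zero, mul_zero, add_zero, cst_apply,
    PF.κ, mul_add, mul_sub, Finset.sum_add_distrib, Finset.sum_sub_distrib, a2, mul_ite, mul_one,
    Finset.sum_ite_eq, Finset.mem_univ, if_true, ← sq]
  linarith

lemma frame_ineq (m : Fin n → E n) (ξ : E n) {α : ℝ} (hα : 0 < α) (η : Fin n → ℝ)
    (hη : ∀ i, η i = ∑ c, m i c * ξ c) (hx : ‖ξ‖ ^ 2 / α < ∑ i, η i ^ 2) :
    ∑ i, η i ^ 2 ≤ α * ‖∑ i, η i • m i‖ ^ 2 := by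
  set y : E n := ∑ i, η i • m i
  have a4 : ∑ i, η i ^ 2 = ∑ c, y c * ξ c := by
    simp only [y, WithLp.ofLp_sum, Finset.sum_apply, PiLp.smul_apply, smul_eq_mul, Finset.sum_mul]
    rw [Finset.sum_comm]
    refine Finset.sum_congr rfl fun i _ => ?_
    rw [sq]; nth_rw 2 [hη]; rw [Finset.mul_sum]
    exact Finset.sum_congr rfl fun _ _ => by simp; ring
  have a5 := Finset.sum_mul_sq_le_sq_mul_sq Finset.univ (fun c => y c) fun c => ξ c
  rw [← a4, ← normsq_eq y, ← normsq_eq ξ] at a5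
  rw [div_lt_iff₀ hα] at hx
  have b1 : 0 < ∑ i, η i ^ 2 := by
    by_contra b2
    nlinarith [sq_nonneg ‖ξ‖]
  have b2 := mul_le_mul_of_nonneg_left hx.le (sq_nonneg ‖y‖)
  refine le_of_mul_le_mul_left ?_ b1
  nlinarith

structure NF (V : Sm n) (a β T : ℝ) (φ : ℝ → Sm n) : Prop where
  pos : 0 < a
  fl : ∃ m, Flow (fun u => cen (HN V u)) (NC a β m) T φ

namespace NF
variable {V : Sm n} {a β T : ℝ} {φ : ℝ → Sm n} (h : NF V a β T φ)
include h

lemma ad (t) : Ad a β (φ t) := by obtain ⟨m, hm⟩ := h.fl; exact NC.ad (hm.mem t) h.pos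
lemma uq : UQ φ := by obtain ⟨m, hm⟩ := h.fl; exact BC.uq fun t => (hm.mem t).1
lemma uc : Uc φ := by obtain ⟨m, hm⟩ := h.fl; exact hm.uc
lemma ucH : Uc fun t => cen (HN V (φ t)) := by obtain ⟨m, hm⟩ := h.fl; exact hm.ucH
lemma zero (t) : φ t 0 = 0 := by obtain ⟨m, hm⟩ := h.fl; exact (hm.mem t).1.1
lemma ev (t) : Ev (φ t) := by obtain ⟨m, hm⟩ := h.fl; exact (hm.mem t).1.2.1
lemma der {t} (ht : t ∈ Ioo 0 T) (s x) :
    HasDerivAt (fun r => DM s (φ r) x) (DM s (cen (HN V (φ t))) x) t := by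
  obtain ⟨m, hm⟩ := h.fl; exact hm.der t ht s x
lemma der' {t} (ht : t ∈ Ioo 0 T) (l v x) : HasDerivAt (fun r => DM l (D v (φ r)) x)
    (DM l (LT (φ t) (D v (φ t)) - rad (D v (φ t)) + D v V) x) t := by
  have := h.der ht (v ::ₘ l) x
  simpa only [DM_cons', D_cen, D_HN (h.ad t)] using this

lemma tau_sub (s t i j x) : tau (φ s) i j x - tau (φ t) i j x =
    ∑ k, ∑ l, tau (φ s) i k x * (gm (φ t) k l x - gm (φ s) k l x) * tau (φ t) l j x :=
  inv_sub (A := fun i j => tau (φ s) i j x) (A' := fun i j => tau (φ t) i j x)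
    (B := fun i j => gm (φ s) i j x) (B' := fun i j => gm (φ t) i j x)
    ((h.ad s).tau_mul · · x) ((h.ad t).tau_mul · · x) i j

lemma uc_tau (i j) : Uc fun t => tau (φ t) i j := by
  refine ⟨h.uq.tm_tau h.ad i j, fun x => continuous_iff_continuousAt.2 fun t => ?_⟩
  rw [ContinuousAt, ← tendsto_sub_nhds_zero_iff]
  simp only [h.tau_sub]
  have : Tendsto (fun s => ∑ k, ∑ l, tau (φ s) i k x * (gm (φ t) k l x - gm (φ s) k l x) *
      tau (φ t) l j x) (𝓝 t) (𝓝 (∑ k : Fin n, ∑ l, 0 * tau (φ t) l j x)) := by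
    refine tendsto_finsetSum _ fun k _ => tendsto_finsetSum _ fun l _ => Tendsto.mul_const _ ?_
    obtain ⟨C, hC⟩ := h.uq.bd_tau h.ad i k 0
    have h1 := (((h.uc.D (e l)).D (e k)).cont x).tendsto t
    refine isBoundedUnder_le_mul_tendsto_zero ⟨C, eventually_map.2 (Eventually.of_forall
      fun s => (hC s x).zero)⟩ ?_
    simpa [gm] using h1.const_sub (gm (φ t) k l x)
  simpa using this

lemma dt_tau {t} (ht : t ∈ Ioo 0 T) (i j x) : ∃ c, HasDerivAt (fun r => tau (φ r) i j x) c t := by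
  have h1 : ∀ k l, HasDerivAt (fun r => gm (φ r) k l x) _ t := fun k l => h.der' ht {e k} (e l) x
  refine ⟨_, hasDerivAt_iff_tendsto_slope.2 (Tendsto.congr (fun s => ?_)
    (tendsto_finsetSum Finset.univ fun k _ => tendsto_finsetSum Finset.univ fun l _ =>
      (((((h.uc_tau i k).cont x).tendsto t).mono_left nhdsWithin_le_nhds).mul
        (hasDerivAt_iff_tendsto_slope.1 (h1 k l)).neg).mul_const (tau (φ t) l j x)))⟩
  simp only [slope_def_field, h.tau_sub, Finset.sum_div]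
  exact Finset.sum_congr rfl fun _ _ => Finset.sum_congr rfl fun _ _ => by ring

lemma pf {t} (ht : t ∈ Ioo 0 T) {x m N} (f : Fr (φ t) x m N) :
    PF m t x φ (fun r => Fr.tt N (φ r)) V where
  inv r := f.tt_mul (h.ad r)
  pt := f.tt_pt
  dt i j := by
    choose c hc using fun k l => h.dt_tau ht k l x
    simp only [Fr.tt, Sm.sum_apply, Sm.smul_apply]
    exact ⟨_, HasDerivAt.fun_sum fun k _ => HasDerivAt.fun_sum fun l _ => (hc k l).const_mul _⟩
  eq l v := by simpa only [f.LT_tt] using h.der' ht l v x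

lemma lower {α : ℝ} (hV : Ad α β V) (hβ : 0 < β) (h0 : ∀ w z, α * ‖w‖ ^ 2 ≤ D w (D w (φ 0)) z) :
    ∀ t ∈ Ico 0 T, ∀ w z, α * ‖w‖ ^ 2 ≤ D w (D w (φ t)) z := by
  have hα := hV.pos
  have key : ∀ ξ : E n, ∀ t ∈ Ico 0 T, ∀ x,
      (∑ i, ∑ j, (ξ i * ξ j) • tau (φ t) i j) x ≤ ‖ξ‖ ^ 2 / α := by
    intro ξ
    have e0 : ∀ t x, (∑ i, ∑ j, (ξ i * ξ j) • tau (φ t) i j) x =
        ∑ i, ∑ j, tau (φ t) i j x * ξ i * ξ j := fun t x => by
      simp only [Sm.sum_apply, Sm.smul_apply]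
      exact Finset.sum_congr rfl fun _ _ => Finset.sum_congr rfl fun _ _ => by ring
    refine maxP (C := n / a) (B := ‖ξ‖ ^ 2 / a) (Uc.sum _ fun i _ => Uc.sum _ fun j _ =>
      (h.uc_tau i j).smul _) (div_nonneg n.cast_nonneg h.pos.le) (fun t x => ?_) (fun x => ?_)
      fun t ht x hx => ?_
    · rw [e0, le_div_iff₀' h.pos]; exact ((h.ad t).tau_bounds x ξ).2
    · rw [e0, le_div_iff₀' hα]
      exact (Ad.tau_bounds ⟨hα, (h.ad 0).q2, h0, (h.ad 0).hi⟩ x ξ).2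
    obtain ⟨m, N, f⟩ := (h.ad t).frame x
    have p := h.pf ht f
    set η : Fin n → ℝ := fun i => ∑ c, m i c * ξ c
    have e1 : ∀ r, ∑ i, ∑ j, (ξ i * ξ j) • tau (φ r) i j =
        ∑ i, ∑ j, cst (η i * η j) * Fr.tt N (φ r) i j := fun r => by
      simp only [f.tau_eq, Finset.smul_sum, smul_smul, cst_mul, η, Finset.sum_mul_sum,
        Finset.sum_smul]
      rw [sum4_swap]
      exact Finset.sum_congr rfl fun _ _ => Finset.sum_congr rfl fun _ _ =>
        Finset.sum_congr rfl fun _ _ => Finset.sum_congr rfl fun _ _ => by congr 1; ring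
    obtain ⟨c, c1, c2⟩ := p.hp_quad η
    rw [e0, f.quad] at hx
    refine ⟨m, c, f.sum_sq (h.ad t), by simpa only [e1] using c1, ?_⟩
    linarith [frame_ineq m ξ hα η (fun _ => rfl) hx, hV.lo (∑ i, η i • m i) x]
  intro t ht w z
  have := (inv_bounds (g := fun i j => tau (φ t) i j z) (τ := fun i j => gm (φ t) i j z)
    (fun i j => by rw [tau_symm]) (fun i k => by
      rw [if_congr (eq_comm (a := i)) rfl rfl, ← (h.ad t).tau_mul k i z]
      exact Finset.sum_congr rfl fun _ _ => by rw [tau_symm, gm_symm, mul_comm])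
    (a := 1 / β) (b := 1 / α) (by positivity) (fun ξ => by
      rw [one_div, inv_mul_le_iff₀ hβ]
      refine ((h.ad t).tau_bounds z ξ).1.trans (le_of_eq ?_)
      congr 1
      exact Finset.sum_congr rfl fun _ _ => Finset.sum_congr rfl fun _ _ => by ring)
    (fun ξ => by simpa [div_eq_inv_mul] using key ξ t ht z) w).1
  rw [one_div, le_inv_mul_iff₀ hα] at this
  refine this.trans (le_of_eq ?_)
  rw [DD_eq]
  exact Finset.sum_congr rfl fun _ _ => Finset.sum_congr rfl fun _ _ => by simp only [gm]; ring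
end NF

def Bb {κ : Type*} (F : κ → Sm n) : Prop := ∃ B, ∀ i x, |F i x| ≤ B
lemma Bb.mul {κ : Type*} {F G : κ → Sm n} (h : Bb F) (h' : Bb G) : Bb fun i => F i * G i := by
  obtain ⟨B, h⟩ := h
  obtain ⟨B', h'⟩ := h'
  exact ⟨B * B', fun i x => by
    rw [Sm.mul_apply, abs_mul]
    exact mul_le_mul (h i x) (h' i x) (abs_nonneg _) ((abs_nonneg _).trans (h i x))⟩
lemma Bb.sum {κ ι : Type*} [Fintype ι] {F : ι → κ → Sm n} (h : ∀ j, Bb (F j)) :
    Bb fun i => ∑ j, F j i := by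
  choose B h using h
  exact ⟨∑ j, B j, fun i x => by
    rw [Sm.sum_apply]
    exact (Finset.abs_sum_le_sum_abs _ _).trans (Finset.sum_le_sum fun j _ => h j i x)⟩

lemma Ad.bd3 {a b} {φ : Sm n} (h : Ad a b φ) (hb : 0 ≤ b) {K : ℝ} (hK : ∀ x, Sc (tau φ) e φ x ≤ K) :
    Bd 3 φ √(b ^ 3 * K) := by
  intro x s hs hu
  obtain ⟨u, v, w, rfl⟩ := Multiset.card_eq_three.1 hs
  obtain ⟨m, N, f⟩ := h.frame x
  have h1 := hK x
  rw [Sc_inv (f.tau_eq φ), Sc_eq] at h1
  simp only [Sm.sum_apply, Sm.mul_apply, f.tt_pt, ite_mul, one_mul, zero_mul, Finset.sum_ite_eq,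
    Finset.mem_univ, if_true] at h1
  have key : ∀ u : E n, ‖u‖ ≤ 1 → ∀ g : Sm n, D u g x ^ 2 ≤ b * ∑ i, D (m i) g x ^ 2 := by
    intro u hu g
    obtain ⟨c, h2, h3⟩ := f.expand h u
    have h4 : ∑ i, c i ^ 2 ≤ b :=
      h3.trans (mul_le_of_le_one_right hb (pow_le_one₀ (norm_nonneg _) hu))
    rw [h2]
    simp only [D_sum_dir, D_smul_dir, Sm.sum_apply, Sm.smul_apply]
    exact (Finset.sum_mul_sq_le_sq_mul_sq _ _ _).trans
      (mul_le_mul_of_nonneg_right h4 (by positivity))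
  refine Real.abs_le_sqrt ?_
  have e1 : DM {u, v, w} φ = D u (D v (D w φ)) := by
    simp only [Multiset.insert_eq_cons, DM_cons, DM_single]
  calc _ ≤ b * ∑ i, D (m i) (D v (D w φ)) x ^ 2 := by rw [e1]; exact key u (hu u (by simp)) _
    _ ≤ b * ∑ i, b * ∑ j, D (m i) (D (m j) (D w φ)) x ^ 2 := by
        gcongr with i
        simpa only [D_comm (m i)] using key v (hu v (by simp)) (D (m i) (D w φ))
    _ ≤ b * ∑ i, b * ∑ j, b * ∑ k, T3 m φ i j k x ^ 2 := by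
        gcongr with i _ j
        have := key w (hu w (by simp)) (D (m i) (D (m j) φ))
        have e2 : ∀ u, D u (D (m i) (D (m j) φ)) = D (m i) (D (m j) (D u φ)) := fun u => by
          rw [D_comm u, D_comm u]
        simpa only [T3, e2 w, e2 (m _)] using this
    _ = b ^ 3 * ∑ i, ∑ j, ∑ k, T3 m φ i j k x * T3 m φ i j k x := by
        simp only [← Finset.mul_sum, sq]; ring
    _ ≤ _ := by gcongr

lemma calabi_flow {V : Sm n} {α a β : ℝ} (hV : Ad α β V) : ∃ K, 0 ≤ K ∧ ∀ T φ, NF V a β T φ →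
    (∀ x, Sc (tau (φ 0)) e (φ 0) x ≤ K) → ∀ t ∈ Ico 0 T, ∀ x, Sc (tau (φ t)) e (φ t) x ≤ K := by
  obtain ⟨v, hv⟩ := hV.q2 1
  refine ⟨4 * (n ^ 3 * (v * √(n / a) ^ 3) ^ 2), by positivity, fun T φ h h0 => ?_⟩
  have u3 : ∀ i j k, Uc fun t => T3 e (φ t) i j k := fun i j k => ((h.uc.D _).D _).D _
  have b3 : ∀ i j k, Bb fun t => T3 e (φ t) i j k := fun i j k => by
    obtain ⟨M, hM⟩ := h.uq 1
    exact ⟨M, fun t x => ((((hM t x).D1 (norm_e k).le).D1 (norm_e j).le).D1 (norm_e i).le).zero⟩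
  have bt : ∀ i j, Bb fun t => tau (φ t) i j := fun i j => by
    obtain ⟨M, hM⟩ := h.uq.bd_tau h.ad i j 0
    exact ⟨M, fun t x => (hM t x).zero⟩
  obtain ⟨B, hB⟩ : Bb fun t => Sc (tau (φ t)) e (φ t) := by
    simp only [Sc_eq]
    exact Bb.sum fun _ => Bb.sum fun _ => Bb.sum fun _ => (b3 _ _ _).mul (Bb.sum fun _ =>
      (bt _ _).mul (Bb.sum fun _ => (bt _ _).mul (Bb.sum fun _ => (bt _ _).mul (b3 _ _ _))))
  refine maxP (F := fun t => Sc (tau (φ t)) e (φ t)) (C := n / a) (B := B) ?_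
    (div_nonneg n.cast_nonneg h.pos.le) (fun t x => (le_abs_self _).trans (hB t x)) h0
    fun t ht x hx => ?_
  · simp only [Sc_eq]
    exact Uc.sum _ fun _ _ => Uc.sum _ fun _ _ => Uc.sum _ fun _ _ => (u3 _ _ _).mul
      (Uc.sum _ fun _ _ => (h.uc_tau _ _).mul (Uc.sum _ fun _ _ => (h.uc_tau _ _).mul
        (Uc.sum _ fun _ _ => (h.uc_tau _ _).mul (u3 _ _ _))))
  obtain ⟨m, N, f⟩ := (h.ad t).frame x
  obtain ⟨c, c1, c2, c3⟩ := (h.pf ht f).calabi fun w =>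
    (mul_nonneg hV.pos.le (sq_nonneg _)).trans (hV.lo w x)
  simp only [Sc_inv (f.tau_eq _)] at hx ⊢
  refine ⟨m, c, f.sum_sq (h.ad t), c1, le_trans ?_ c3⟩
  have a1 : ∀ i j k, T3 m V i j k x ^ 2 ≤ (v * √(n / a) ^ 3) ^ 2 := fun i j k => by
    have b1 := ((((hv x).D (m k)).D (m j)).D (m i)).zero
    have b2 : v * ‖m k‖ * ‖m j‖ * ‖m i‖ ≤ v * √(n / a) ^ 3 := by
      have := hv.nonneg
      calc _ ≤ v * √(n / a) * √(n / a) * √(n / a) := by
            gcongr <;> exact f.norm_le (h.ad t) _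
        _ = _ := by ring
    exact sq_le_sq' (abs_le.1 (b1.trans b2)).1 (abs_le.1 (b1.trans b2)).2
  have a2 : 2 * ∑ i, ∑ j, ∑ k, T3 m (φ t) i j k x * T3 m V i j k x ≤
      ∑ i : Fin n, ∑ j : Fin n, ∑ k : Fin n, (1 / 2 * (T3 m (φ t) i j k x * T3 m (φ t) i j k x) +
        2 * (v * √(n / a) ^ 3) ^ 2) := by
    simp only [Finset.mul_sum]
    gcongr with i _ j _ k
    nlinarith [a1 i j k, sq_nonneg (T3 m (φ t) i j k x - 2 * T3 m V i j k x)]
  simp only [Finset.sum_add_distrib, ← Finset.mul_sum, Finset.sum_const, Finset.card_univ,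
    Fintype.card_fin, nsmul_eq_mul] at a2
  linarith

end Vale.Agent.P227
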