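import Vale.Agent.P227.Apriori

open scoped ContDiff Topology
open Filter Set MeasureTheory
noncomputable section
namespace Vale.Agent.P227
variable {n : ℕ}

lemma hp_hs {m : Fin n → E n} {t : ℝ} {x : E n} {β Y : ℝ} (hβ : 0 < β)
    (hm : ∀ g : Sm n, ∑ c, D (e c) g x ^ 2 ≤ β * ∑ i, D (m i) g x ^ 2) (j : ℕ) {F : ℝ → Sm n}
    (h : ∀ s : Multiset (E n), s.card = j → Un s →
      ∃ c, HP m t x (fun r => DM s (F r)) c ∧ -Y ≤ DM s (F t) x * c) :
    ∃ c, HP m t x (fun r => hs j (F r)) c ∧ 2 / β * hs (j + 1) (F t) x - 2 * n ^ j * Y ≤ c := by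
  induction j generalizing F with
  | zero =>
    obtain ⟨c, c1, c2⟩ := h 0 rfl Un.zero
    refine ⟨_, by simpa only [hs, sq, DM_zero] using c1.mul c1, ?_⟩
    have := hm (F t)
    rw [← div_le_iff₀' hβ] at this
    simp only [hs, Sm.sum_apply, Sm.pow_apply, DM_zero, ← sq] at *
    have e1 : 2 / β * ∑ c, D (e c) (F t) x ^ 2 = 2 * ((∑ c, D (e c) (F t) x ^ 2) / β) := by ring
    linarith
  | succ j ih =>
    choose c c1 c2 using fun a => ih (F := fun r => D (e a) (F r)) fun s b1 b2 => by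
      simpa only [DM_cons'] using h (e a ::ₘ s) (by simp [b1]) (Un.cons (norm_e a).le b2)
    refine ⟨_, HP.sum Finset.univ fun a _ => c1 a, le_trans (le_of_eq ?_)
      (Finset.sum_le_sum fun a _ => c2 a)⟩
    rw [hs]
    simp only [Sm.sum_apply, Finset.sum_sub_distrib, ← Finset.mul_sum, Finset.sum_const,
      Finset.card_univ, Fintype.card_fin, nsmul_eq_mul]
    ring

lemma rem_bd (a b : ℝ) (r : ℕ) : ∃ c, 0 ≤ c ∧ ∀ φ : Sm n, Ad a b φ → ∀ x W, Wt W (r + 1) →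
    (∀ j, 1 ≤ j → j ≤ r → BdAt (j + 2) φ x (W j)) → ∀ v l, l.card = r → Un (v ::ₘ l) →
    |DM l (LT φ (D v φ)) x - LT φ (DM l (D v φ)) x| ≤ c * W (r + 1) := by
  obtain ⟨c, hc, h⟩ := tau_bd (n := n) a b r
  refine ⟨n ^ 2 * 2 ^ r * c, by positivity, fun φ hφ x W hW hb v l hl hu => ?_⟩
  have h1 := h φ hφ x W (hW.mono r.le_succ) hb
  simp only [LT, map_sum, Sm.sum_apply, Sm.mul_apply, ← Finset.sum_sub_distrib, ← DM_D]
  refine (Finset.abs_sum_le_sum_abs _ _).trans ((Finset.sum_le_sum fun i _ =>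
    (Finset.abs_sum_le_sum_abs _ _).trans (Finset.sum_le_sum
      (g := fun _ => 2 ^ r * (c * W (r + 1))) fun j _ => ?_)).trans (le_of_eq (by simp; ring)))
  have := hW.pos (r + 1)
  refine (abs_DM_mul_sub_le l _ _ x (c * W (r + 1)) (by positivity) fun s1 s2 e1 e2 => ?_).trans
    (by rw [hl])
  have e3 := congrArg Multiset.card e1
  have := Multiset.card_pos.2 e2
  rw [Multiset.card_add, hl] at e3
  have a1 := h1 s1.card (by omega) i j s1 rfl (e1 ▸ hu.tail).left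
  have a2 := ((((hb (s2.card + 1) (by omega) (by omega)).D1 hu.head).D1 (norm_e j).le).D1
    (norm_e i).le) s2 rfl (e1 ▸ hu.tail).right
  have a3 := hW.mul s1.card (s2.card + 1) (by omega)
  rw [← add_assoc, e3] at a3
  have := hW.pos s1.card
  calc _ ≤ (c * W s1.card) * W (s2.card + 1) := by gcongr
    _ ≤ _ := by rw [mul_assoc]; gcongr

lemma hp_level {V : Sm n} (hV : Q2 V) (a : ℝ) {β : ℝ} (hβ : 0 < β) (r : ℕ) (hr : 1 ≤ r) :
    ∃ C, 0 ≤ C ∧ ∀ T φ, NF V a β T φ → ∀ t ∈ Ioo 0 T, ∀ x m N, Fr (φ t) x m N → ∀ W, Wt W (r + 1) →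
    (∀ j, 1 ≤ j → j ≤ r → BdAt (j + 2) (φ t) x (W j)) → ∀ X, BdAt (r + 1) (φ t) x X →
    ∃ c, HP m t x (fun s => hs (r + 1) (φ s)) c ∧
      2 / β * hs (r + 2) (φ t) x - C * X * W (r + 1) ≤ c := by
  obtain ⟨c, hc, h1⟩ := rem_bd (n := n) a β r
  obtain ⟨v0, hv⟩ := hV (r - 1)
  rw [show r - 1 + 2 = r + 1 by omega] at hv
  have hv0 := hv.nonneg
  refine ⟨2 * n ^ (r + 1) * (c + v0), by positivity, fun T φ h t ht x m N f W hW hb X hX => ?_⟩
  obtain ⟨d, d1, d2⟩ := hp_hs (Y := X * ((c + v0) * W (r + 1))) hβ (f.grad_lo (h.ad t)) (r + 1)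
    (F := φ) (t := t) fun s b1 b2 => by
      obtain ⟨v, l, rfl⟩ : ∃ v l', s = v ::ₘ l' := by
        induction s using Multiset.induction with
        | empty => simp at b1
        | cons v l' _ => exact ⟨v, l', rfl⟩
      have hl : l.card = r := by simpa using b1
      simp only [DM_cons']
      refine ⟨_, ⟨_, h.der' ht l v x, rfl⟩, ?_⟩
      have a1 := h1 _ (h.ad t) x W hW hb v l hl b2
      have a2 := hX _ b1 b2
      have a3 := hv x _ b1 b2
      rw [DM_cons'] at a2 a3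
      have a4 : v0 ≤ v0 * W (r + 1) := le_mul_of_one_le_right hv0 (hW.one _)
      have a5 : |DM l (LT (φ t) (D v (φ t))) x - LT (φ t) (DM l (D v (φ t))) x + DM l (D v V) x|
          ≤ (c + v0) * W (r + 1) := by
        refine (abs_add_le _ _).trans ?_; linarith
      have a6 := mul_le_mul a2 a5 (abs_nonneg _) hX.nonneg
      rw [← abs_mul] at a6
      have a7 := mul_nonneg (Nat.cast_nonneg (α := ℝ) l.card) (sq_nonneg (DM l (D v (φ t)) x))
      simp only [← f.LT_eq, map_add, map_sub, DM_rad, Sm.add_apply, Sm.sub_apply, Sm.smul_apply]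
      linarith [(abs_le.1 a6).2]
  exact ⟨d, d1, le_trans (le_of_eq (by ring)) d2⟩

lemma bern_real {β A0 C1 C2 C3 : ℝ} (hβ : 0 < β) (h0 : 0 ≤ A0) (h1 : 0 ≤ C1) (h2 : 0 ≤ C2) :
    ∃ M x0 : ℝ, 1 ≤ M ∧ 0 ≤ x0 ∧ ∀ A x y c1 c2 cr : ℝ, 0 ≤ A → A ≤ A0 → x0 ≤ x →
    2 / β * x ^ 2 - C1 * (1 + x) ≤ c1 → 2 / β * y ^ 2 - C2 * x * ((1 + x) ^ 2 + y) ≤ c2 →
    -(C3 * x ^ 2 * y) ≤ cr → 0 ≤ (M + A) * c2 + x ^ 2 * c1 + cr := by
  set M := β ^ 2 * C3 ^ 2 + 1
  have hM : 1 ≤ M := le_add_of_nonneg_left (by positivity)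
  set C4 := (M + A0) * (4 * C2 + β * C2 ^ 2) + 2 * C1
  have hC4 : 0 ≤ C4 := by positivity
  refine ⟨M, 1 + β * C4, hM, by positivity, fun A x y c1 c2 cr a0 a1 a2 a3 a4 a5 => ?_⟩
  have hx : 1 ≤ x := by linarith [mul_nonneg hβ.le hC4]
  set k := 1 / β
  have hk : 0 < k := by positivity
  have hk' : k * β = 1 := by simp only [k]; field_simp
  rw [show 2 / β = 2 * k by simp only [k]; ring] at a3 a4
  have x2 : x ^ 2 ≤ x ^ 3 := pow_le_pow_right₀ hx (by norm_num)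
  have b1 : k * y ^ 2 - (4 * C2 + β * C2 ^ 2) * x ^ 3 ≤ c2 := by
    have d1 : C2 * x * (1 + x) ^ 2 ≤ 4 * C2 * x ^ 3 := by
      calc _ ≤ C2 * x * (2 * x) ^ 2 := by gcongr; linarith
        _ = _ := by ring
    have d2 : C2 * x * y ≤ k * y ^ 2 + β * C2 ^ 2 * x ^ 2 := by
      have := mul_nonneg hk.le (sq_nonneg (y - β * C2 * x))
      have e1 : k * (y - β * C2 * x) ^ 2 =
          k * y ^ 2 - 2 * (k * β) * (C2 * x * y) + (k * β) * (β * C2 ^ 2 * x ^ 2) := by ring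
      rw [e1, hk'] at this
      nlinarith [mul_nonneg hk.le (sq_nonneg y), mul_nonneg hβ.le (sq_nonneg (C2 * x))]
    have d3 : β * C2 ^ 2 * x ^ 2 ≤ β * C2 ^ 2 * x ^ 3 := by gcongr
    linarith
  have b2 : M * (k * y ^ 2) - (M + A0) * ((4 * C2 + β * C2 ^ 2) * x ^ 3) ≤ (M + A) * c2 := by
    have d1 := mul_le_mul_of_nonneg_left b1 (show 0 ≤ M + A by linarith)
    have d2 : 0 ≤ A * (k * y ^ 2) := by positivity
    have d3 : A * ((4 * C2 + β * C2 ^ 2) * x ^ 3) ≤ A0 * ((4 * C2 + β * C2 ^ 2) * x ^ 3) := by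
      gcongr
    linarith
  have b3 : 2 * k * x ^ 4 - 2 * C1 * x ^ 3 ≤ x ^ 2 * c1 := by
    have d1 := mul_le_mul_of_nonneg_left a3 (sq_nonneg x)
    have d2 := mul_le_mul_of_nonneg_left x2 h1
    linarith
  have b4 : C3 * x ^ 2 * y ≤ M * (k * y ^ 2) + k * x ^ 4 := by
    have := mul_nonneg hk.le (sq_nonneg (x ^ 2 - β * C3 * y))
    have e1 : k * (x ^ 2 - β * C3 * y) ^ 2 =
        k * x ^ 4 - 2 * (k * β) * (C3 * x ^ 2 * y) + β ^ 2 * C3 ^ 2 * (k * y ^ 2) := by ring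
    rw [e1, hk'] at this
    have d1 : 0 ≤ k * y ^ 2 := by positivity
    have d2 : 0 ≤ k * x ^ 4 := by positivity
    have d3 : 0 ≤ β ^ 2 * C3 ^ 2 * (k * y ^ 2) := by positivity
    simp only [M]; linarith
  have b5 : C4 * x ^ 3 ≤ k * x ^ 4 := by
    have d1 : C4 ≤ k * x := by
      calc C4 = k * (β * C4) := by rw [← mul_assoc, hk', one_mul]
        _ ≤ _ := by gcongr; linarith
    calc _ ≤ k * x * x ^ 3 := by gcongr
      _ = _ := by ring
  simp only [C4] at b5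
  linarith

lemma wt_bern {K X Y : ℝ} (hK : 1 ≤ K) (hX : 1 ≤ X) (hY : 0 ≤ Y) (r : ℕ) :
    Wt (fun i => K ^ i * if i ≤ r + 1 then 1 else if i = r + 2 then X else
      if i = r + 3 then X + Y else X ^ 2 + Y) (r + 4) := by
  have h1 : X ≤ X ^ 2 := le_self_pow₀ hX (by norm_num)
  refine ⟨fun j => one_le_mul_of_one_le_of_one_le (one_le_pow₀ hK) (by split_ifs <;> linarith),
    fun a b hab => ?_⟩
  rw [mul_mul_mul_comm, ← pow_add]
  gcongr
  split_ifs <;> first | omega | linarith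

lemma bern_flow {V : Sm n} (hV : Q2 V) (a : ℝ) {β : ℝ} (hβ : 0 < β) (r : ℕ) (K : ℝ) (hK : 1 ≤ K) :
    ∃ M K' : ℝ, 1 ≤ M ∧ 0 ≤ K' ∧ ∀ T φ, NF V a β T φ →
    (∀ t ∈ Ico 0 T, ∀ i, 1 ≤ i → i ≤ r + 1 → Bd (i + 2) (φ t) K) →
    (∀ x, ((cst M + hs (r + 3) (φ 0)) * hs (r + 4) (φ 0) : Sm n) x ≤ K') →
    ∀ t ∈ Ico 0 T, ∀ x, ((cst M + hs (r + 3) (φ t)) * hs (r + 4) (φ t) : Sm n) x ≤ K' := by
  obtain ⟨C1, hC1, l1⟩ := hp_level hV a hβ (r + 2) (by omega)
  obtain ⟨C2, hC2, l2⟩ := hp_level hV a hβ (r + 3) (by omega)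
  obtain ⟨M, x0, hM, hx0, hb⟩ := bern_real (A0 := n ^ (r + 3) * K ^ 2) (C1 := C1 * K * K ^ (r + 3))
    (C2 := C2 * K ^ (r + 4))
    (C3 := 2 * n * (2 * n ^ (r + 3) * K * √(n / a) * (2 * n ^ (r + 4) * √(n / a)))) hβ
    (by positivity) (by positivity) (by positivity)
  refine ⟨M, (M + n ^ (r + 3) * K ^ 2) * x0 ^ 2, hM, by positivity, fun T φ h h1 h0 => ?_⟩
  obtain ⟨M3, hM3⟩ := h.uq (r + 1)
  obtain ⟨M4, hM4⟩ := h.uq (r + 2)
  refine maxP (F := fun t => (cst M + hs (r + 3) (φ t)) * hs (r + 4) (φ t)) (C := n / a)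
    (B := (M + n ^ (r + 3) * M3 ^ 2) * (n ^ (r + 4) * M4 ^ 2))
    (((Uc.const (tm_cst' M)).add (h.uc.hs _)).mul (h.uc.hs _))
    (div_nonneg n.cast_nonneg h.pos.le) (fun t x => ?_) h0 fun t ht x hx => ?_
  · simp only [Sm.mul_apply, Sm.add_apply, cst_apply]
    have := hs_nonneg (r + 4) (φ t) x
    gcongr
    exacts [hs_le _ _ _ _ (hM3 t x), hs_le _ _ _ _ (hM4 t x)]
  obtain ⟨m, N, f⟩ := (h.ad t).frame x
  have h2 := h1 t (Ioo_subset_Ico_self ht)
  set X := √(hs (r + 4) (φ t) x)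
  set Y := √(hs (r + 5) (φ t) x)
  have hX : 0 ≤ X := Real.sqrt_nonneg _
  have hY : 0 ≤ Y := Real.sqrt_nonneg _
  have eX : hs (r + 4) (φ t) x = X ^ 2 := (Real.sq_sqrt (hs_nonneg _ _ _)).symm
  have eY : hs (r + 5) (φ t) x = Y ^ 2 := (Real.sq_sqrt (hs_nonneg _ _ _)).symm
  have bX : BdAt (r + 4) (φ t) x X := bdAt_hs _ _ _
  have bY : BdAt (r + 5) (φ t) x Y := bdAt_hs _ _ _
  have bK : BdAt (r + 3) (φ t) x K := h2 (r + 1) (by omega) le_rfl x
  have hW := wt_bern hK (show 1 ≤ 1 + X by linarith) hY r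
  have hW' : ∀ j, 1 ≤ j → j ≤ r + 3 → BdAt (j + 2) (φ t) x (K ^ j * if j ≤ r + 1 then 1 else
      if j = r + 2 then 1 + X else if j = r + 3 then 1 + X + Y else (1 + X) ^ 2 + Y) := by
    intro j b1 b2
    have := one_le_pow₀ hK (n := j)
    split_ifs with c1 c2 c3
    · exact (h2 j b1 c1 x).mono (by rw [mul_one]; exact le_self_pow₀ hK (by omega))
    · subst c2; exact bX.mono (by nlinarith)
    · subst c3; exact bY.mono (by nlinarith)
    · omega
  have hW2 : Wt (fun i => K ^ i * if i ≤ r + 1 then 1 else 1 + X) (r + 2 + 1) :=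
    ⟨fun j => one_le_mul_of_one_le_of_one_le (one_le_pow₀ hK) (by split_ifs <;> linarith),
      fun a b hab => by
        rw [mul_mul_mul_comm, ← pow_add]
        gcongr
        split_ifs <;> first | omega | linarith⟩
  obtain ⟨c1, d1, e1⟩ := l1 T φ h t ht x m N f _ hW2 (fun j b1 b2 => by
    have := hW' j b1 (by omega)
    split_ifs at this ⊢ <;> first | exact this | omega) K bK
  obtain ⟨c2, d2, e2⟩ := l2 T φ h t ht x m N f _ hW hW' X bX
  refine ⟨m, _, f.sum_sq (h.ad t), ((HP.cst M).add d1).mul d2, ?_⟩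
  have a1 := hs_le _ _ _ _ bK
  have a0 := hs_nonneg (r + 3) (φ t) x
  simp only [Sm.mul_apply, Sm.add_apply, cst_apply, eX] at hx
  have a2 : x0 ≤ X := by
    by_contra b1
    have : X ^ 2 ≤ x0 ^ 2 := by gcongr; linarith
    have := mul_le_mul (add_le_add (le_refl M) a1) this (sq_nonneg _) (by positivity)
    linarith
  rw [if_neg (by omega)] at e1
  rw [if_neg (by omega), if_neg (by omega), if_neg (by omega)] at e2
  simp only [Sm.add_apply, cst_apply, map_add, D_cst, zero_add, eX]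
  refine hb _ X Y c1 c2 _ a0 a1 a2 (by rw [← eX]; linarith) (by rw [← eY]; linarith) ?_
  have a3 : ∀ i, |D (m i) (hs (r + 3) (φ t)) x * D (m i) (hs (r + 4) (φ t)) x| ≤
      (2 * n ^ (r + 3) * K * X * √(n / a)) * (2 * n ^ (r + 4) * X * Y * √(n / a)) := fun i => by
    have b1 : BdAt 1 (hs (r + 3) (φ t)) x (2 * n ^ (r + 3) * K * X) := fun s c1 c2 => by
      obtain ⟨v, rfl⟩ := Multiset.card_eq_one.1 c1
      exact abs_D_hs _ _ _ _ _ bK bX v (c2 v (by simp))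
    have b2 : BdAt 1 (hs (r + 4) (φ t)) x (2 * n ^ (r + 4) * X * Y) := fun s c1 c2 => by
      obtain ⟨v, rfl⟩ := Multiset.card_eq_one.1 c1
      exact abs_D_hs _ _ _ _ _ bX bY v (c2 v (by simp))
    have := f.norm_le (h.ad t) i
    rw [abs_mul]
    gcongr
    exacts [(BdAt.D (k := 0) b1 _).zero.trans (by gcongr),
      (BdAt.D (k := 0) b2 _).zero.trans (by gcongr)]
  have a4 := Finset.sum_le_sum fun i (_ : i ∈ Finset.univ) => (abs_le.1 (a3 i)).1
  simp only [Finset.sum_const, Finset.card_univ, Fintype.card_fin, nsmul_eq_mul] at a4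
  linarith

def quad (α : ℝ) : Sm n := (α / 2) • nsq
lemma DD_quad (α : ℝ) (w z : E n) : D w (D w (quad α)) z = α * ‖w‖ ^ 2 := by
  simp [quad, DD_nsq, sum_mul_self]; ring
lemma bd_quad (α : ℝ) (k) : Bd (k + 3) (quad α : Sm n) 0 := by
  intro x s hs _
  obtain ⟨u, s, rfl⟩ : ∃ v l', s = v ::ₘ l' := by
    induction s using Multiset.induction with
    | empty => simp at hs
    | cons v l' _ => exact ⟨v, l', rfl⟩
  obtain ⟨v, s, rfl⟩ : ∃ v l', s = v ::ₘ l' := by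
    induction s using Multiset.induction with
    | empty => simp at hs
    | cons v l' _ => exact ⟨v, l', rfl⟩
  have : s ≠ 0 := by rintro rfl; simp at hs
  simp [DM_cons', quad, DD_nsq, DM_cst s this]

theorem apriori {V : Sm n} {α β a : ℝ} (hV : Ad α β V) (hβ : 0 < β) (hαβ : α ≤ β) :
    ∃ (P : Sm n → Prop) (m : ℕ → ℝ), P (quad α) ∧ (∀ ψ, P ψ → ψ ∈ NC α β m) ∧
      ∀ T φ, NF V a β T φ → P (φ 0) → ∀ t ∈ Ico 0 T, P (φ t) := by
  have hα := hV.pos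
  have A : ∀ r, ∃ (P : Sm n → Prop) (K : ℝ), 1 ≤ K ∧ P (quad α) ∧
      (∀ a' ψ, Ad a' β ψ → P ψ → ∀ i, 1 ≤ i → i ≤ r + 1 → Bd (i + 2) ψ K) ∧
      ∀ T φ, NF V a β T φ → P (φ 0) → ∀ t ∈ Ico 0 T, P (φ t) := by
    intro r
    induction r with
    | zero =>
      obtain ⟨K, hK, h⟩ := calabi_flow (a := a) hV
      refine ⟨fun ψ => ∀ x, Sc (tau ψ) e ψ x ≤ K, 1 + √(β ^ 3 * K), by simp, fun x => ?_,
        fun a' ψ h1 h2 i b1 b2 => ?_, h⟩
      · have : ∀ i j k, T3 e (quad α) i j k x = 0 := fun i j k => by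
          simpa [T3] using ((((bd_quad α 0 x).D1 (norm_e k).le).D1 (norm_e j).le).D1 (norm_e i).le).zero
        simp [Sc_eq, this, hK]
      · obtain rfl : i = 1 := by omega
        exact (h1.bd3 hβ.le h2).mono (by linarith)
    | succ r ih =>
      obtain ⟨P, K, hK, p1, p2, p3⟩ := ih
      obtain ⟨M, K', hM, hK', h⟩ := bern_flow hV.q2 a hβ r K hK
      have := Real.sqrt_nonneg K'
      refine ⟨fun ψ => P ψ ∧ ∀ x, ((cst M + hs (r + 3) ψ) * hs (r + 4) ψ : Sm n) x ≤ K', K + √K',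
        by linarith, ⟨p1, fun x => ?_⟩, fun a' ψ h1 h2 i b1 b2 => ?_, fun T φ h1 h2 t ht =>
          ⟨p3 T φ h1 h2.1 t ht, h T φ h1 (fun t ht => p2 _ _ (h1.ad t) (p3 T φ h1 h2.1 t ht))
            h2.2 t ht⟩⟩
      · have : hs (r + 4) (quad α) x = 0 := le_antisymm
          (by simpa using hs_le _ _ _ _ (bd_quad α (r + 1) x)) (hs_nonneg _ _ _)
        simp [this, hK']
      · rcases Nat.lt_or_ge i (r + 2) with c1 | c1
        · exact (p2 _ _ h1 h2.1 i b1 (by omega)).mono (by linarith)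
        obtain rfl : i = r + 2 := by omega
        refine fun x => (bdAt_hs _ _ _).mono ((Real.sqrt_le_sqrt ?_).trans (by linarith))
        have := h2.2 x
        simp only [Sm.mul_apply, Sm.add_apply, cst_apply] at this
        nlinarith [hs_nonneg (r + 3) ψ x, hs_nonneg (r + 4) ψ x]
  choose P K hK p1 p2 p3 using A
  refine ⟨fun ψ => ψ 0 = 0 ∧ Ev ψ ∧ Ad α β ψ ∧ ∀ r, P r ψ, fun k => β + K k,
    ⟨by simp [quad, nsq_apply], fun x => by simp [quad, nsq_apply], ⟨hα, fun k => ?_,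
      fun w z => (DD_quad α w z).ge, fun w z => by rw [DD_quad]; gcongr⟩, p1⟩,
    fun ψ ⟨h1, h2, h3, h4⟩ => ⟨⟨h1, h2, fun k => ?_⟩, h3.lo, h3.hi⟩,
    fun T φ h ⟨_, _, h3, h4⟩ t ht => ⟨h.zero t, h.ev t, ⟨hα, (h.ad t).q2,
      h.lower hV hβ h3.lo t ht, (h.ad t).hi⟩, fun r => p3 r T φ h (h4 r) t ht⟩⟩
  · rcases k with _ | k
    · exact ⟨α, fun z => bd2_of _ z α hα.le (fun w => by rw [DD_quad]; positivity)
        fun w => (DD_quad α w z).le⟩
    · exact ⟨0, bd_quad α k⟩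
  · have := hK k
    rcases k with _ | k
    · exact fun z => (bd2_of _ z β hβ.le (fun w => le_trans (by positivity) (h3.lo w z))
        fun w => h3.hi w z).mono (by linarith)
    · exact (p2 (k + 1) _ _ h3 (h4 _) (k + 1) (by omega) (by omega)).mono (by linarith)

end Vale.Agent.P227
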