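import Mathlib

set_option linter.unusedSectionVars false
set_option linter.unusedSimpArgs false
noncomputable section
namespace Vale.Agent.P227
open Finset
variable {ι : Type*} [Fintype ι]

lemma perm4 {M : Type*} [AddCommMonoid M] (F G : ι → ι → ι → ι → M) (φ : ι × ι × ι × ι → ι × ι × ι × ι)
    (hφ : Function.Injective φ)
    (h : ∀ a b c d, F a b c d = (fun p : ι × ι × ι × ι => G p.1 p.2.1 p.2.2.1 p.2.2.2)
      (φ (a, b, c, d))) :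
    ∑ a, ∑ b, ∑ c, ∑ d, F a b c d = ∑ a, ∑ b, ∑ c, ∑ d, G a b c d := by
  have := Fintype.sum_bijective φ (Finite.injective_iff_bijective.1 hφ)
    (fun p => F p.1 p.2.1 p.2.2.1 p.2.2.2) (fun p => G p.1 p.2.1 p.2.2.1 p.2.2.2)
    fun p => h _ _ _ _
  simpa only [Fintype.sum_prod_type] using this

lemma perm5 (F G : ι → ι → ι → ι → ι → ℝ) (φ : ι × ι × ι × ι × ι → ι × ι × ι × ι × ι)
    (hφ : Function.Injective φ)
    (h : ∀ a b c d e, F a b c d e = (fun p : ι × ι × ι × ι × ι =>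
      G p.1 p.2.1 p.2.2.1 p.2.2.2.1 p.2.2.2.2) (φ (a, b, c, d, e))) :
    ∑ a, ∑ b, ∑ c, ∑ d, ∑ e, F a b c d e = ∑ a, ∑ b, ∑ c, ∑ d, ∑ e, G a b c d e := by
  have := Fintype.sum_bijective φ (Finite.injective_iff_bijective.1 hφ)
    (fun p => F p.1 p.2.1 p.2.2.1 p.2.2.2.1 p.2.2.2.2)
    (fun p => G p.1 p.2.1 p.2.2.1 p.2.2.2.1 p.2.2.2.2) fun p => h _ _ _ _ _
  simpa only [Fintype.sum_prod_type] using this

lemma perm6 (F G : ι → ι → ι → ι → ι → ι → ℝ)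
    (φ : ι × ι × ι × ι × ι × ι → ι × ι × ι × ι × ι × ι) (hφ : Function.Injective φ)
    (h : ∀ a b c d e f, F a b c d e f = (fun p : ι × ι × ι × ι × ι × ι =>
      G p.1 p.2.1 p.2.2.1 p.2.2.2.1 p.2.2.2.2.1 p.2.2.2.2.2) (φ (a, b, c, d, e, f))) :
    ∑ a, ∑ b, ∑ c, ∑ d, ∑ e, ∑ f, F a b c d e f =
      ∑ a, ∑ b, ∑ c, ∑ d, ∑ e, ∑ f, G a b c d e f := by
  have := Fintype.sum_bijective φ (Finite.injective_iff_bijective.1 hφ)
    (fun p => F p.1 p.2.1 p.2.2.1 p.2.2.2.1 p.2.2.2.2.1 p.2.2.2.2.2)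
    (fun p => G p.1 p.2.1 p.2.2.1 p.2.2.2.1 p.2.2.2.2.1 p.2.2.2.2.2) fun p => h _ _ _ _ _ _
  simpa only [Fintype.sum_prod_type] using this

section
variable {T : ι → ι → ι → ℝ} {Q : ι → ι → ι → ι → ℝ} {κ : ι → ι → ℝ}
  (t1 : ∀ a b c, T a b c = T b a c) (t2 : ∀ a b c, T a b c = T a c b)
  (q1 : ∀ a b c d, Q a b c d = Q b a c d) (q2 : ∀ a b c d, Q a b c d = Q a c b d)
  (q3 : ∀ a b c d, Q a b c d = Q a b d c)

def cq (T : ι → ι → ι → ℝ) (Q : ι → ι → ι → ι → ℝ) : ℝ :=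
  ∑ a, ∑ b, ∑ c, ∑ d, ∑ i, Q a b c d * (T i a b * T i c d)
def cρ (T : ι → ι → ι → ℝ) : ℝ :=
  ∑ a, ∑ b, ∑ c, ∑ d, ∑ i, ∑ j, T i a b * T i c d * (T j a b * T j c d)
def cU (T : ι → ι → ι → ℝ) : ℝ :=
  ∑ a, ∑ b, ∑ c, ∑ d, ∑ i, ∑ j, T i a b * T i c d * (T j a c * T j b d)
def cκ (T : ι → ι → ι → ℝ) (κ : ι → ι → ℝ) : ℝ := ∑ a, ∑ b, ∑ i, ∑ j, κ a b * (T a i j * T b i j)

include t1 t2 in
lemma p1 : ∑ a, ∑ b, ∑ c, ∑ i, ∑ j, T a b c * (Q a b i j * T i j c) = cq T Q :=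
  perm5 _ _ (fun (a, b, c, i, j) => (a, b, i, j, c))
    (fun ⟨_, _, _, _, _⟩ ⟨_, _, _, _, _⟩ h => by cases h; rfl)
    fun a b c i j => by simp only [t1, t2]; ring
include t1 t2 q1 q2 q3 in
lemma p2 : ∑ a, ∑ b, ∑ c, ∑ i, ∑ j, T a b c * (T b i j * Q a i j c) = cq T Q :=
  perm5 _ _ (fun (a, b, c, i, j) => (a, c, i, j, b))
    (fun ⟨_, _, _, _, _⟩ ⟨_, _, _, _, _⟩ h => by cases h; rfl)
    fun a b c i j => by simp only [t1, t2, q1, q2, q3]; ring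
include t1 t2 q1 q2 q3 in
lemma p3 : ∑ a, ∑ b, ∑ c, ∑ i, ∑ j, T a b c * (T a i j * Q b i j c) = cq T Q :=
  perm5 _ _ (fun (a, b, c, i, j) => (b, c, i, j, a))
    (fun ⟨_, _, _, _, _⟩ ⟨_, _, _, _, _⟩ h => by cases h; rfl)
    fun a b c i j => by simp only [t1, t2, q1, q2, q3]; ring
include t1 t2 q1 q2 q3 in
lemma p4 : ∑ a, ∑ b, ∑ c, ∑ d, ∑ i, T a b c * (T i c d * Q i a b d) = cq T Q :=
  perm5 _ _ (fun (a, b, c, d, i) => (a, b, i, d, c))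
    (fun ⟨_, _, _, _, _⟩ ⟨_, _, _, _, _⟩ h => by cases h; rfl)
    fun a b c d i => by simp only [t1, t2, q1, q2, q3]; ring
include t1 t2 q1 q2 q3 in
lemma p5 : ∑ a, ∑ b, ∑ c, ∑ d, ∑ i, T a b c * (T i b d * Q i a d c) = cq T Q :=
  perm5 _ _ (fun (a, b, c, d, i) => (a, c, i, d, b))
    (fun ⟨_, _, _, _, _⟩ ⟨_, _, _, _, _⟩ h => by cases h; rfl)
    fun a b c d i => by simp only [t1, t2, q1, q2, q3]; ring
include t1 t2 q1 q2 q3 in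
lemma p6 : ∑ a, ∑ b, ∑ c, ∑ d, ∑ i, T a b c * (T i a d * Q i d b c) = cq T Q :=
  perm5 _ _ (fun (a, b, c, d, i) => (b, c, i, d, a))
    (fun ⟨_, _, _, _, _⟩ ⟨_, _, _, _, _⟩ h => by cases h; rfl)
    fun a b c d i => by simp only [t1, t2, q1, q2, q3]; ring
include t1 t2 q1 q2 q3 in
lemma p7 : ∑ a, ∑ b, ∑ c, ∑ i, ∑ k, Q i a b c * (T i c k * T a b k) = cq T Q :=
  perm5 _ _ (fun (a, b, c, i, k) => (a, b, i, c, k))
    (fun ⟨_, _, _, _, _⟩ ⟨_, _, _, _, _⟩ h => by cases h; rfl)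
    fun a b c i k => by simp only [t1, t2, q1, q2, q3]; ring
include t1 t2 q1 q2 q3 in
lemma p8 : ∑ a, ∑ b, ∑ c, ∑ i, ∑ k, Q i a b c * (T i b k * T a k c) = cq T Q :=
  perm5 _ _ (fun (a, b, c, i, k) => (a, c, i, b, k))
    (fun ⟨_, _, _, _, _⟩ ⟨_, _, _, _, _⟩ h => by cases h; rfl)
    fun a b c i k => by simp only [t1, t2, q1, q2, q3]; ring
include t1 t2 q1 q2 q3 in
lemma p9 : ∑ a, ∑ b, ∑ c, ∑ i, ∑ k, Q i a b c * (T i a k * T k b c) = cq T Q :=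
  perm5 _ _ (fun (a, b, c, i, k) => (b, c, i, a, k))
    (fun ⟨_, _, _, _, _⟩ ⟨_, _, _, _, _⟩ h => by cases h; rfl)
    fun a b c i k => by simp only [t1, t2, q1, q2, q3]; ring
include t1 t2 in
lemma u1 : ∑ a, ∑ b, ∑ c, ∑ i, ∑ j, ∑ k, T a b c * (T a i k * T b k j * T i j c) = cU T :=
  perm6 _ _ (fun (a, b, c, i, j, k) => (b, c, k, i, a, j))
    (fun ⟨_, _, _, _, _, _⟩ ⟨_, _, _, _, _, _⟩ h => by cases h; rfl)
    fun a b c i j k => by simp only [t1, t2]; ring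
include t1 t2 in
lemma u2 : ∑ a, ∑ b, ∑ c, ∑ i, ∑ j, ∑ k, T a b c * (T b i k * T a k j * T i j c) = cU T :=
  perm6 _ _ (fun (a, b, c, i, j, k) => (a, c, k, i, b, j))
    (fun ⟨_, _, _, _, _, _⟩ ⟨_, _, _, _, _, _⟩ h => by cases h; rfl)
    fun a b c i j k => by simp only [t1, t2]; ring
include t1 t2 in
lemma u3 : ∑ a, ∑ b, ∑ c, ∑ d, ∑ i, ∑ k, T a b c * (T i b d * (T i c k * T a d k)) = cU T :=
  perm6 _ _ (fun (a, b, c, d, i, k) => (b, c, d, k, a, i))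
    (fun ⟨_, _, _, _, _, _⟩ ⟨_, _, _, _, _, _⟩ h => by cases h; rfl)
    fun a b c d i k => by simp only [t1, t2]; ring
include t1 t2 in
lemma u4 : ∑ a, ∑ b, ∑ c, ∑ d, ∑ i, ∑ k, T a b c * (T i a d * (T i c k * T d b k)) = cU T :=
  perm6 _ _ (fun (a, b, c, d, i, k) => (a, c, d, k, b, i))
    (fun ⟨_, _, _, _, _, _⟩ ⟨_, _, _, _, _, _⟩ h => by cases h; rfl)
    fun a b c d i k => by simp only [t1, t2]; ring
include t1 t2 in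
lemma u5 : ∑ a, ∑ b, ∑ c, ∑ d, ∑ i, ∑ k, T a b c * (T i a d * (T i b k * T d k c)) = cU T :=
  perm6 _ _ (fun (a, b, c, d, i, k) => (a, b, d, k, c, i))
    (fun ⟨_, _, _, _, _, _⟩ ⟨_, _, _, _, _, _⟩ h => by cases h; rfl)
    fun a b c d i k => by simp only [t1, t2]; ring
include t1 t2 in
lemma k1 : ∑ a, ∑ b, ∑ c, ∑ d, T a b c * (κ c d * T a b d) = cκ T κ :=
  perm4 _ _ (fun (a, b, c, d) => (c, d, a, b))
    (fun ⟨_, _, _, _⟩ ⟨_, _, _, _⟩ h => by cases h; rfl)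
    fun a b c d => by simp only [t1, t2]; ring
include t1 t2 in
lemma k2 : ∑ a, ∑ b, ∑ c, ∑ d, T a b c * (κ b d * T a d c) = cκ T κ :=
  perm4 _ _ (fun (a, b, c, d) => (b, d, a, c))
    (fun ⟨_, _, _, _⟩ ⟨_, _, _, _⟩ h => by cases h; rfl)
    fun a b c d => by simp only [t1, t2]; ring
lemma k3 : ∑ a, ∑ b, ∑ c, ∑ d, T a b c * (κ a d * T d b c) = cκ T κ :=
  perm4 _ _ (fun (a, b, c, d) => (a, d, b, c))
    (fun ⟨_, _, _, _⟩ ⟨_, _, _, _⟩ h => by cases h; rfl)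
    fun a b c d => by ring
lemma r1 : ∑ a, ∑ b, ∑ i, ∑ j, ∑ k, ∑ l, T a k l * T b k l * (T a i j * T b i j) = cρ T :=
  perm6 _ _ (fun (a, b, i, j, k, l) => (k, l, i, j, a, b))
    (fun ⟨_, _, _, _, _, _⟩ ⟨_, _, _, _, _, _⟩ h => by cases h; rfl)
    fun a b i j k l => by ring
include q2 in
lemma s1 : ∑ a, ∑ b, ∑ c, ∑ d, ∑ i, Q a b c d * (T i a c * T i b d) = cq T Q :=
  perm5 _ _ (fun (a, b, c, d, i) => (a, c, b, d, i))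
    (fun ⟨_, _, _, _, _⟩ ⟨_, _, _, _, _⟩ h => by cases h; rfl)
    fun a b c d i => by simp only [q2]
include q2 q3 in
lemma s2 : ∑ a, ∑ b, ∑ c, ∑ d, ∑ i, Q a b c d * (T i a d * T i b c) = cq T Q :=
  perm5 _ _ (fun (a, b, c, d, i) => (a, d, b, c, i))
    (fun ⟨_, _, _, _, _⟩ ⟨_, _, _, _, _⟩ h => by cases h; rfl)
    fun a b c d i => by simp only [q2, q3]
lemma s3 : ∑ a, ∑ b, ∑ c, ∑ d, ∑ i, ∑ j, T i a c * T i b d * (T j a c * T j b d) = cρ T :=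
  perm6 _ _ (fun (a, b, c, d, i, j) => (a, c, b, d, i, j))
    (fun ⟨_, _, _, _, _, _⟩ ⟨_, _, _, _, _, _⟩ h => by cases h; rfl)
    fun a b c d i j => by rfl
lemma s4 : ∑ a, ∑ b, ∑ c, ∑ d, ∑ i, ∑ j, T i a d * T i b c * (T j a d * T j b c) = cρ T :=
  perm6 _ _ (fun (a, b, c, d, i, j) => (a, d, b, c, i, j))
    (fun ⟨_, _, _, _, _, _⟩ ⟨_, _, _, _, _, _⟩ h => by cases h; rfl)
    fun a b c d i j => by rfl
include t1 t2 in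
lemma s5 : ∑ a, ∑ b, ∑ c, ∑ d, ∑ i, ∑ j, T i a c * T i b d * (T j a d * T j b c) = cU T :=
  perm6 _ _ (fun (a, b, c, d, i, j) => (a, c, d, b, i, j))
    (fun ⟨_, _, _, _, _, _⟩ ⟨_, _, _, _, _, _⟩ h => by cases h; rfl)
    fun a b c d i j => by simp only [t1, t2]
include t1 t2 in
lemma s7 : ∑ a, ∑ b, ∑ c, ∑ d, ∑ i, ∑ j, T i a d * T i b c * (T j a c * T j b d) = cU T :=
  perm6 _ _ (fun (a, b, c, d, i, j) => (a, d, c, b, i, j))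
    (fun ⟨_, _, _, _, _, _⟩ ⟨_, _, _, _, _, _⟩ h => by cases h; rfl)
    fun a b c d i j => by simp only [t1, t2]
lemma s6 : ∑ a, ∑ b, ∑ c, ∑ i, Q i a b c * Q i a b c = ∑ a, ∑ b, ∑ c, ∑ d, Q a b c d * Q a b c d :=
  perm4 _ _ (fun (a, b, c, i) => (i, a, b, c))
    (fun ⟨_, _, _, _⟩ ⟨_, _, _, _⟩ h => by cases h; rfl)
    fun a b c i => by rfl

lemma sos4 (A B : ι → ι → ι → ι → ℝ) (x y : ℝ) :
    0 ≤ x ^ 2 * ∑ a, ∑ b, ∑ c, ∑ d, A a b c d * A a b c d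
      + 2 * x * y * ∑ a, ∑ b, ∑ c, ∑ d, A a b c d * B a b c d
      + y ^ 2 * ∑ a, ∑ b, ∑ c, ∑ d, B a b c d * B a b c d := by
  simp only [mul_sum, ← sum_add_distrib]
  exact sum_nonneg fun a _ => sum_nonneg fun b _ => sum_nonneg fun c _ => sum_nonneg fun d _ => by
    nlinarith [sq_nonneg (x * A a b c d + y * B a b c d)]

include t1 t2 q2 q3 in
lemma sos : 0 ≤ 3 * cρ T - 6 * cq T Q + 2 * cU T
    + 2 * ∑ a, ∑ b, ∑ c, ∑ d, Q a b c d * Q a b c d := by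
  have c1 := sos4 Q (fun a b c d => ∑ i, T i a c * T i b d + ∑ i, T i a d * T i b c) 2 (-3 / 2)
  have c2 := sos4 (fun a b c d => ∑ i, T i a c * T i b d) (fun a b c d => ∑ i, T i a d * T i b c)
    1 (-1)
  have c3 := sos4 (fun a b c d => ∑ i, T i a c * T i b d) (fun a b c d => ∑ i, T i a d * T i b c)
    1 0
  have e1 : ∀ a b c d (f : ι → ℝ), Q a b c d * ∑ i, f i = ∑ i, Q a b c d * f i :=
    fun _ _ _ _ _ => mul_sum _ _ _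
  simp only [mul_add, add_mul, sum_add_distrib, sum_mul_sum, e1, s1 q2, s2 q2 q3, s3, s4,
    s5 t1 t2, s7 t1 t2] at c1 c2 c3
  linarith

lemma k4 [DecidableEq ι] (V2 : ι → ι → ℝ) (hV : ∀ ξ : ι → ℝ, 0 ≤ ∑ a, ∑ b, V2 a b * ξ a * ξ b)
    (hκ : ∀ a b, κ a b = ∑ i, ∑ j, T a i j * T b i j - (if a = b then 1 else 0) + V2 a b) :
    cρ T - ∑ a, ∑ b, ∑ c, T a b c * T a b c ≤ cκ T κ := by
  have a2 : 0 ≤ ∑ a, ∑ b, ∑ i, ∑ j, V2 a b * (T a i j * T b i j) := by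
    rw [perm4 _ (fun i j a b => V2 a b * T a i j * T b i j) (fun (a, b, c, d) => (c, d, a, b))
      (fun ⟨_, _, _, _⟩ ⟨_, _, _, _⟩ h => by cases h; rfl) fun a b c d => by ring]
    exact sum_nonneg fun i _ => sum_nonneg fun j _ => hV _
  have a3 : ∑ a, ∑ b, ∑ i, ∑ j, (if a = b then 1 else 0) * (T a i j * T b i j) =
      ∑ a, ∑ b, ∑ c, T a b c * T a b c := by
    simp only [← mul_sum]
    simp only [ite_mul, one_mul, zero_mul, sum_ite_eq, mem_univ, if_true]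
  simp only [cκ, hκ, add_mul, sub_mul, sum_add_distrib, sum_sub_distrib, sum_mul, r1, a3]
  linarith

include t1 t2 q1 q2 q3 in
theorem calabi_alg [DecidableEq ι] (V2 : ι → ι → ℝ) (V3 PT : ι → ι → ι → ℝ)
    (hV : ∀ ξ : ι → ℝ, 0 ≤ ∑ a, ∑ b, V2 a b * ξ a * ξ b)
    (hκ : ∀ a b, κ a b = ∑ i, ∑ j, T a i j * T b i j - (if a = b then 1 else 0) + V2 a b)
    (hP : ∀ a b c, PT a b c = 2 * T a b c - V3 a b c + ∑ i, ∑ j, Q a b i j * T i j c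
      + ∑ i, ∑ j, T b i j * Q a i j c + ∑ i, ∑ j, T a i j * Q b i j c
      - ∑ i, ∑ j, ∑ k, T a i k * T b k j * T i j c - ∑ i, ∑ j, ∑ k, T b i k * T a k j * T i j c) :
    ∑ a, ∑ b, ∑ c, T a b c * T a b c - 2 * ∑ a, ∑ b, ∑ c, T a b c * V3 a b c ≤
    ∑ a, ∑ b, ∑ c, (T a b c * (PT a b c + ∑ d, κ c d * T a b d - 2 * ∑ d, ∑ i, T i c d * Q i a b d
        + ∑ d, κ b d * T a d c - 2 * ∑ d, ∑ i, T i b d * (Q i a d c - ∑ k, T i c k * T a d k)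
        + ∑ d, κ a d * T d b c - 2 * ∑ d, ∑ i, T i a d *
          (Q i d b c - ∑ k, T i c k * T d b k - ∑ k, T i b k * T d k c))
      + T a b c * PT a b c + 2 * ∑ i, Q i a b c * (Q i a b c - ∑ k, T i c k * T a b k
        - ∑ k, T i b k * T a k c - ∑ k, T i a k * T k b c)) := by
  have e1 : ∀ x y : ℝ, x * (2 * y) = 2 * (x * y) := fun x y => by ring
  have e2 : ∀ a b c (f : ι → ℝ), T a b c * ∑ i, f i = ∑ i, T a b c * f i :=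
    fun _ _ _ _ => mul_sum _ _ _
  have e3 : ∀ a b c d (f : ι → ℝ), Q a b c d * ∑ i, f i = ∑ i, Q a b c d * f i :=
    fun _ _ _ _ _ => mul_sum _ _ _
  have e4 : ∀ f : ι → ℝ, ∑ i, 2 * f i = 2 * ∑ i, f i := fun _ => (mul_sum _ _ _).symm
  have := sos t1 t2 q2 q3
  have := k4 V2 hV hκ
  simp only [hP, mul_add, mul_sub, e1, e2, e3, sum_add_distrib, sum_sub_distrib, e4]
  rw [p1 t1 t2, p2 t1 t2 q1 q2 q3, p3 t1 t2 q1 q2 q3, p4 t1 t2 q1 q2 q3, p5 t1 t2 q1 q2 q3,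
    p6 t1 t2 q1 q2 q3, p7 t1 t2 q1 q2 q3, p8 t1 t2 q1 q2 q3, p9 t1 t2 q1 q2 q3, u1 t1 t2, u2 t1 t2,
    u3 t1 t2, u4 t1 t2, u5 t1 t2, k1 t1 t2, k2 t1 t2, k3, s6]
  linarith
end

end Vale.Agent.P227
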