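import Vale.Agent.P227.MaxP
import Vale.Agent.P227.CalAlg

open scoped ContDiff Topology
open Filter Set MeasureTheory
noncomputable section
namespace Vale.Agent.P227
variable {n : ℕ}

structure PF (m : Fin n → E n) (t : ℝ) (x : E n) (φ : ℝ → Sm n)
    (σ : ℝ → Fin n → Fin n → Sm n) (V : Sm n) : Prop where
  inv : ∀ r i k, ∑ j, σ r i j * D (m j) (D (m k) (φ r)) = if i = k then 1 else 0
  pt : ∀ i j, σ t i j x = if i = j then 1 else 0
  dt : ∀ i j, ∃ c, HasDerivAt (fun r => σ r i j x) c t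
  eq : ∀ l v, HasDerivAt (fun r => DM l (D v (φ r)) x) (DM l (∑ i, ∑ j, σ t i j *
    D (m i) (D (m j) (D v (φ t))) - rad (D v (φ t)) + D v V) x) t

def T3 (m : Fin n → E n) (f : Sm n) (a b c : Fin n) : Sm n := D (m a) (D (m b) (D (m c) f))
def T4 (m : Fin n → E n) (f : Sm n) (a b c d : Fin n) : Sm n := D (m a) (T3 m f b c d)
lemma T3_1 (m : Fin n → E n) (f : Sm n) (a b c) : T3 m f a b c = T3 m f b a c := D_comm _ _ _
lemma T3_2 (m : Fin n → E n) (f : Sm n) (a b c) : T3 m f a b c = T3 m f a c b := by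
  rw [T3, T3, D_comm (m b)]
lemma T4_1 (m : Fin n → E n) (f : Sm n) (a b c d) : T4 m f a b c d = T4 m f b a c d := D_comm _ _ _
lemma T4_2 (m : Fin n → E n) (f : Sm n) (a b c d) : T4 m f a b c d = T4 m f a c b d := by
  rw [T4, T4, T3_1]
lemma T4_3 (m : Fin n → E n) (f : Sm n) (a b c d) : T4 m f a b c d = T4 m f a b d c := by
  rw [T4, T4, T3_2]
lemma D_ite (v : E n) (p : Prop) [Decidable p] : D v (if p then (1 : Sm n) else 0) = 0 := by
  split_ifs <;> simp

def Sc (σ : Fin n → Fin n → Sm n) (m : Fin n → E n) (f : Sm n) : Sm n :=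
  ctr σ m fun u u' => ctr σ m fun v v' => ctr σ m fun w w' =>
    D u (D v (D w f)) * D u' (D v' (D w' f))

lemma Sc_inv {τ σ : Fin n → Fin n → Sm n} {m : Fin n → E n}
    (hm : ∀ a b, τ a b = ∑ i, ∑ j, (m i a * m j b) • σ i j) (f : Sm n) : Sc τ e f = Sc σ m f := by
  have h1 : ∀ u u' v v', (ctr τ e fun w w' => D u (D v (D w f)) * D u' (D v' (D w' f))) =
      ctr σ m fun w w' => D u (D v (D w f)) * D u' (D v' (D w' f)) := fun u u' v v' =>
    ((((lin_D f).D v).D u).mul (((lin_D f).D v').D u')).inv hm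
  have h2 : ∀ u u', (ctr τ e fun v v' => ctr σ m fun w w' =>
      D u (D v (D w f)) * D u' (D v' (D w' f))) = ctr σ m fun v v' => ctr σ m fun w w' =>
      D u (D v (D w f)) * D u' (D v' (D w' f)) := fun u u' =>
    (Bil.ctr (B := fun v v' w w' => D u (D v (D w f)) * D u' (D v' (D w' f)))
      (fun _ _ => ((lin_D _).D u).mul ((lin_D _).D u')) σ m).inv hm
  simp only [Sc, h1, h2]
  exact (Bil.ctr (B := fun u u' v v' => ctr σ m fun w w' =>
    D u (D v (D w f)) * D u' (D v' (D w' f))) (fun v v' => Bil.ctr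
      (B := fun u u' w w' => D u (D v (D w f)) * D u' (D v' (D w' f)))
      (fun _ _ => (lin_D _).mul (lin_D _)) σ m) σ m).inv hm

lemma Sc_eq (σ : Fin n → Fin n → Sm n) (m : Fin n → E n) (f : Sm n) : Sc σ m f =
    ∑ a, ∑ b, ∑ c, T3 m f a b c * ∑ a', σ a a' * ∑ b', σ b b' * ∑ c', σ c c' * T3 m f a' b' c' := by
  simp only [Sc, ctr, Finset.mul_sum, T3]
  refine Finset.sum_congr rfl fun a _ => ?_
  rw [Finset.sum_comm]
  refine Finset.sum_congr rfl fun b _ => ?_
  rw [Finset.sum_comm_cycle]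
  exact Finset.sum_congr rfl fun _ _ => Finset.sum_congr rfl fun _ _ =>
    Finset.sum_congr rfl fun _ _ => Finset.sum_congr rfl fun _ _ => by ring

namespace PF
variable {m : Fin n → E n} {t : ℝ} {x : E n} {φ : ℝ → Sm n}
  {σ : ℝ → Fin n → Fin n → Sm n} {V : Sm n} (h : PF m t x φ σ V)
include h

lemma sum_pt (i) (F : Fin n → ℝ) : ∑ j, σ t i j x * F j = F i := by simp [h.pt]
lemma sum_pt2 (F : Fin n → Fin n → ℝ) : ∑ i, ∑ j, σ t i j x * F i j = ∑ i, F i i := by
  simp [h.pt]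
lemma g_pt (i k) : D (m i) (D (m k) (φ t)) x = if i = k then 1 else 0 := by
  have := congrArg (fun g : Sm n => g x) (h.inv t i k)
  simp only [Sm.sum_apply, Sm.mul_apply, h.sum_pt] at this
  rw [this]; split_ifs <;> rfl
lemma sum_g (k) (F : Fin n → ℝ) : ∑ j, F j * D (m j) (D (m k) (φ t)) x = F k := by simp [h.g_pt]
lemma D_σ (a i k) : D (m a) (σ t i k) x = - T3 m (φ t) a i k x := by
  have := congrArg (fun g : Sm n => D (m a) g x) (h.inv t i k)
  simp only [D_ite, map_sum, D_mul, Sm.sum_apply, Sm.add_apply, Sm.mul_apply, h.sum_pt, h.sum_g,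
    Finset.sum_add_distrib, Sm.zero_apply] at this
  rw [T3]; linarith
lemma DD_σ (a b i k) : D (m a) (D (m b) (σ t i k)) x = - T4 m (φ t) a b i k x +
    ∑ j, T3 m (φ t) a i j x * T3 m (φ t) b j k x + ∑ j, T3 m (φ t) b i j x * T3 m (φ t) a j k x := by
  have := congrArg (fun g : Sm n => D (m a) (D (m b) g) x) (h.inv t i k)
  simp only [D_ite, map_sum, D_mul, Sm.sum_apply, Sm.add_apply, Sm.mul_apply, h.sum_pt, h.sum_g,
    Finset.sum_add_distrib, Sm.zero_apply, map_add, map_zero, h.D_σ, neg_mul,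
    Finset.sum_neg_distrib] at this
  simp only [T4, T3] at this ⊢; linarith

lemma hp_g (a b) : HP m t x (fun r => D (m a) (D (m b) (φ r)))
    (∑ i, ∑ j, T3 m (φ t) a i j x * T3 m (φ t) b i j x + (if a = b then 1 else 0)
      - D (m a) (D (m b) V) x) := by
  refine ⟨_, h.eq {m a} (m b), ?_⟩
  have e1 : ∀ i j, D (m i) (D (m j) (D (m b) (φ t))) = T3 m (φ t) b i j := fun i j => by
    rw [T3_1, T3_2]; rfl
  have e2 : ∀ i, D (m a) (T3 m (φ t) b i i) = D (m i) (D (m i) (D (m a) (D (m b) (φ t)))) :=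
    fun i => by rw [← e1, D_comm (m a), D_comm (m a)]
  simp only [DM_single, map_add, map_sub, map_sum, D_mul, D_rad, Sm.add_apply, Sm.sub_apply,
    Sm.sum_apply, Sm.mul_apply, Finset.sum_add_distrib, h.sum_pt, h.D_σ, h.g_pt, e1, e2, neg_mul,
    Finset.sum_neg_distrib]
  ring

def κ (m : Fin n → E n) (x : E n) (f V : Sm n) (a b : Fin n) : ℝ :=
  ∑ i, ∑ j, T3 m f a i j x * T3 m f b i j x - (if a = b then 1 else 0) + D (m a) (D (m b) V) x

lemma hp_σ (a b) : HP m t x (fun r => σ r a b) (κ m x (φ t) V a b) := by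
  choose c hc using h.dt
  have h1 : ∀ i j, HP m t x (fun r => σ r i j) _ := fun i j => ⟨_, hc i j, rfl⟩
  have h2 := HP.sum Finset.univ fun j _ => (h1 a j).mul (h.hp_g j b)
  have h3 : HP m t x (fun r => ∑ j, σ r a j * D (m j) (D (m b) (φ r))) 0 := by
    simp only [h.inv]
    have := HP.cst (m := m) (t := t) (x := x) (if a = b then 1 else 0)
    split_ifs at this ⊢ <;> simpa [cst] using this
  have h4 := h2.unique h3
  refine (h1 a b).congr ?_
  have e1 : ∑ j, ∑ i, T3 m (φ t) i a j x * D (m i) (D (m j) (D (m b) (φ t))) x =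
      ∑ i, ∑ j, T3 m (φ t) a i j x * T3 m (φ t) b i j x := by
    rw [Finset.sum_comm]
    refine Finset.sum_congr rfl fun i _ => Finset.sum_congr rfl fun j _ => ?_
    rw [T3_1 m _ i, T3_1 m _ b, T3_2 m _ i b]; rfl
  simp only [Finset.sum_add_distrib, h.sum_pt, mul_comm (D (m _) (D (m b) (φ t)) x), h.sum_g,
    h.D_σ, neg_mul, Finset.sum_neg_distrib, ← Finset.mul_sum, e1] at h4
  rw [κ]; linarith

lemma hp_T (a b c) : HP m t x (fun r => T3 m (φ r) a b c) (2 * T3 m (φ t) a b c x - T3 m V a b c x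
    + ∑ i, ∑ j, T4 m (φ t) a b i j x * T3 m (φ t) i j c x
    + ∑ i, ∑ j, T3 m (φ t) b i j x * T4 m (φ t) a i j c x
    + ∑ i, ∑ j, T3 m (φ t) a i j x * T4 m (φ t) b i j c x
    - ∑ i, ∑ j, ∑ k, T3 m (φ t) a i k x * T3 m (φ t) b k j x * T3 m (φ t) i j c x
    - ∑ i, ∑ j, ∑ k, T3 m (φ t) b i k x * T3 m (φ t) a k j x * T3 m (φ t) i j c x) := by
  refine ⟨_, by simpa only [DM_cons, DM_single, T3] using h.eq (m a ::ₘ {m b}) (m c), ?_⟩
  have e2 : ∀ i, D (m a) (D (m b) (D (m i) (D (m i) (D (m c) (φ t))))) =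
      D (m i) (D (m i) (D (m a) (D (m b) (D (m c) (φ t))))) := fun i => by
    rw [D_comm (m b), D_comm (m b), D_comm (m a), D_comm (m a)]
  simp only [map_add, map_sub, map_sum, D_mul, D_rad, Sm.add_apply, Sm.sub_apply,
    Sm.sum_apply, Sm.mul_apply, Finset.sum_add_distrib, h.sum_pt, h.D_σ, h.DD_σ, e2, neg_mul,
    Finset.sum_neg_distrib, T4, T3, add_mul, Finset.sum_mul]
  ring

lemma raise_D (X : Fin n → Sm n) (a i) : D (m i) (∑ a', σ t a a' * X a') x =
    D (m i) (X a) x - ∑ a', T3 m (φ t) i a a' x * X a' x := by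
  simp only [map_sum, D_mul, Sm.sum_apply, Sm.add_apply, Sm.mul_apply, Finset.sum_add_distrib,
    h.sum_pt, h.D_σ, neg_mul, Finset.sum_neg_distrib]
  ring
lemma raise_val (X : Fin n → Sm n) (a) : (∑ a', σ t a a' * X a') x = X a x := by
  simp only [Sm.sum_apply, Sm.mul_apply, h.sum_pt]
lemma raise_hp {X : Fin n → ℝ → Sm n} {c : Fin n → ℝ} (hX : ∀ a, HP m t x (X a) (c a)) (a) :
    HP m t x (fun r => ∑ a', σ r a a' * X a' r) (c a + ∑ d, κ m x (φ t) V a d * X d t x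
      - 2 * ∑ d, ∑ i, T3 m (φ t) i a d x * D (m i) (X d t) x) := by
  refine (HP.sum Finset.univ fun d _ => (h.hp_σ a d).mul (hX d)).congr ?_
  simp only [Finset.sum_add_distrib, h.sum_pt, h.D_σ, neg_mul, Finset.sum_neg_distrib,
    ← Finset.mul_sum, mul_comm (X _ t x)]
  ring

lemma calabi (hV : ∀ w, 0 ≤ D w (D w V) x) : ∃ c, HP m t x (fun r => Sc (σ r) m (φ r)) c ∧
    Sc (σ t) m (φ t) x = ∑ a, ∑ b, ∑ c, T3 m (φ t) a b c x * T3 m (φ t) a b c x ∧
    Sc (σ t) m (φ t) x - 2 * ∑ a, ∑ b, ∑ c, T3 m (φ t) a b c x * T3 m V a b c x ≤ c := by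
  have h1 := fun a b => h.raise_hp (h.hp_T a b)
  have h2 := fun a c => h.raise_hp fun b => h1 a b c
  have h3 := fun b c => h.raise_hp fun a => h2 a c b
  have h4 := HP.sum Finset.univ fun a _ => HP.sum Finset.univ fun b _ =>
    HP.sum Finset.univ fun c _ => (h.hp_T a b c).mul (h3 b c a)
  have e1 : Sc (σ t) m (φ t) x = ∑ a, ∑ b, ∑ c, T3 m (φ t) a b c x * T3 m (φ t) a b c x := by
    simp only [Sc_eq, Sm.sum_apply, Sm.mul_apply, h.sum_pt]
  simp only [← Sc_eq] at h4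
  refine ⟨_, h4, e1, ?_⟩
  rw [e1]
  simp only [h.raise_D, h.raise_val]
  exact calabi_alg (T := fun a b c => T3 m (φ t) a b c x) (Q := fun a b c d => T4 m (φ t) a b c d x)
    (κ := κ m x (φ t) V) (fun a b c => by rw [T3_1]) (fun a b c => by rw [T3_2])
    (fun a b c d => by rw [T4_1]) (fun a b c d => by rw [T4_2]) (fun a b c d => by rw [T4_3])
    (fun a b => D (m a) (D (m b) V) x) (fun a b c => T3 m V a b c x) _ (fun ξ => by
      refine (hV (∑ a, ξ a • m a)).trans (le_of_eq ?_)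
      simp only [D_sum_dir, D_smul_dir, map_sum, Derivation.map_smul, Sm.sum_apply, Sm.smul_apply,
        Finset.mul_sum]
      exact Finset.sum_congr rfl fun _ _ => Finset.sum_congr rfl fun _ _ => by
        rw [D_comm]; ring)
    (fun _ _ => rfl) fun _ _ _ => rfl
end PF

end Vale.Agent.P227
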