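import Vale.Agent.P227.Dens

open scoped ContDiff Topology
open Filter Set MeasureTheory
noncomputable section
namespace Vale.Agent.P227
variable {n : ℕ}

lemma Q2.add {f g : Sm n} (hf : Q2 f) (hg : Q2 g) : Q2 (f + g) := fun k => by
  obtain ⟨M, hM⟩ := hf k; obtain ⟨M', hM'⟩ := hg k; exact ⟨_, fun x => (hM x).add (hM' x)⟩
lemma Q2.smul {f : Sm n} (hf : Q2 f) (c : ℝ) : Q2 (c • f) := fun k => by
  obtain ⟨M, hM⟩ := hf k; exact ⟨_, fun x => (hM x).smul c⟩
lemma Q2.sum {κ : Type*} (s : Finset κ) {f : κ → Sm n} (hf : ∀ k, Q2 (f k)) : Q2 (∑ k ∈ s, f k) :=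
  Finset.sum_induction _ Q2 (fun _ _ => Q2.add) (fun _ => ⟨0, fun _ _ _ _ => by simp⟩) fun k _ => hf k
lemma Q2.af {f : Sm n} (hf : Q2 f) (r : ℝ) : Q2 (af r 0 f) := fun k => by
  obtain ⟨M, hM⟩ := hf k
  refine ⟨|r| ^ (k + 2) * M, fun x s hs hu => ?_⟩
  rw [DM_af, Sm.smul_apply, af_apply, abs_mul, abs_pow, hs]
  exact mul_le_mul_of_nonneg_left (hM _ s hs hu) (by positivity)
lemma Tm.af' {κ : Type*} {F : κ → Sm n} (h : Tm F) (r : κ → ℝ) {Λ : ℝ} (h1 : 1 ≤ Λ)
    (hr : ∀ i, |r i| ≤ Λ) : Tm fun i => P227.af (r i) 0 (F i) := by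
  intro k
  obtain ⟨C, p, h0, h⟩ := h.pos k
  refine ⟨Λ ^ k * (C * Λ ^ p), p, fun i x s hs hu => ?_⟩
  rw [DM_af, Sm.smul_apply, af_apply, abs_mul, abs_pow, hs, mul_assoc, mul_assoc, ← mul_pow]
  refine mul_le_mul (by gcongr; exact hr i) ((h i _ s hs hu).trans ?_) (abs_nonneg _) (by positivity)
  gcongr
  rw [add_zero, norm_smul, mul_add, mul_one]
  exact add_le_add h1 (mul_le_mul_of_nonneg_right (hr i) (norm_nonneg _))
lemma rad_af (r : ℝ) (f : Sm n) : rad (af r 0 f) = af r 0 (rad f) := by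
  ext x; simp [rad_apply, D_af, D_smul_dir]
lemma dt_af (f : Sm n) (c t : ℝ) (x : E n) : HasDerivAt (fun s => af (Real.exp (-c * s)) 0 f x)
    (-c * af (Real.exp (-c * t)) 0 (rad f) x) t := by
  have h1 := (hasDerivAt_line f 0 x (Real.exp (-c * t))).comp t ((hasDerivAt_id t).const_mul (-c)).exp
  simp only [af_apply, rad_apply, D_smul_dir, Sm.smul_apply, add_zero, zero_add] at h1 ⊢
  exact h1.congr_deriv (by simp; ring)
lemma Ev.rad {f : Sm n} (h : Ev f) : Ev (rad f) := fun x => by simp [rad_apply, D_neg_dir, h.D]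

lemma hasDerivAt_WI' {F F' U U' : ℝ → Sm n} {I : Set ℝ} {t : ℝ} (hI : I ∈ 𝓝 t)
    (h1 : Tm fun s : I => F s) (h2 : Tm fun s : I => F' s) (h3 : Tm fun s : I => U' s)
    {a : ℝ} (ha : 0 < a) (C' : ℝ) (h4 : ∀ s, ∀ x, a * ‖x‖ ^ 2 - C' ≤ U s x)
    (d1 : ∀ s x, HasDerivAt (fun r => F r x) (F' s x) s)
    (d2 : ∀ s x, HasDerivAt (fun r => U r x) (U' s x) s) :
    HasDerivAt (fun s => WI (U s) (F s)) (WI (U t) (F' t - F t * U' t)) t := by
  obtain ⟨C1, p1, a1, b1⟩ := h1.val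
  obtain ⟨C2, p2, a2, b2⟩ := h2.val
  obtain ⟨C3, p3, a3, b3⟩ := h3.val
  exact hasDerivAt_wint (fun s => F s) (fun s => F' s) (fun s => U s) (fun s => U' s) hI
    (fun s => (F s).cont) (F' t).cont (fun s => (U s).cont) (U' t).cont (C1 + C2 + C3)
    (p1 + p2 + p3)
    (fun s hs x => (b1 ⟨s, hs⟩ x).trans (wp_mono x (by linarith) (by linarith) (by omega)))
    (fun s hs x => (b2 ⟨s, hs⟩ x).trans (wp_mono x (by linarith) (by linarith) (by omega)))
    (fun s hs x => (b3 ⟨s, hs⟩ x).trans (wp_mono x (by linarith) (by linarith) (by omega)))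
    ha C' (fun s _ => h4 s) (fun s _ => d1 s) fun s _ => d2 s

section
variable {κ : Type*} [Fintype κ] {W : κ → Sm n} {α : ℝ} (hα : 0 < α) (h1 : ∀ k, Q2 (W k))
  (h2 : ∀ k w z, 0 ≤ D w (D w (W k)) z) (h3 : ∀ k, Ev (W k)) (c : κ → ℝ) (k0 : κ)
  (h4 : ∀ w z, α * ‖w‖ ^ 2 ≤ D w (D w (W k0)) z) (h5 : c k0 = 0)
  (h6 : ∀ k, k ≠ k0 → Q2 (rad (W k)))
include hα h1 h2 h3 h4 h5 h6

theorem varineq : Var (∑ k, W k) (∑ k, c k • rad (W k)) ≤
    ∑ k, c k ^ 2 * WI (∑ k, W k) (rad (rad (W k))) := by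
  have q := Q2.sum Finset.univ h1
  obtain ⟨M, hM⟩ := q 0
  have lo : ∀ w z, α * ‖w‖ ^ 2 ≤ D w (D w (∑ k, W k)) z := fun w z => by
    simp only [map_sum, Sm.sum_apply]
    exact (h4 w z).trans (Finset.single_le_sum (fun k _ => h2 k w z) (Finset.mem_univ k0))
  have ev : Ev (∑ k, W k) := fun x => by simp [h3 _ x]
  obtain ⟨p, st, hp⟩ := exist (β := max α M) ⟨hα, q, lo, fun w z => (le_abs_self _).trans
    ((BdAt.DD (hM z) w).zero.trans (by gcongr; exact le_max_right _ _))⟩ ev (le_max_left _ _)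
  refine dens st hp lo ev (hα.le.trans (le_max_left _ _)) (Q2.sum _ fun k => ?_)
    (fun x => by simp [(h3 _).rad x]) fun ψ hψ => st.main W (fun k => (h1 k).t1) h2 rfl c hψ
  by_cases h : k = k0
  · rw [h, h5, zero_smul]; exact fun _ => ⟨0, fun _ _ _ _ => by simp⟩
  · exact (h6 k h).smul _

theorem logconc : ConcaveOn ℝ univ fun t =>
    Real.log (WI (∑ k, af (Real.exp (-c k * t)) 0 (W k)) 1) := by
  set A : ℝ → Sm n → κ → Sm n := fun t f k => af (Real.exp (-c k * t)) 0 f with hA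
  set U := fun t => ∑ k, A t (W k) k
  set g := fun t => ∑ k, c k • rad (A t (W k) k)
  set g' := fun t => ∑ k, c k ^ 2 • rad (rad (A t (W k) k))
  have b2 : ∀ t k w z, 0 ≤ D w (D w (A t (W k) k)) z := fun t k w z => by
    have := h2 k w
    simp only [hA, D_af, Derivation.map_smul, Sm.smul_apply, af_apply]
    exact mul_nonneg (Real.exp_pos _).le (mul_nonneg (Real.exp_pos _).le (h2 _ _ _))
  have b3 : ∀ t k, Ev (A t (W k) k) := fun t k x => by simp [hA, h3 k _]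
  have b4 : ∀ t, A t (W k0) k0 = W k0 := fun t => by ext; simp [hA, h5]
  have lo : ∀ t x, α / 2 * ‖x‖ ^ 2 - -∑ k, W k 0 ≤ U t x := fun t x => by
    have := ev_lo (V := U t) (α := α) (fun w z => by
      simp only [U, map_sum, Sm.sum_apply]
      exact ((h4 w z).trans_eq (by rw [b4])).trans
        (Finset.single_le_sum (fun k _ => b2 t k w z) (Finset.mem_univ k0)))
      (fun x => by simp [U, b3 _ _ x]) x
    simp [U, hA] at this ⊢
    linarith
  have co : ∀ t, Coer (U t) := fun t => ⟨_, half_pos hα, _, lo t⟩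
  have tm : ∀ (t : ℝ) k {f : Sm n}, T1 f → Tm fun s : Ioo (t - 1) (t + 1) => A s f k :=
    fun t k f hf => (Tm.comp hf fun _ => ()).af' _ (Λ := Real.exp (|c k| * (|t| + 1)))
      (Real.one_le_exp (by positivity)) fun s => by
        rw [abs_of_pos (Real.exp_pos _), Real.exp_le_exp]
        refine (le_abs_self _).trans ?_
        rw [abs_mul, abs_neg]
        gcongr
        rw [abs_le]; constructor <;> linarith [s.2.1, s.2.2, le_abs_self t, neg_abs_le t]
  have tg : ∀ t : ℝ, Tm fun s : Ioo (t - 1) (t + 1) => g s := fun t =>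
    Tm.sum _ fun k _ => (tm t k (h1 k).t1).rad.smul _
  have tg' : ∀ t : ℝ, Tm fun s : Ioo (t - 1) (t + 1) => g' s := fun t =>
    Tm.sum _ fun k _ => (tm t k (h1 k).t1).rad.rad.smul _
  have dU : ∀ s x, HasDerivAt (fun r => U r x) ((-g s : Sm n) x) s := fun s x => by
    simp only [U, g, hA, rad_af, Sm.neg_apply, Sm.sum_apply, Sm.smul_apply, ← Finset.sum_neg_distrib,
      ← neg_mul (c _) (af _ _ _ _)]
    exact HasDerivAt.fun_sum fun k _ => dt_af _ _ _ _
  have dg : ∀ s x, HasDerivAt (fun r => g r x) ((-g' s : Sm n) x) s := fun s x => by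
    simp only [g', g, hA, rad_af, Sm.neg_apply, Sm.sum_apply, Sm.smul_apply, ← Finset.sum_neg_distrib]
    exact HasDerivAt.fun_sum fun k _ => ((dt_af _ _ _ _).const_mul _).congr_deriv (by ring)
  have I : ∀ t : ℝ, Ioo (t - 1) (t + 1) ∈ 𝓝 t := fun t => Ioo_mem_nhds (by simp) (by simp)
  have d1 : ∀ t, HasDerivAt (fun s => WI (U s) 1) (WI (U t) (g t)) t := fun t => by
    simpa using hasDerivAt_WI' (F := fun _ => 1) (F' := fun _ => 0) (U' := fun s => -g s) (I t)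
      tm_one tm_zero (tg t).neg (half_pos hα) _ lo (fun _ _ => hasDerivAt_const _ _) dU
  have d2 := fun t => hasDerivAt_WI' (F' := fun s => -g' s) (U' := fun s => -g s) (I t)
      (tg t) (tg' t).neg (tg t).neg (half_pos hα) _ lo dg dU
  have z := fun t => WI_pos (co t)
  refine concaveOn_of_hasDerivWithinAt2_nonpos convex_univ
    (fun t _ => ((d1 t).log (z t).ne').continuousAt.continuousWithinAt)
    (fun t _ => ((d1 t).log (z t).ne').hasDerivWithinAt)
    (fun t _ => ((d2 t).div (d1 t) (z t).ne').hasDerivWithinAt) fun t _ => ?_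
  have t1 := (tg t).t1 ⟨t, mem_of_mem_nhds (I t)⟩
  have t2 := (tg' t).t1 ⟨t, mem_of_mem_nhds (I t)⟩
  have a1 := varineq (W := fun k => A t (W k) k) hα (fun k => (h1 k).af _) (b2 t) (b3 t) c k0
    (by rw [b4]; exact h4) h5 fun k hk => by rw [rad_af]; exact (h6 k hk).af _
  simp only [← WI_smul] at a1
  rw [← WI_sum (co t) _ fun k _ => ((h1 k).af _).t1.rad.rad.smul _, Var,
    sub_le_iff_le_add', ← sub_le_iff_le_add, le_div_iff₀ (z t)] at a1
  refine div_nonpos_of_nonpos_of_nonneg ?_ (sq_nonneg _)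
  rw [show -g' t - g t * -g t = g t * g t - g' t by ring, WI_sub (co t) (t1.mul t1) t2]
  linarith
end

end Vale.Agent.P227
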