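import Vale.Agent.P227.Poin

open scoped ContDiff Topology
open Filter Set MeasureTheory
noncomputable section
namespace Vale.Agent.P227
variable {n : ℕ}

open Matrix in
lemma tr_lo {τ : Matrix (Fin n) (Fin n) ℝ} {b : ℝ} (hs : τᵀ = τ)
    (hb : ∀ ξ : Fin n → ℝ, ∑ a, ξ a ^ 2 ≤ b * ∑ i, ∑ j, τ i j * ξ i * ξ j) (B : Matrix (Fin n) (Fin n) ℝ) :
    trace (B * Bᵀ) ≤ b * trace (τ * (B * Bᵀ)) := by
  have := tr_nn3 B (b • τ - 1) fun v => by
    have := hb v
    simp only [Matrix.sub_apply, Matrix.smul_apply, smul_eq_mul, sub_mul, Finset.sum_sub_distrib,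
      mul_assoc, ← Finset.mul_sum, one_apply, ite_mul, one_mul, zero_mul, Finset.sum_ite_eq,
      Finset.mem_univ, if_true, sq] at this ⊢
    linarith
  rw [← hs, MM.trace_mul τᵀ, Finset.sum_comm]
  simpa [sub_mul, one_apply, mul_assoc, ← Finset.mul_sum, trace] using this

lemma Ad.gr_le {a b} {φ : Sm n} (h : Ad a b φ) (f x) : Gr f x ≤ b * Gam φ f f x := by
  have := (h.tau_bounds x (WithLp.toLp 2 fun a => D (e a) f x)).1
  rw [normsq_eq] at this
  simpa [Gr, Gam, sq] using this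

open Matrix in
lemma Ad.hs_le {a b} {φ : Sm n} (h : Ad a b φ) (hb : 0 ≤ b) (v x) :
    (∑ i, Gr (D (e i) v)) x ≤ b ^ 2 * HS φ v x := by
  obtain ⟨m, hm⟩ := P227.frame (fun a b => tau φ a b x) (fun a b => by rw [tau_symm]) (h.tau_nonneg x)
  set τ : Matrix (Fin n) (Fin n) ℝ := of fun a b => tau φ a b x
  set H : Matrix (Fin n) (Fin n) ℝ := of fun a b => gm v a b x
  have h1 : τ = m * mᵀ := by ext a b; exact hm a b
  have h2 : Hᵀ = H := by ext a b; simp [H, gm_symm v a]
  have h3 : ∀ B, trace (B * Bᵀ) ≤ b * trace (τ * (B * Bᵀ)) :=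
    tr_lo (by ext a b; simp [τ, tau_symm φ a]) fun ξ => by
      have := (h.tau_bounds x (WithLp.toLp 2 ξ)).1
      rwa [normsq_eq] at this
  have a1 := h3 H
  have a2 := h3 (H * m)
  rw [transpose_mul, mul_assoc, ← mul_assoc m, ← h1, h2, trace_mul_comm H, mul_assoc] at a2
  have e1 : (∑ i, Gr (D (e i) v)) x = trace (H * Hᵀ) := by
    rw [trace_mul_comm]; simp [Gr, MM.trace_mul, H, gm]
  have e2 : HS φ v x = trace (τ * (H * (τ * H))) := by
    simp [← mul_assoc, MM.trace_mul, mul_apply, HS, H, τ]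
  rw [e1, e2]
  rw [h2] at a1 ⊢
  nlinarith [mul_le_mul_of_nonneg_left a2 hb]

def HD (u : ℝ → Sm n) (u' : Sm n) (t : ℝ) : Prop :=
  ∀ s x, HasDerivAt (fun r => DM s (u r) x) (DM s u' x) t
namespace HD
variable {u w : ℝ → Sm n} {u' w' : Sm n} {t : ℝ}
lemma D (h : HD u u' t) (v) : HD (fun r => D v (u r)) (D v u') t := fun s x => by
  simpa only [DM_cons'] using h (v ::ₘ s) x
lemma sub (h : HD u u' t) (h' : HD w w' t) : HD (fun r => u r - w r) (u' - w') t := fun s x => by
  simp only [map_sub]; exact (h s x).sub (h' s x)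
lemma mul (h : HD u u' t) (f : Sm n) : HD (fun r => f * u r) (f * u') t := fun s x => by
  induction s using Multiset.induction generalizing f u u' with
  | empty => exact (h 0 x).const_mul _
  | cons a s ih => simp only [DM_cons', D_mul, map_add]; exact (ih h _).add (ih (h.D a) _)
lemma sum {ι : Type*} (S : Finset ι) {u : ι → ℝ → Sm n} {u' : ι → Sm n} (h : ∀ i, HD (u i) (u' i) t) :
    HD (fun r => ∑ i ∈ S, u i r) (∑ i ∈ S, u' i) t := fun s x => by
  simp only [map_sum, Sm.sum_apply]; exact HasDerivAt.fun_sum fun i _ => h i s x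
lemma LL (h : HD u u' t) (p) : HD (fun r => LL p (u r)) (LL p u') t := by
  simp only [P227.LL, LT, rad_eq]
  exact (sum _ fun _ => sum _ fun _ => ((h.D _).D _).mul _).sub (sum _ fun _ => (h.D _).mul _)
end HD

lemma LL_cen (p f : Sm n) : LL p (cen f) = LL p f := by simp [LL, LT, rad_eq, D_cen]
lemma LL_add (p f g : Sm n) : LL p (f + g) = LL p f + LL p g := by
  simp [LL, LT, mul_add, Finset.sum_add_distrib]; ring
lemma LL_smul (p f : Sm n) (c : ℝ) : LL p (c • f) = c • LL p f := by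
  simp [LL, LT, Finset.smul_sum, smul_sub]
lemma Gam_symm (p f g : Sm n) : Gam p f g = Gam p g f := by
  rw [Gam, Gam, Finset.sum_comm]
  exact Finset.sum_congr rfl fun _ _ => Finset.sum_congr rfl fun _ _ => by rw [tau_symm]; ring

section
variable {a b : ℝ} {p : Sm n} (h : Ad a b p) {u w : ℝ → Sm n}
include h
lemma Ad.uc_LL (hu : Uc u) : Uc fun t => LL p (u t) :=
  (Uc.sum _ fun i _ => Uc.sum _ fun j _ => (Uc.const (h.t1_tau i j)).mul ((hu.D _).D _)).sub hu.rad
lemma Ad.uc_Gam (hu : Uc u) (hw : Uc w) : Uc fun t => Gam p (u t) (w t) :=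
  Uc.sum _ fun i _ => Uc.sum _ fun j _ => ((Uc.const (h.t1_tau i j)).mul (hu.D _)).mul (hw.D _)
lemma Ad.t1_Gam {f g : Sm n} (hf : T1 f) (hg : T1 g) : T1 (Gam p f g) :=
  (h.uc_Gam (Uc.const hf) (Uc.const hg)).tm.t1 0
lemma Ad.t1_HS {f : Sm n} (hf : T1 f) : T1 (HS p f) :=
  T1.sum _ fun _ _ => T1.sum _ fun _ _ => (T1.sum _ fun _ _ => (T1.sum _ fun _ _ =>
    (h.t1_tau _ _).mul ((hf.D _).D _)).mul (h.t1_tau _ _)).mul ((hf.D _).D _)
lemma Ad.ev_LL (hp : Ev p) {f : Sm n} (hf : Ev f) : Ev (LL p f) := fun x => by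
  have : ∀ i j, tau p i j (-x) = tau p i j x := fun i j =>
    h.adm0.ev_br (fun w => hp.DD w w) (polK_ww i j) (fun _ _ => rfl) x
  simp [LL, LT, this, hf.DD _ _ x, rad_apply, D_neg_dir, hf.D]
end

lemma Uc.ker {ρ : ℝ → Sm n} (h : Uc ρ) (T : ℝ) : Ker (volume.restrict (Ioc 0 T)) ρ :=
  ⟨fun z => (h.cont z).measurable, fun k R => by
    obtain ⟨C, -, hC⟩ := h.tm.loc k R
    exact ⟨fun _ => C, integrable_const _, Eventually.of_forall hC⟩⟩
lemma Uc.t1_int {ρ : ℝ → Sm n} (h : Uc ρ) (T : ℝ) : T1 (intK (volume.restrict (Ioc 0 T)) ρ) := by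
  intro k
  obtain ⟨C, p, hC⟩ := h.tm k
  refine ⟨C * (volume.restrict (Ioc 0 T)).real univ, p, fun _ x s hs hu => ?_⟩
  rw [(h.ker T).DM_int, mul_right_comm]
  exact norm_integral_le_of_norm_le_const (f := fun t => P227.DM s (ρ t) x) (Eventually.of_forall fun t => hC t x s hs hu)
lemma Ad.LL_int {a b : ℝ} {p : Sm n} (hp : Ad a b p) {ρ : ℝ → Sm n} (h : Uc ρ) (T : ℝ) :
    LL p (intK (volume.restrict (Ioc 0 T)) ρ) =
      intK (volume.restrict (Ioc 0 T)) fun t => LL p (ρ t) := by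
  ext z
  have k := h.ker T
  have e1 : ∀ i j, D (e i) (D (e j) (intK (volume.restrict (Ioc 0 T)) ρ)) z =
      ∫ t in Ioc 0 T, D (e i) (D (e j) (ρ t)) z := fun i j => by
    simpa only [DM_cons, DM_single] using k.DM_int (e i ::ₘ {e j}) z
  have i1 := fun i j => (((k.D (e j)).D (e i)).int z).const_mul (tau p i j z)
  rw [((hp.uc_LL h).ker T).apply]
  simp only [LL, LT, Sm.sub_apply, Sm.sum_apply, Sm.mul_apply, rad_apply, e1, k.D_int,
    ← integral_const_mul]
  rw [integral_sub (integrable_finsetSum _ fun i _ => integrable_finsetSum _ fun j _ => i1 i j)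
    ((k.D z).int z), integral_finsetSum _ fun i _ => integrable_finsetSum _ fun j _ => i1 i j]
  simp only [integral_finsetSum _ fun j _ => i1 _ j]

def Var (V f : Sm n) : ℝ := WI V (f * f) - WI V f ^ 2 / WI V 1
lemma var_eq {V f : Sm n} (hc : Coer V) (hf : T1 f) (c : ℝ) : WI V ((f - cst c) * (f - cst c)) =
    Var V f + (WI V f - c * WI V 1) ^ 2 / WI V 1 := by
  have := WI_pos hc
  rw [show (f - cst c) * (f - cst c) = f * f - (2 * c) • f + cst (c ^ 2) by
    ext; simp; ring, WI_add hc ((hf.mul hf).sub (hf.smul _)) (T1.cst _),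
    WI_sub hc (hf.mul hf) (hf.smul _), WI_smul, WI_cst, Var]
  field_simp; ring
lemma WI_odd {V f : Sm n} (he : Ev V) (hf : Ev f) (v) : WI V (D v f) = 0 := by
  have := integral_neg_eq_self (fun x => D v f x * Real.exp (-V x)) volume
  simp only [hf.D, he _, neg_mul, integral_neg] at this
  rw [WI]; linarith

lemma decay {α β : ℝ} {p V : Sm n} (h : St α β p V) (hp : Ev p)
    (hV : ∀ w z, α * ‖w‖ ^ 2 ≤ D w (D w V) z) (he : Ev V) (hβ : 0 ≤ β) : ∃ K, 0 ≤ K ∧
    ∀ u, T1 u → Ev u → WI V (LL p u * LL p u) ≤ K * WI V (HS p (LL p u)) ∧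
      Var V u ≤ K * WI V (LL p u * LL p u) := by
  obtain ⟨C, hC, h1⟩ := poincare h.ad.pos hV he
  have hc := h.co
  have hZ := WI_pos hc
  refine ⟨(C * β) ^ 2, by positivity, fun u hu hue => ?_⟩
  have hv := h.ad.t1_LL hu
  have h0 := h.E_L hu
  constructor
  · have a1 := h1 _ hv
    have a2 := Finset.sum_le_sum (s := Finset.univ) fun i _ => h1 _ (hv.D (e i))
    simp only [WI_odd he (h.ad.ev_LL hp hue)] at a2
    rw [← Finset.mul_sum, ← WI_sum hc _ fun i _ => (hv.D _).gr] at a2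
    have a3 := WI_mono hc (T1.sum _ fun i _ => (hv.D _).gr) ((h.ad.t1_HS hv).smul _)
      (h.ad.hs_le hβ (LL p u))
    rw [h0, Gr, WI_sum hc _ fun i _ => (hv.D _).mul (hv.D _)] at a1
    rw [WI_smul] at a3
    simp only [ne_eq, OfNat.ofNat_ne_zero, not_false_eq_true, zero_pow, zero_div, sub_zero] at a1 a2
    nlinarith [mul_le_mul_of_nonneg_left a2 hC, mul_le_mul_of_nonneg_left a3 (mul_nonneg hC hC)]
  · have a1 : Var V u ≤ _ := h1 _ hu
    have a2 := WI_mono hc hu.gr ((h.ad.t1_Gam hu hu).smul _) (h.ad.gr_le u)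
    set c := WI V u / WI V 1
    have t1 := hu.sub (T1.cst c)
    have a3 := var_eq hc hu c
    rw [div_mul_cancel₀ _ hZ.ne', sub_self, zero_pow two_ne_zero, zero_div, add_zero] at a3
    have a4 := WI_mono hc ((t1.mul hv).smul (-(2 * (C * β))))
      ((t1.mul t1).add ((hv.mul hv).smul ((C * β) ^ 2))) fun x => by
        simp only [Sm.smul_apply, Sm.add_apply, Sm.mul_apply]
        nlinarith [sq_nonneg ((u - cst c : Sm n) x + C * β * LL p u x)]
    rw [WI_add hc (t1.mul t1) ((hv.mul hv).smul _), a3, WI_smul, WI_smul, sub_mul,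
      WI_sub hc (hu.mul hv) ((T1.cst _).mul hv), cst_mul, WI_smul, h0, h.E_mul_L hu hu] at a4
    rw [WI_smul] at a2
    nlinarith [mul_le_mul_of_nonneg_left a2 hC]

theorem dens {α β : ℝ} {p V : Sm n} (h : St α β p V) (hp : Ev p)
    (hV : ∀ w z, α * ‖w‖ ^ 2 ≤ D w (D w V) z) (he : Ev V) (hβ : 0 ≤ β) {g : Sm n} (hg : Q2 g)
    (hge : Ev g) {R : ℝ} (hR : ∀ ψ, T1 ψ → 2 * WI V (g * LL p (LL p ψ + ψ)) -
      WI V (LL p (LL p ψ + ψ) * LL p (LL p ψ + ψ)) ≤ R) : Var V g ≤ R := by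
  obtain ⟨K, hK, h1⟩ := decay h hp hV he hβ
  have hc := h.co
  have hZ := WI_pos hc
  have ad := h.ad
  have g1 := hg.t1
  set N := WI V (Gam p (LL p g) (LL p g))
  have gnn : ∀ f, 0 ≤ WI V (Gam p f f) := fun f => WI_nonneg fun x => by
    simpa [Gam] using ad.tau_nonneg x fun a => D (e a) f x
  suffices key : ∀ T, 0 < T → Var V g ≤ R + (1 + K) * K * N / T by
    refine ge_of_tendsto (x := atTop) (f := fun T : ℝ => R + (1 + K) * K * N / T)
      (by simpa using (tendsto_const_nhds.div_atTop tendsto_id).const_add R) ?_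
    filter_upwards [eventually_gt_atTop 0] using key
  intro T hT
  obtain ⟨m, u, u0, fl⟩ := flowL ad hp (u0 := cen g) (by simp) (fun x => by simp [hge x])
    (fun k => by
      obtain ⟨M, hM⟩ := hg k
      exact ⟨M, fun x s hs hu => by
        rw [DM_cen s (by rintro rfl; simp at hs)]; exact hM x s hs hu⟩) hT
  set v := fun t => LL p (u t) with hv
  have uu := fl.uc
  have uv : Uc v := ad.uc_LL uu
  have uL : Uc fun t => LL p (v t) := ad.uc_LL uv
  have dv : ∀ t ∈ Ioo 0 T, HD v (LL p (v t)) t := fun t ht => by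
    simpa only [LL_cen] using HD.LL (fl.der t ht) p
  obtain ⟨c, hc0, C, hc1⟩ := id hc
  obtain ⟨t, ht, h2⟩ := exists_hasDerivAt_eq_slope
    (fun t => Real.exp (2 * t) * WI V (Gam p (v t) (v t)))
    (fun t => -(2 * Real.exp (2 * t) * WI V (HS p (v t)))) hT
    (Continuous.continuousOn ((by fun_prop : Continuous fun t : ℝ => Real.exp (2 * t)).mul
      (continuous_WI (ad.uc_Gam uv uv) (fun _ => continuous_const) hc0 C fun _ => hc1)))
    fun t ht => by
      have a1 := hasDerivAt_WI (F := fun t => Gam p (v t) (v t)) (U := fun _ => V) (U' := fun _ => 0)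
        (F' := fun t => Gam p (LL p (v t)) (v t) + Gam p (v t) (LL p (v t)))
        (Ioo_mem_nhds ht.1 ht.2) (ad.uc_Gam uv uv).tm ((ad.uc_Gam uL uv).add (ad.uc_Gam uv uL)).tm
        tm_zero hc0 C (fun _ => hc1) (fun s hs x => by
          simp only [Gam, Sm.sum_apply, Sm.mul_apply, Sm.add_apply, ← Finset.sum_add_distrib]
          exact HasDerivAt.fun_sum fun a _ => HasDerivAt.fun_sum fun b _ =>
            ((dv s hs {e a} x).const_mul _).mul (dv s hs {e b} x))
        fun _ _ _ => hasDerivAt_const _ _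
      refine (((hasDerivAt_id t).const_mul 2).exp.mul a1).congr_deriv ?_
      have t1 := uv.tm.t1 t
      have t2 := uL.tm.t1 t
      have a2 := h.E_mul_L t2 t1
      rw [h.bochner t1] at a2
      rw [mul_zero, sub_zero, Gam_symm p (v t) (LL p (v t)),
        WI_add hc (ad.t1_Gam t2 t1) (ad.t1_Gam t2 t1)]
      simp only [id]
      linear_combination 2 * Real.exp (2 * t) * a2
  have h3 : 2 * Real.exp (2 * t) * WI V (HS p (v t)) ≤ N / T := by
    have := mul_nonneg (Real.exp_pos (2 * T)).le (gnn (v T))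
    simp only [hv, u0, LL_cen, mul_zero, Real.exp_zero, one_mul, sub_zero] at h2 this ⊢
    rw [le_div_iff₀ hT]; rw [eq_div_iff hT.ne'] at h2
    linarith
  set θ : ℝ → ℝ := fun s => Real.exp (min s t) - 1
  have uθ : Uc fun s => θ s • u s := ⟨uu.tm.smul' θ (Real.exp t + 1) fun s => (abs_sub _ _).trans
    (by simp), fun x => Continuous.mul (by fun_prop) (uu.cont x)⟩
  set ψ := intK (volume.restrict (Ioc 0 t)) fun s => θ s • u s
  have ψ1 : T1 ψ := uθ.t1_int t
  set f := LL p (LL p ψ + ψ) with hf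
  have f1 : T1 f := ad.t1_LL ((ad.t1_LL ψ1).add ψ1)
  have f0 : WI V f = 0 := h.E_L ((ad.t1_LL ψ1).add ψ1)
  obtain ⟨k, hk⟩ : ∃ k, f - g = (Real.exp t - 1) • v t - u t + cst k := by
    refine ⟨-g 0 - ∫ s in Ioc 0 t, v s 0, ?_⟩
    ext x
    have k1 := (ad.uc_LL uθ).ker t
    have k2 := (ad.uc_LL (ad.uc_LL uθ)).ker t
    have c1 := uv.cont x
    have c2 := uL.cont x
    have c3 := uu.cont x
    have c4 := uv.cont 0
    have a1 := intervalIntegral.integral_eq_sub_of_hasDerivAt_of_le ht.1.le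
      (f := fun s => (Real.exp s - 1) * v s x - u s x)
      (f' := fun s => (Real.exp s - 1) * (LL p (v s) x + v s x) + v s 0) (by fun_prop)
      (fun s hs => by
        have hs' : s ∈ Ioo 0 T := ⟨hs.1, hs.2.trans ht.2⟩
        refine ((((Real.hasDerivAt_exp s).sub_const 1).mul (dv s hs' 0 x)).sub
          (fl.der s hs' 0 x)).congr_deriv ?_
        simp only [DM_zero, cen_apply, hv]; ring)
      (Continuous.intervalIntegrable (by fun_prop) _ _)
    rw [intervalIntegral.integral_of_le ht.1.le, integral_add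
      (Continuous.integrableOn_Ioc (by fun_prop)) c4.integrableOn_Ioc] at a1
    rw [hf, LL_add, ad.LL_int uθ, ad.LL_int (ad.uc_LL uθ), Sm.sub_apply, Sm.add_apply, k1.apply,
      k2.apply, ← integral_add (k2.int x) (k1.int x), setIntegral_congr_fun measurableSet_Ioc
      (g := fun s => (Real.exp s - 1) * (LL p (v s) x + v s x)) fun s hs => by
        simp only [LL_smul, Sm.smul_apply, θ, min_eq_left hs.2, hv]; ring]
    simp [u0] at a1 ⊢
    linarith
  have a1 := hR ψ ψ1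
  obtain ⟨a2, a3⟩ := h1 (u t) (uu.tm.t1 t) (fl.mem t).2.1
  set c := WI V (u t) / WI V 1
  have t1 := (uu.tm.t1 t).sub (T1.cst c)
  have t2 := uv.tm.t1 t
  have a4 := var_eq hc (uu.tm.t1 t) c
  rw [div_mul_cancel₀ _ hZ.ne', sub_self, zero_pow two_ne_zero, zero_div, add_zero] at a4
  have a5 := var_eq hc (f1.sub g1) (k - c)
  have a6 := WI_mono hc (((f1.sub g1).sub (T1.cst (k - c))).mul ((f1.sub g1).sub (T1.cst (k - c))))
    (((t2.mul t2).smul (2 * Real.exp (2 * t))).add ((t1.mul t1).smul 2)) fun x => by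
      have b1 : (Real.exp t - 1) ^ 2 ≤ Real.exp (2 * t) := by
        rw [two_mul, Real.exp_add]; nlinarith [Real.one_le_exp ht.1.le]
      simp only [hk, Sm.smul_apply, Sm.add_apply, Sm.mul_apply, Sm.sub_apply, cst_apply]
      nlinarith [sq_nonneg ((Real.exp t - 1) * v t x + (u t x - c)),
        mul_le_mul_of_nonneg_right b1 (sq_nonneg (v t x))]
  rw [a5, WI_add hc ((t2.mul t2).smul _) ((t1.mul t1).smul _), WI_smul, WI_smul, a4] at a6
  have a7 : Var V g - Var V (f - g) = 2 * WI V (g * f) - WI V (f * f) := by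
    rw [Var, Var, show (f - g) * (f - g) = f * f - (2 : ℝ) • (g * f) + g * g by ext; simp; ring,
      WI_add hc ((f1.mul f1).sub ((g1.mul f1).smul _)) (g1.mul g1),
      WI_sub hc (f1.mul f1) ((g1.mul f1).smul _), WI_smul, WI_sub hc f1 g1, f0]
    ring
  have a8 : 0 ≤ (WI V (f - g) - (k - c) * WI V 1) ^ 2 / WI V 1 := by positivity
  have a9 : 0 ≤ WI V (v t * v t) := WI_nonneg fun x => mul_self_nonneg _
  have b1 := Real.one_le_exp (show 0 ≤ 2 * t by linarith [ht.1])
  have b2 : 2 * Real.exp (2 * t) * WI V (v t * v t) ≤ K * (N / T) :=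
    (mul_le_mul_of_nonneg_left a2 (by positivity)).trans (by
      rw [mul_left_comm]; exact mul_le_mul_of_nonneg_left h3 hK)
  have b3 := mul_le_mul_of_nonneg_left b2 hK
  have b4 := mul_le_mul_of_nonneg_left b1 (mul_nonneg hK a9)
  rw [mul_div_assoc]
  nlinarith

end Vale.Agent.P227
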