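import Vale.Agent.P227.Inst

open scoped ContDiff Topology
open Filter Set MeasureTheory
noncomputable section
namespace Vale.Agent.P227
variable {n : ℕ}

section
variable {V : Sm n} {α : ℝ} (h : ∀ w z, α * ‖w‖ ^ 2 ≤ D w (D w V) z)
include h
omit h in
lemma cvx0 (x v : E n) (t : ℝ) : HasDerivAt (fun t : ℝ => V (x + t • v) - α / 2 * t ^ 2 * ‖v‖ ^ 2)
    (D v V (x + t • v) - α * t * ‖v‖ ^ 2) t :=
  ((hasDerivAt_line V x v t).sub (((hasDerivAt_pow 2 t).const_mul _).mul_const _)).congr_deriv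
    (by norm_num; left; ring)
lemma cvx (x v : E n) : ConvexOn ℝ univ fun t : ℝ => V (x + t • v) - α / 2 * t ^ 2 * ‖v‖ ^ 2 := by
  refine Monotone.convexOn_univ_of_deriv (fun t => (cvx0 x v t).differentiableAt) ?_
  rw [show deriv _ = _ from funext fun t => (cvx0 (V := V) (α := α) x v t).deriv]
  refine monotone_of_hasDerivAt_nonneg (f' := fun t => D v (D v V) (x + t • v) - α * ‖v‖ ^ 2)
    (fun t => ((hasDerivAt_line _ x v t).sub
      (((hasDerivAt_id t).const_mul α).mul_const _)).congr_deriv (by simp)) fun t => ?_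
  simpa using h _ _
lemma sconv (x y : E n) {s : ℝ} (hs : s ∈ Icc (0 : ℝ) 1) : V (x + s • (y - x)) ≤
    (1 - s) * V x + s * V y - α / 2 * s * (1 - s) * ‖y - x‖ ^ 2 := by
  have := (cvx h x (y - x)).2 (mem_univ 0) (mem_univ 1) (sub_nonneg.2 hs.2) hs.1 (by ring)
  simp at this
  linarith
lemma ev_lo (he : Ev V) (x : E n) : V 0 + α / 2 * ‖x‖ ^ 2 ≤ V x := by
  have := sconv h (-x) x (s := 1 / 2) (by norm_num)
  rw [sub_neg_eq_add, ← two_smul ℝ x, smul_smul, norm_smul, he] at this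
  simp at this
  linarith
lemma rad_lo (x : E n) : α / 2 * ‖x‖ ^ 2 - V 0 ≤ rad V x - V x := by
  have := (cvx h 0 x).slope_le_of_hasDerivAt (mem_univ 0) (mem_univ 1) one_pos (cvx0 0 x 1)
  simp [slope_def_field] at this
  rw [rad_apply]; linarith
end

lemma Ad.coer {a b} {V : Sm n} (h : Ad a b V) (he : Ev V) : Coer V :=
  ⟨a / 2, by linarith [h.pos], -V 0, fun x => by linarith [ev_lo h.lo he x]⟩

lemma HN_lo (a b : ℝ) : ∃ C, ∀ V φ : Sm n, Ad a b φ → φ 0 = 0 → ∀ x,
    a / 2 * ‖x‖ ^ 2 - C ≤ (V - HN V φ) x := by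
  obtain ⟨C, hC⟩ := G_abs (n := n) a b
  refine ⟨C, fun V φ h h0 x => ?_⟩
  have := rad_lo h.lo x
  have := abs_le.1 (hC _ h.adm0 x)
  simp [HN]; linarith

lemma Ad.t1_HN {a b} {V φ : Sm n} (h : Ad a b φ) (hV : T1 V) : T1 (HN V φ) := by
  have : T1 (G (q0 φ)) := tm_of_bd fun k =>
    (UQ.q0 (φ := fun _ : Unit => φ) fun k => by
      obtain ⟨M, hM⟩ := h.q2 k; exact ⟨M, fun _ => hM⟩).bd_G (fun _ => h.adm0) k
  exact ((this.sub h.q2.t1.rad).add h.q2.t1).add hV

lemma Ad.st {a b} {V φ : Sm n} (h : Ad a b φ) (h0 : φ 0 = 0) (hV : T1 V) :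
    St a b φ (V - HN V φ) := by
  obtain ⟨C, hC⟩ := HN_lo (n := n) a b
  exact ⟨h, hV.sub (h.t1_HN hV), ⟨a / 2, by linarith [h.pos], C, hC V φ h h0⟩, fun v => by
    rw [map_sub, D_HN h, LL]; ring⟩

namespace NF
variable {V : Sm n} {a β T : ℝ} {φ : ℝ → Sm n} (h : NF V a β T φ)
include h

lemma cont_G (x) : Continuous fun t => G (q0 (φ t)) x := by
  simp only [fun t => (h.ad t).adm0.G_apply x]
  refine continuous_const.mul (Continuous.log ?_ fun t => ((h.ad t).adm0.ZZ_pos x).ne')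
  exact continuous_of_dominated (fun t => ((h.ad t).adm0.int0 x).1)
    (fun t => Eventually.of_forall fun w => by
      rw [Real.norm_eq_abs, abs_of_pos (Real.exp_pos _)]; exact (h.ad t).adm0.exp_le w x)
    (integrable_pg (by linarith [h.pos]) _)
    (Eventually.of_forall fun w => (continuous_const.mul (((h.uc.D w).D w).cont x)).rexp)

lemma dt_G {t} (ht : t ∈ Ioo 0 T) (x) :
    HasDerivAt (fun r => G (q0 (φ r)) x) (LT (φ t) (cen (HN V (φ t))) x) t := by
  obtain ⟨C, hC, h1⟩ := h.ucH.tm.loc 2 ‖x‖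
  have hc : ∀ u : Sm n, Continuous fun w => 1 / 2 * q0 u w x := fun u =>
    continuous_const.mul ((DD_cont u).comp (f := fun w => (w, x)) (by fun_prop))
  have := hasDerivAt_wint (fun _ _ => 1) (fun _ _ => 0) (fun r w => 1 / 2 * q0 (φ r) w x)
    (fun r w => 1 / 2 * q0 (cen (HN V (φ r))) w x) (Ioo_mem_nhds ht.1 ht.2)
    (fun _ => continuous_const) continuous_const (fun _ => hc _) (hc _) (1 + C) 2
    (fun _ _ w => by have := one_le_wp w 2; rw [abs_one]; nlinarith)
    (fun _ _ w => by rw [abs_zero]; positivity)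
    (fun r _ w => by
      have a1 := (BdAt.DD (k := 0) (h1 r x le_rfl) w).zero
      have a2 := mul_le_mul_of_nonneg_left (sq_le_w w) hC
      have := one_le_wp w 2
      rw [abs_mul, abs_of_pos one_half_pos, q0]
      nlinarith [abs_nonneg (D w (D w (cen (HN V (φ r)))) x)])
    (a := a / 2) (by linarith [h.pos]) 0 (fun r _ w => by linarith [(h.ad r).adm0.lo w x])
    (fun _ _ _ => hasDerivAt_const _ _)
    (fun r hr w => by
      have := (h.der hr (w ::ₘ {w}) x).const_mul (1 / 2)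
      simp only [DM_cons, DM_single] at this
      exact this)
  simp only [one_mul, zero_sub, ← neg_mul] at this
  simp only [fun t => (h.ad t).adm0.G_apply x]
  have hZ := ((h.ad t).adm0.ZZ_pos x).ne'
  refine ((this.log hZ).const_mul _).congr_deriv ?_
  rw [← (h.ad t).int_q0, ← mul_div_assoc, ← integral_const_mul, ← integral_div]
  congr 1; ext w
  rw [(h.ad t).adm0.om_apply, ZZ]; ring

lemma dt_H {t} (ht : t ∈ Ioo 0 T) (x) : HasDerivAt (fun r => HN V (φ r) x)
    ((LL (φ t) (cen (HN V (φ t))) + cen (HN V (φ t))) x) t := by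
  have := (((h.dt_G ht x).sub (h.der ht {x} x)).add (h.der ht 0 x)).add_const (V x)
  simp only [HN, LL, Sm.add_apply, Sm.sub_apply, rad_apply]
  exact this
lemma cont_H (x) : Continuous fun t => HN V (φ t) x :=
  (((h.cont_G x).sub (h.uc.rad.cont x)).add (h.uc.cont x)).add continuous_const
end NF

def JJ (V φ : Sm n) : ℝ := Real.log (WI (V - HN V φ) 1) - WI V φ / WI V 1
def SK (V φ : Sm n) : ℝ :=
  WI (V - HN V φ) (cen (HN V φ)) / WI (V - HN V φ) 1 - WI V (cen (HN V φ)) / WI V 1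

namespace NF
variable {V : Sm n} {a β T : ℝ} {φ : ℝ → Sm n} (h : NF V a β T φ) (hV : T1 V) (hc : Coer V)
include h hV hc

lemma cont_J : Continuous fun t => JJ V (φ t) := by
  obtain ⟨C, hC⟩ := HN_lo (n := n) a β
  obtain ⟨b, hb, C', h1⟩ := hc
  refine (Continuous.log (continuous_WI (U := fun t => V - HN V (φ t)) (Uc.const T1.one)
    (fun x => continuous_const.sub (h.cont_H x))
    (half_pos h.pos) C fun s => hC V _ (h.ad s) (h.zero s)) fun t => ?_).sub
    ((continuous_WI h.uc (fun _ => continuous_const) hb C' fun _ => h1).div_const _)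
  exact (WI_pos ((h.ad t).st (h.zero t) hV).co).ne'

lemma dt_J {t} (ht : t ∈ Ioo 0 T) : HasDerivAt (fun r => JJ V (φ r)) (SK V (φ t)) t := by
  obtain ⟨C, hC⟩ := HN_lo (n := n) a β
  obtain ⟨b, hb, C', h1⟩ := hc
  have st := (h.ad t).st (h.zero t) hV
  have a1 := hasDerivAt_WI (F := fun _ => 1) (F' := fun _ => 0) (U := fun r => V - HN V (φ r))
    (U' := fun r => -(LL (φ r) (cen (HN V (φ r))) + cen (HN V (φ r)))) (Ioo_mem_nhds ht.1 ht.2)
    tm_one tm_zero (Tm.neg (((Tm.sum _ fun i _ => Tm.sum _ fun j _ => (h.uq.tm_tau h.ad i j).mul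
      ((h.ucH.tm.D _).D _)).sub h.ucH.tm.rad).add h.ucH.tm)) (half_pos h.pos) C
    (fun s => hC V _ (h.ad s) (h.zero s)) (fun _ _ _ => hasDerivAt_const _ _)
    fun s hs x => (h.dt_H hs x).const_sub _
  have a2 := hasDerivAt_WI (F := φ) (F' := fun r => cen (HN V (φ r))) (U := fun _ => V)
    (U' := fun _ => 0) (Ioo_mem_nhds ht.1 ht.2) h.uc.tm h.ucH.tm tm_zero hb C' (fun _ => h1)
    (fun s hs x => h.der hs 0 x) fun _ _ _ => hasDerivAt_const _ _
  have k1 := h.ucH.tm.t1 t
  rw [one_mul, zero_sub, neg_neg, WI_add st.co ((h.ad t).t1_LL k1) k1, st.E_L k1, zero_add] at a1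
  rw [mul_zero, sub_zero] at a2
  exact (a1.log (WI_pos st.co).ne').sub (a2.div_const _)
end NF

lemma sk_lo {δ s : ℝ} (hδ : 0 < δ) (h : δ ≤ |s|) :
    δ * (1 - Real.exp (-δ)) ≤ s * (Real.exp s - 1) := by
  have h1 := Real.add_one_le_exp (-δ)
  have h2 : Real.exp (-δ) ≤ 1 := Real.exp_le_one_iff.2 (by linarith)
  rcases le_abs.1 h with h | h
  · have := Real.add_one_le_exp s
    exact mul_le_mul h (by linarith) (by linarith) (by linarith)
  · have : Real.exp s ≤ Real.exp (-δ) := Real.exp_le_exp.2 (by linarith)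
    rw [← neg_mul_neg s]
    exact mul_le_mul h (by linarith) (by linarith) (by linarith)
lemma sk_nn (s : ℝ) : 0 ≤ s * (Real.exp s - 1) := by
  rcases le_total 0 s with h | h
  · exact mul_nonneg h (by linarith [Real.add_one_le_exp s])
  · exact mul_nonneg_of_nonpos_of_nonpos h (by linarith [Real.exp_le_one_iff.2 h])

lemma ball {V : Sm n} (hc : Coer V) {k : ℕ → Sm n} (hk : Tm k) (d : ℕ → ℝ)
    (hi : ∀ N, Integrable fun y => (k N y + d N) * (Real.exp (k N y + d N) - 1) * Real.exp (-V y))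
    (h0 : Tendsto (fun N => ∫ y, (k N y + d N) * (Real.exp (k N y + d N) - 1) * Real.exp (-V y))
      atTop (𝓝 0)) (x) : Tendsto (fun N => k N x + d N) atTop (𝓝 0) := by
  obtain ⟨C, hC, h1⟩ := hk.lip x
  rw [Metric.tendsto_nhds]
  intro δ hδ
  set r := min 1 (δ / (2 * (C + 1)))
  have hr : 0 < r := lt_min one_pos (by positivity)
  have hr2 : C * r ≤ δ / 2 := by
    have : r * (2 * (C + 1)) ≤ δ := (le_div_iff₀ (by positivity)).1 (min_le_right _ _)
    nlinarith
  set η := δ / 2 * (1 - Real.exp (-(δ / 2)))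
  have hη : 0 < η := mul_pos (by linarith) (by
    linarith [Real.exp_lt_one_iff.2 (show -(δ / 2) < 0 by linarith)])
  have i1 : Integrable fun y => max 0 (r - ‖y - x‖) * Real.exp (-V y) :=
    integrable_w (by fun_prop) V.cont hc r 0 fun y => by
      rw [abs_of_nonneg (le_max_left _ _)]; simp [hr.le]
  have hm := integral_pos_of_integrable_nonneg_nonzero (x := x) (by have := V.cont; fun_prop) i1
    (fun y => mul_nonneg (le_max_left _ _) (Real.exp_pos _).le) (by simp [hr.le, hr.ne'])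
  have h2 := h0.const_mul r
  rw [mul_zero] at h2
  filter_upwards [h2.eventually (gt_mem_nhds (mul_pos hη hm))] with N hN
  rw [Real.dist_eq, sub_zero]
  by_contra hx
  refine hN.not_ge ?_
  rw [← integral_const_mul, ← integral_const_mul]
  refine integral_mono (i1.const_mul _) ((hi N).const_mul _) fun y => ?_
  simp only [← mul_assoc r (_ * _), ← mul_assoc η]
  refine mul_le_mul_of_nonneg_right ?_ (Real.exp_pos _).le
  rcases le_total r ‖y - x‖ with h | h
  · rw [max_eq_left (by linarith), mul_zero]; exact mul_nonneg hr.le (sk_nn _)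
  · rw [max_eq_right (by linarith), mul_comm]
    refine mul_le_mul (by simp) (sk_lo (by linarith) ?_) hη.le hr.le
    have a1 := h1 N (y - x) (h.trans (min_le_left _ _))
    have a2 := mul_le_mul_of_nonneg_left h hC
    have a3 := abs_sub (k N y + d N) (k N y - k N x)
    rw [add_sub_cancel] at a1
    rw [show k N y + d N - (k N y - k N x) = k N x + d N by ring] at a3
    linarith [not_lt.1 hx]

lemma SK_eq {V h : Sm n} (hc : Coer V) (hU : Coer (V - h : Sm n)) (h1 : T1 h) : ∃ d : ℝ,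
    (Integrable fun y => (cen h y + d) * (Real.exp (cen h y + d) - 1) * Real.exp (-V y)) ∧
    ∫ y, (cen h y + d) * (Real.exp (cen h y + d) - 1) * Real.exp (-V y) =
      WI V 1 * (WI (V - h) (cen h) / WI (V - h) 1 - WI V (cen h) / WI V 1) := by
  have z1 := WI_pos hc
  have z2 := WI_pos hU
  set d := h 0 + Real.log (WI V 1 / WI (V - h) 1)
  have t1 := h1.cen.add (T1.cst d)
  have e1 : ∀ y, (cen h y + d) * (Real.exp (cen h y + d) - 1) * Real.exp (-V y) =
      WI V 1 / WI (V - h) 1 * ((cen h + cst d : Sm n) y * Real.exp (-(V - h : Sm n) y)) -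
        (cen h + cst d : Sm n) y * Real.exp (-V y) := fun y => by
    have : Real.exp (cen h y + d) * Real.exp (-V y) =
        WI V 1 / WI (V - h) 1 * Real.exp (-(V - h : Sm n) y) := by
      rw [← Real.exp_log (div_pos z1 z2), ← Real.exp_add, ← Real.exp_add]
      congr 1; simp [d]; ring
    simp only [Sm.add_apply, cst_apply]
    linear_combination (cen h y + d) * this
  refine ⟨d, ?_, ?_⟩ <;> simp only [e1]
  · exact ((t1.int hU).const_mul _).sub (t1.int hc)
  · rw [integral_sub ((t1.int hU).const_mul _) (t1.int hc), integral_const_mul]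
    change _ * WI _ _ - WI _ _ = _
    rw [WI_add hU h1.cen (T1.cst d), WI_add hc h1.cen (T1.cst d), WI_cst, WI_cst]
    field_simp; ring

theorem exist {V : Sm n} {α β : ℝ} (hV : Ad α β V) (he : Ev V) (hαβ : α ≤ β) :
    ∃ p, St α β p V ∧ Ev p := by
  have hα := hV.pos
  have hc := hV.coer he
  have hV1 := hV.q2.t1
  obtain ⟨P, m, p0, p1, p2⟩ := apriori (a := α / 2) hV (by linarith) hαβ
  obtain ⟨T, hT, hf⟩ := flowN hV he (by linarith) (max 1 (max (m 1) (m 2))) (le_max_left _ _)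
  obtain ⟨C, hC⟩ := HN_lo (n := n) α β
  have hb : BddAbove (JJ V '' {ψ | P ψ}) := by
    refine ⟨Real.log (Real.exp C * ∫ x : E n, pg 0 (α / 2) x), ?_⟩
    rintro _ ⟨ψ, hψ, rfl⟩
    have a1 := NC.ad (p1 ψ hψ) hα
    have a0 := (p1 ψ hψ).1.1
    have st := a1.st a0 hV1
    have a2 : 0 ≤ WI V ψ / WI V 1 := div_nonneg (WI_nonneg fun x => by
      have := ev_lo a1.lo (p1 ψ hψ).1.2.1 x
      have : 0 ≤ α / 2 * ‖x‖ ^ 2 := by positivity
      linarith) (WI_pos hc).le
    refine (sub_le_self _ a2).trans (Real.log_le_log (WI_pos st.co) ?_)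
    rw [← integral_const_mul]
    exact integral_mono (T1.one.int st.co) ((integrable_pg (by linarith) _).const_mul _) fun x => by
      simpa [pg] using exp_le_of_coer (hC V ψ a1 a0 x)
  have key : ∀ ε, 0 < ε → ∃ ψ ∈ NC α β m, SK V ψ < ε := by
    intro ε hε
    obtain ⟨_, ⟨φ0, h0, rfl⟩, h1⟩ := exists_lt_of_lt_csSup (s := JJ V '' {ψ | P ψ})
      ⟨_, _, p0, rfl⟩ (sub_lt_self _ (show 0 < ε * (T / 2) by positivity))
    have a0 := p1 φ0 h0
    obtain ⟨m', φ, rfl, fl⟩ := hf φ0 a0.1.1 a0.1.2.1 (NC.ad a0 hα)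
      ((a0.1.2.2 1).mono (by simp)) ((a0.1.2.2 2).mono (by simp))
    have nf : NF V (α / 2) β T φ := ⟨by linarith, m', fl⟩
    obtain ⟨t, ht, h2⟩ := exists_hasDerivAt_eq_slope (fun t => JJ V (φ t)) (fun t => SK V (φ t))
      (half_pos hT) (nf.cont_J hV1 hc).continuousOn
      fun t ht => nf.dt_J hV1 hc ⟨ht.1, by linarith [ht.2]⟩
    refine ⟨φ t, p1 _ (p2 T φ nf h0 t ⟨ht.1.le, by linarith [ht.2]⟩), ?_⟩
    have := le_csSup hb ⟨_, p2 T φ nf h0 (T / 2) ⟨by linarith, by linarith⟩, rfl⟩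
    rw [h2, div_lt_iff₀ (by linarith)]
    linarith
  choose ψ h1 h2 using fun N : ℕ => key (1 / ((N : ℝ) + 1)) (by positivity)
  have g := SN_good hV.q2 hα β m
  have eH : (SN V).H = fun u => cen (HN V u) := by funext u; simp [Sch.H, SN, HN]
  have st := fun N => (NC.ad (h1 N) hα).st (h1 N).1.1 hV1
  choose d h3 h4 using fun N => SK_eq hc (st N).co ((st N).ad.t1_HN hV1)
  have h5 := ball hc (k := fun N => cen (HN V (ψ N)))
    (by simpa only [eH] using g.tH.comp fun N => ⟨ψ N, h1 N⟩) d h3 (by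
      refine squeeze_zero (fun N => integral_nonneg fun y => mul_nonneg (sk_nn _) (Real.exp_pos _).le)
        (fun N => ?_) (by simpa using tendsto_one_div_add_atTop_nhds_zero_nat.const_mul (WI V 1))
      rw [h4]; simpa [SK] using mul_le_mul_of_nonneg_left (h2 N).le (WI_pos hc).le)
  set U := hyperfilter ℕ
  have hU : (U : Filter ℕ) ≤ atTop := by rw [← Nat.cofinite_eq_atTop]; exact hyperfilter_le_cofinite
  obtain ⟨p, hp⟩ := (g.tm.comp fun N => ⟨ψ N, h1 N⟩).ulim U
  have hp1 := g.cl U ψ p h1 hp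
  have hp2 : cen (HN V p) = 0 := by
    ext x
    have a1 := g.tendsto_H h1 hp1 hp x
    rw [eH] at a1
    refine tendsto_nhds_unique a1 (Tendsto.mono_left ?_ hU)
    simpa using (h5 x).sub (h5 0)
  refine ⟨p, ⟨NC.ad hp1 hα, hV1, hc, fun v => ?_⟩, hp1.1.2.1⟩
  rw [LL, ← D_HN (NC.ad hp1 hα), ← D_cen, hp2, map_zero]

end Vale.Agent.P227
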