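import Vale.Agent.P227.Red

open scoped ContDiff Topology RealInnerProductSpace ENNReal
open Filter Set MeasureTheory
noncomputable section
namespace Vale.Agent.P227
variable {n : ℕ}

lemma le_supp {K : Set (E n)} (hK : IsCompact K) (u : E n) {x} (hx : x ∈ K) :
    ⟪x, u⟫ ≤ sSup ((fun x => ⟪x, u⟫) '' K) :=
  le_csSup (hK.image (by fun_prop)).bddAbove ⟨x, hx, rfl⟩
lemma abs_le_supp {K : Set (E n)} (hK : IsCompact K) (hs : K = -K) (u : E n) {x} (hx : x ∈ K) :
    |⟪u, x⟫| ≤ sSup ((fun x => ⟪x, u⟫) '' K) := by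
  have h1 := le_supp hK u hx
  have h2 := le_supp hK u (x := -x) (by rw [hs]; simpa using hx)
  rw [inner_neg_left] at h2
  rw [real_inner_comm, abs_le]; constructor <;> linarith
lemma supp_pos {K : Set (E n)} (hK : IsCompact K) (hs : K = -K) (hi : (interior K).Nonempty)
    {u : E n} (hu : ‖u‖ = 1) : 0 < sSup ((fun x => ⟪x, u⟫) '' K) := by
  obtain ⟨x, hx⟩ := hi
  obtain ⟨r, hr, h⟩ := Metric.mem_nhds_iff.1 (mem_interior_iff_mem_nhds.1 hx)
  have h1 := abs_le_supp hK hs u (h (Metric.mem_ball_self hr))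
  have h2 := abs_le_supp hK hs u (x := x + (r / 2) • u) (h (by
    simp [norm_smul, hu, abs_of_pos hr, hr]))
  rw [inner_add_right, real_inner_smul_right, real_inner_self_eq_norm_sq, hu, abs_le] at *
  linarith

lemma gauss_int {α : ℝ} (hα : 0 < α) : Integrable fun x : E n => Real.exp (-(α / 2) * ‖x‖ ^ 2) := by
  simpa [pg] using (integrable_pg (n := n) (half_pos hα) 0).congr
    (Eventually.of_forall fun x => (one_mul _))

lemma gauss_lo {K S : Set (E n)} (hK : IsCompact K) (hKS : K ⊆ S) {R α : ℝ} (hα : 0 < α)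
    (hR : ∀ x ∈ K, ‖x‖ ≤ R) : Real.exp (-(α / 2) * R ^ 2) * volume.real K ≤
      ∫ x in S, Real.exp (-(α / 2) * ‖x‖ ^ 2) := by
  refine le_trans ?_ (setIntegral_mono_set (gauss_int hα).integrableOn
    (Eventually.of_forall fun x => (Real.exp_pos _).le) hKS.eventuallyLE)
  refine setIntegral_ge_of_const_le_real hK.measurableSet hK.measure_lt_top.ne (fun x hx => ?_)
    (gauss_int hα).integrableOn
  have := pow_le_pow_left₀ (norm_nonneg _) (hR x hx) 2
  exact Real.exp_le_exp.2 (by nlinarith)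

theorem logBM (hn : 1 ≤ n) {K L : Set (E n)} (hK : IsCompact K) (hK1 : (interior K).Nonempty)
    (hK2 : K = -K) (hL : IsCompact L) (hL1 : (interior L).Nonempty) (hL2 : L = -L) {l : ℝ}
    (h0 : 0 ≤ l) (h1 : l ≤ 1) : volume K ^ (1 - l) * volume L ^ l ≤
      volume (⋂ u ∈ Metric.sphere (0 : E n) 1, {x : E n | ⟪x, u⟫ ≤
        sSup ((fun x => ⟪x, u⟫) '' K) ^ (1 - l) * sSup ((fun x => ⟪x, u⟫) '' L) ^ l}) := by
  set a : E n → ℝ := fun u => sSup ((fun x => ⟪x, u⟫) '' K)
  set b : E n → ℝ := fun u => sSup ((fun x => ⟪x, u⟫) '' L)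
  set W := ⋂ u ∈ Metric.sphere (0 : E n) 1, {x : E n | ⟪x, u⟫ ≤ a u ^ (1 - l) * b u ^ l}
  rcases eq_or_ne (volume W) ⊤ with hW | hW
  · simp [hW]
  obtain ⟨T, hT, hT'⟩ := TopologicalSpace.isOpen_iUnion_countable
    (fun u : Metric.sphere (0 : E n) 1 => {x : E n | a u ^ (1 - l) * b u ^ l < ⟪x, u⟫})
    fun u => isOpen_lt (by fun_prop) (by fun_prop)
  have : Nonempty (Metric.sphere (0 : E n) 1) := ⟨⟨e ⟨0, hn⟩, by simp⟩⟩
  obtain ⟨u, hu⟩ := countable_iff_exists_subset_range.1 hT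
  have ha : ∀ i, 0 < a (u i) := fun i => supp_pos hK hK2 hK1 (by simp)
  have hb : ∀ i, 0 < b (u i) := fun i => supp_pos hL hL2 hL1 (by simp)
  obtain ⟨R, hR⟩ := (hK.union hL).isBounded.exists_norm_le
  set S : ℝ → Set (E n) := fun t =>
    {x | ∀ i, |⟪(u i).1, x⟫| ≤ a (u i) * Real.exp (Real.log (b (u i) / a (u i)) * t)}
  have s0 : K ⊆ S 0 := fun x hx i => by simpa using abs_le_supp hK hK2 _ hx
  have s1 : L ⊆ S 1 := fun x hx i => by
    rw [mul_one, Real.exp_log (div_pos (hb i) (ha i)), mul_div_cancel₀ _ (ha i).ne']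
    exact abs_le_supp hL hL2 _ hx
  have s2 : S l ⊆ W := fun x hx => mem_iInter₂.2 fun v hv => by
    by_contra h
    have : x ∈ ⋃ u ∈ T, {x : E n | a u ^ (1 - l) * b u ^ l < ⟪x, u.1⟫} := by
      rw [hT']; exact mem_iUnion.2 ⟨⟨v, hv⟩, lt_of_not_ge (α := ℝ) h⟩
    obtain ⟨w, hw, h2⟩ := mem_iUnion₂.1 this
    obtain ⟨i, rfl⟩ := hu hw
    have h3 := (le_abs_self _).trans (hx i)
    rw [← Real.rpow_def_of_pos (div_pos (hb i) (ha i)), Real.div_rpow (hb i).le (ha i).le,
      real_inner_comm, mul_div_left_comm, mul_comm, ← Real.rpow_one (a (u i)), ← Real.rpow_mul (ha i).le,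
      one_mul, ← Real.rpow_sub (ha i)] at h3
    exact h3.not_gt h2
  have key : ∀ α, 0 < α → Real.exp (-(α / 2) * R ^ 2) *
      (volume.real K ^ (1 - l) * volume.real L ^ l) ≤ volume.real W := fun α hα => by
    have a1 := slab (fun i => (u i).1) (fun i => a (u i)) (fun i => Real.log (b (u i) / a (u i)))
      ha hα h0 h1 (fun t => ∫ x in S t, Real.exp (-(α / 2) * ‖x‖ ^ 2)) fun _ => rfl
    have a2 := Real.rpow_le_rpow (by positivity)
      (gauss_lo hK s0 hα fun x hx => hR x (Or.inl hx)) (sub_nonneg.2 h1)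
    have a3 := Real.rpow_le_rpow (by positivity) (gauss_lo hL s1 hα fun x hx => hR x (Or.inr hx)) h0
    have a4 : ∫ x in S l, Real.exp (-(α / 2) * ‖x‖ ^ 2) ≤ volume.real W := by
      refine (setIntegral_mono_set (gauss_int hα).integrableOn
        (Eventually.of_forall fun x => (Real.exp_pos _).le) s2.eventuallyLE).trans
        ((le_abs_self _).trans ((norm_setIntegral_le_of_norm_le_const (C := 1)
          (f := fun x : E n => Real.exp (-(α / 2) * ‖x‖ ^ 2)) hW.lt_top fun x _ => ?_).trans_eq (one_mul _)))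
      rw [Real.norm_eq_abs, Real.abs_exp, Real.exp_le_one_iff, neg_mul, neg_nonpos]; positivity
    refine le_trans (le_of_eq ?_) ((mul_le_mul a2 a3 (by positivity)
      ((by positivity : (0 : ℝ) ≤ _).trans a2)).trans (a1.trans a4))
    rw [Real.mul_rpow (by positivity) (by positivity), Real.mul_rpow (by positivity) (by positivity),
      mul_mul_mul_comm, ← Real.rpow_add (Real.exp_pos _), sub_add_cancel, Real.rpow_one]
  have lim : Tendsto (fun α : ℝ => Real.exp (-(α / 2) * R ^ 2) *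
      (volume.real K ^ (1 - l) * volume.real L ^ l)) (𝓝[>] 0)
      (𝓝 (volume.real K ^ (1 - l) * volume.real L ^ l)) := by
    have : Continuous fun α : ℝ => Real.exp (-(α / 2) * R ^ 2) *
      (volume.real K ^ (1 - l) * volume.real L ^ l) := by fun_prop
    simpa using (this.tendsto 0).mono_left nhdsWithin_le_nhds
  have := ENNReal.ofReal_le_ofReal (le_of_tendsto lim (eventually_mem_nhdsWithin.mono key))
  rwa [ENNReal.ofReal_mul (by positivity), ← ENNReal.ofReal_rpow_of_nonneg (by positivity)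
    (sub_nonneg.2 h1), ← ENNReal.ofReal_rpow_of_nonneg (by positivity) h0, ofReal_measureReal hW,
    ofReal_measureReal hK.measure_lt_top.ne, ofReal_measureReal hL.measure_lt_top.ne] at this

end Vale.Agent.P227
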