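import Vale.Agent.P227.MM

set_option linter.unusedSectionVars false
set_option linter.unusedSimpArgs false
noncomputable section
namespace Vale.Agent.P227
open Finset Matrix

section
variable {ι : Type*} [Fintype ι] [DecidableEq ι]
lemma tr_nn (B X : Matrix ι ι ℝ) (hX : Xᵀ = X) : 0 ≤ trace (B * Bᵀ * (X * (B * Bᵀ * X))) := by
  have h : (Bᵀ * X * B)ᵀ = Bᵀ * X * B := by
    rw [transpose_mul, transpose_mul, hX, transpose_transpose, mul_assoc]
  have : trace (B * Bᵀ * (X * (B * Bᵀ * X))) = trace ((Bᵀ * X * B) * (Bᵀ * X * B)ᵀ) := by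
    rw [h, mul_assoc, trace_mul_comm]; simp only [mul_assoc]
  rw [this, MM.trace_mul]
  exact sum_nonneg fun _ _ => sum_nonneg fun _ _ => mul_self_nonneg _
lemma tr_nn2 (B : Matrix ι ι ℝ) (Z : ι → Matrix ι ι ℝ) (hZ : ∀ a, (Z a)ᵀ = Z a) :
    0 ≤ ∑ a, ∑ b, (B * Bᵀ) a b * trace (B * Bᵀ * (Z a * (B * Bᵀ * Z b))) := by
  have : ∑ a, ∑ b, (B * Bᵀ) a b * trace (B * Bᵀ * (Z a * (B * Bᵀ * Z b))) =
      ∑ c, trace (B * Bᵀ * ((∑ a, B a c • Z a) * (B * Bᵀ * ∑ a, B a c • Z a))) := by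
    generalize hT : B * Bᵀ = T
    have : ∀ a b, T a b = ∑ c, B a c * B b c := fun a b => by rw [← hT]; rfl
    simp only [Matrix.mul_sum, Matrix.mul_smul]
    simp only [Matrix.sum_mul, Matrix.mul_sum, trace_sum, Matrix.smul_mul, Matrix.mul_smul,
      trace_smul, smul_eq_mul, this, Finset.sum_mul, Finset.mul_sum]
    rw [sum_comm_cycle]
    refine sum_congr rfl fun _ _ => ?_
    rw [sum_comm]
    exact sum_congr rfl fun _ _ => sum_congr rfl fun _ _ => by ring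
  rw [this]
  exact sum_nonneg fun _ _ => tr_nn _ _ (by simp [transpose_sum, hZ])
lemma tr_nn3 (B W : Matrix ι ι ℝ) (hW : ∀ v : ι → ℝ, 0 ≤ ∑ a, ∑ b, W a b * v a * v b) :
    0 ≤ ∑ a, ∑ b, W a b * (B * Bᵀ) a b := by
  have : ∑ a, ∑ b, W a b * (B * Bᵀ) a b = ∑ c, ∑ a, ∑ b, W a b * B a c * B b c := by
    simp only [mul_apply, mul_sum, transpose_apply, mul_assoc]
    rw [sum_comm_cycle]
  rw [this]; exact sum_nonneg fun _ _ => hW _
end

structure PM (ι A P : Type*) [Fintype ι] [DecidableEq ι] [CommRing A] [Algebra ℝ A]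
    extends MM ι A where
  ev : P → A →ₐ[ℝ] ℝ
  pos : ∀ f, (∀ p, 0 ≤ ev p f) → 0 ≤ E f
  fr : ∀ p, ∃ B : Matrix ι ι ℝ, τ.map (ev p) = B * Bᵀ

namespace PM
variable {ι A P : Type*} [Fintype ι] [DecidableEq ι] [CommRing A] [Algebra ℝ A] (M : PM ι A P)

lemma ev_tr (p) (X : Matrix ι ι A) : M.ev p (trace X) = trace (X.map (M.ev p)) := by
  simp [trace]
lemma mapT (p) {X : Matrix ι ι A} (h : Xᵀ = X) : (X.map (M.ev p))ᵀ = X.map (M.ev p) := by
  rw [← transpose_map, h]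
lemma frg (p) : ∃ B : Matrix ι ι ℝ, M.g.map (M.ev p) = B * Bᵀ := by
  obtain ⟨B, hB⟩ := M.fr p
  refine ⟨M.g.map (M.ev p) * B, ?_⟩
  rw [transpose_mul, M.mapT p M.gT, mul_assoc, ← mul_assoc B, ← hB, ← Matrix.map_mul,
    ← Matrix.map_mul, M.inv, mul_one]

lemma key (φ : A) : M.E (∑ i, ∑ j, M.D i (M.V j) * M.N φ i j) ≤
    M.E (trace (M.g * (M.H φ * (M.g * M.H φ)))) := by
  have h1 : 0 ≤ M.E (trace (M.g * ((M.H φ + M.S φ) * (M.g * (M.H φ + M.S φ))))) :=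
    M.pos _ fun p => by
      obtain ⟨B, hB⟩ := M.frg p
      simp only [ev_tr, Matrix.map_mul, hB]
      exact tr_nn _ _ (M.mapT p (by rw [transpose_add, M.HT, M.ST]))
  have h2 : 0 ≤ M.E (∑ a, ∑ b, M.τ a b * trace (M.τ * (M.Z φ a * (M.τ * M.Z φ b)))) :=
    M.pos _ fun p => by
      obtain ⟨B, hB⟩ := M.fr p
      have : ∀ a b, M.ev p (M.τ a b) = (B * Bᵀ) a b := fun a b => by rw [← hB]; rfl
      simp only [map_sum, map_mul, ev_tr, Matrix.map_mul, hB, this]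
      exact tr_nn2 _ _ fun a => M.mapT p (M.ZT φ a)
  have h3 : trace (M.g * ((M.H φ + M.S φ) * (M.g * (M.H φ + M.S φ)))) =
      trace (M.g * (M.H φ * (M.g * M.H φ))) + 2 * trace (M.H φ * M.H2 φ) + M.It φ := by
    simp only [mul_add, add_mul, trace_add, MM.S, mul_assoc, M.gτ, M.τg, MM.It]
    rw [MM.cyc M.g (M.H φ * (M.H2 φ * M.τ)), MM.cyc (M.H2 φ) (M.H φ),
      MM.cyc M.τ (M.H2 φ * _)]
    simp only [mul_assoc, M.inv, mul_one]; ring
  rw [M.claimZ] at h2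
  rw [h3] at h1
  have hA := M.claimA φ
  rw [M.claimB]
  simp only [map_add, map_sub, two_mul, show (4 : A) = 2 + 2 by norm_num,
    show (8 : A) = 2 + 2 + 2 + 2 by norm_num, add_mul] at h1 h2 hA ⊢
  linarith

lemma E_sq (φ : A) : M.E (M.L (M.u φ) * M.L (M.u φ)) = M.E (trace (M.g * (M.H φ * (M.g * M.H φ))))
    + M.E (∑ a, ∑ b, M.D a (M.V b) * M.gr (M.u φ) a * M.gr (M.u φ) b) := by
  have h : M.g * M.H φ = Matrix.of fun a j => M.D a (M.gr (M.u φ) j) := by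
    have : M.H φ = M.τ * Matrix.of fun a j => M.D a (M.gr (M.u φ) j) := by
      ext i j; simp only [MM.H, of_apply, mul_apply, M.τs i]
    rw [this, M.gτ]
  rw [← mul_assoc, h, MM.trace_mul, M.L_eq]
  exact M.E_div_sq _

variable {κ : Type*} [Fintype κ] (W : κ → ι → A) (hs : ∀ k a b, M.D a (W k b) = M.D b (W k a))
  (hp : ∀ k p (v : ι → ℝ), 0 ≤ ∑ a, ∑ b, M.ev p (M.D a (W k b)) * v a * v b)
  (hV : ∀ a, ∑ k, W k a = M.V a) (c : κ → ℝ)

include hs hp hV in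
theorem main (φ : A) : 2 * M.E ((∑ k, c k • ∑ a, M.x a * W k a) * M.L (M.u φ)) -
    M.E (M.L (M.u φ) * M.L (M.u φ)) ≤
    ∑ k, c k ^ 2 * (M.E (∑ a, ∑ b, M.D a (W k b) * M.x a * M.x b) + M.E (∑ a, M.x a * W k a)) := by
  set η := M.gr (M.u φ) with hη
  have h1 : ∀ k, M.E ((∑ a, M.x a * W k a) * M.L (M.u φ)) =
      M.E (∑ a, ∑ b, M.D a (W k b) * M.S φ a b) - M.E (∑ a, ∑ b, M.D a (W k b) * η a * M.x b) := by
    intro k
    have e1 := M.E_sum_div (fun j a => M.S φ a j) (W k)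
    simp only [M.div_S] at e1
    rw [sum_comm] at e1
    rw [M.L_eq, M.E_mul_div]
    simp only [map_sum (M.D _), M.D_mul, M.Dx, ite_mul, one_mul, zero_mul, sum_add_distrib,
      sum_ite_eq, mem_univ, if_true, mul_add, map_add]
    simp only [mul_comm (W k _), mul_comm (M.S φ _ _)] at e1
    have e2 : ∑ a, η a * ∑ b, M.x b * M.D a (W k b) = ∑ a, ∑ b, M.D a (W k b) * η a * M.x b := by
      simp only [mul_sum]; exact sum_congr rfl fun _ _ => sum_congr rfl fun _ _ => by ring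
    erw [e1, e2]; ring
  have h2 : ∀ k, M.E (∑ a, M.x a * W k a) = M.E (∑ a, ∑ b, M.D a (W k b) * M.τ a b) := by
    intro k
    have e1 := M.E_sum_div (fun j a => M.τ a j) (W k)
    simp only [M.div_τ, neg_mul, sum_neg_distrib, map_neg, neg_inj, mul_comm (W k _),
      mul_comm (M.τ _ _)] at e1
    rw [e1, sum_comm]
  have h3 : ∀ k, 0 ≤ M.E (∑ a, ∑ b, M.D a (W k b) * (c k • M.x a + η a) * (c k • M.x b + η b)) :=
    fun k => M.pos _ fun p => by
      simp only [map_sum, map_mul]; exact hp k p _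
  have h4 : ∀ k, 0 ≤ M.E (∑ a, ∑ b, M.D a (W k b) *
      (c k ^ 2 • M.τ a b - (2 * c k) • M.S φ a b + M.N φ a b)) := fun k => M.pos _ fun p => by
    obtain ⟨B, hB⟩ := M.fr p
    have e1 := tr_nn3 ((c k • 1 - B * Bᵀ * (M.H2 φ).map (M.ev p)) * B)
      (Matrix.of fun a b => M.ev p (M.D a (W k b))) (hp k p)
    have e2 : ((c k • 1 - B * Bᵀ * (M.H2 φ).map (M.ev p)) * B) *
        ((c k • 1 - B * Bᵀ * (M.H2 φ).map (M.ev p)) * B)ᵀ =
        c k ^ 2 • M.τ.map (M.ev p) - (2 * c k) • (M.S φ).map (M.ev p) + (M.N φ).map (M.ev p) := by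
      simp only [MM.S, MM.N, Matrix.map_mul, hB, transpose_mul, transpose_sub, transpose_smul,
        transpose_one, transpose_transpose, M.mapT p (M.H2T φ), mul_sub, sub_mul, mul_assoc,
        Matrix.smul_mul, Matrix.mul_smul, one_mul, mul_one, smul_smul]
      module
    rw [e2] at e1
    simpa using e1
  have h5 := M.key φ
  have h6 : ∀ F : ι → ι → A, M.E (∑ a, ∑ b, M.D a (M.V b) * F a b) =
      ∑ k, M.E (∑ a, ∑ b, M.D a (W k b) * F a b) := fun F => by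
    rw [← map_sum]
    simp only [← hV, map_sum (M.D _), sum_mul]
    rw [sum_comm_cycle]
  have h7 : ∀ k, 2 * (c k * M.E ((∑ a, M.x a * W k a) * M.L (M.u φ))) -
      M.E (∑ a, ∑ b, M.D a (W k b) * M.N φ a b) - M.E (∑ a, ∑ b, M.D a (W k b) * (η a * η b)) ≤
      c k ^ 2 * (M.E (∑ a, ∑ b, M.D a (W k b) * M.x a * M.x b) + M.E (∑ a, M.x a * W k a)) := by
    intro k
    have e3 := h3 k
    have e4 := h4 k
    have e5 : ∑ a, ∑ b, M.D a (W k b) * M.x a * η b = ∑ a, ∑ b, M.D a (W k b) * η a * M.x b := by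
      rw [sum_comm]; exact sum_congr rfl fun _ _ => sum_congr rfl fun _ _ => by rw [hs]; ring
    simp only [mul_add, add_mul, mul_sub, mul_smul_comm, smul_mul_assoc, sum_add_distrib,
      sum_sub_distrib, ← smul_sum, map_add, map_sub, map_smul, smul_eq_mul, e5] at e3 e4
    simp only [← mul_assoc, h1, h2]
    linarith
  rw [E_sq, sum_mul, map_sum]
  rw [h6 (M.N φ)] at h5
  simp only [mul_assoc _ (η _), ← hη, h6, smul_mul_assoc, map_smul, smul_eq_mul]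
  have := sum_le_sum (s := univ) fun k _ => h7 k
  simp only [sum_sub_distrib, ← mul_sum] at this
  linarith
end PM
end Vale.Agent.P227
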