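import Vale.Agent.P227.Bern
import Vale.Agent.P227.MM2

open scoped ContDiff Topology
open Filter Set MeasureTheory
noncomputable section
namespace Vale.Agent.P227
variable {n : ℕ}

section
variable {U f g : Sm n}
lemma T1.add (hf : T1 f) (hg : T1 g) : T1 (f + g) := Tm.add hf hg
lemma T1.sub (hf : T1 f) (hg : T1 g) : T1 (f - g) := Tm.sub hf hg
lemma T1.mul (hf : T1 f) (hg : T1 g) : T1 (f * g) := Tm.mul hf hg
lemma T1.smul (hf : T1 f) (c : ℝ) : T1 (c • f) := Tm.smul hf c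
lemma T1.D (hf : T1 f) (v) : T1 (D v f) := Tm.D hf v
lemma T1.rad (hf : T1 f) : T1 (rad f) := Tm.rad hf
lemma T1.cen (hf : T1 f) : T1 (cen f) := Tm.cen hf
lemma T1.cst (c : ℝ) : T1 (cst c : Sm n) := tm_cst' c
lemma T1.one : T1 (1 : Sm n) := tm_one
lemma T1.sum {ι : Type*} (s : Finset ι) {F : ι → Sm n} (h : ∀ i ∈ s, T1 (F i)) :
    T1 (∑ i ∈ s, F i) := Tm.sum s h
lemma Tm.t1 {κ : Type*} {F : κ → Sm n} (h : Tm F) (i) : T1 (F i) := h.comp fun _ => i

lemma WI_add (hU : Coer U) (hf : T1 f) (hg : T1 g) : WI U (f + g) = WI U f + WI U g := by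
  simp only [WI, Sm.add_apply, add_mul]; exact integral_add (hf.int hU) (hg.int hU)
lemma WI_sub (hU : Coer U) (hf : T1 f) (hg : T1 g) : WI U (f - g) = WI U f - WI U g := by
  simp only [WI, Sm.sub_apply, sub_mul]; exact integral_sub (hf.int hU) (hg.int hU)
lemma WI_smul (c : ℝ) : WI U (c • f) = c * WI U f := by
  simp only [WI, Sm.smul_apply, mul_assoc, integral_const_mul]
lemma WI_cst (c : ℝ) : WI U (cst c) = c * WI U 1 := by rw [← WI_smul, ← cst_mul, mul_one]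
lemma WI_sum (hU : Coer U) {ι : Type*} (s : Finset ι) {F : ι → Sm n} (h : ∀ i ∈ s, T1 (F i)) :
    WI U (∑ i ∈ s, F i) = ∑ i ∈ s, WI U (F i) := by
  simp only [WI, Sm.sum_apply, Finset.sum_mul]
  exact integral_finsetSum _ fun i hi => (h i hi).int hU
lemma WI_nonneg (h : ∀ x, 0 ≤ f x) : 0 ≤ WI U f :=
  integral_nonneg fun x => mul_nonneg (h x) (Real.exp_pos _).le
lemma WI_mono (hU : Coer U) (hf : T1 f) (hg : T1 g) (h : ∀ x, f x ≤ g x) : WI U f ≤ WI U g :=
  integral_mono (hf.int hU) (hg.int hU) fun x =>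
    mul_le_mul_of_nonneg_right (h x) (Real.exp_pos _).le
lemma WI_pos (hU : Coer U) : 0 < WI U 1 :=
  integral_pos_of_integrable_nonneg_nonzero (x := 0) (by have := U.cont; simp; fun_prop)
    (T1.one.int hU) (fun x => by simp; positivity) (by simp)
end

lemma Ad.t1_tau {a b} {φ : Sm n} (h : Ad a b φ) (i j) : T1 (tau φ i j) :=
  UQ.tm_tau (φ := fun _ : Unit => φ) (fun _ => h)
    (fun k => by obtain ⟨M, hM⟩ := h.q2 k; exact ⟨M, fun _ => hM⟩) i j
lemma Ad.t1_LL {a b} {φ w : Sm n} (h : Ad a b φ) (hw : T1 w) : T1 (LL φ w) :=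
  (T1.sum _ fun i _ => T1.sum _ fun j _ => (h.t1_tau i j).mul ((hw.D _).D _)).sub hw.rad

def TA (n : ℕ) : Subalgebra ℝ (Sm n) where
  carrier := {f | T1 f}
  mul_mem' := T1.mul
  add_mem' := T1.add
  algebraMap_mem' := T1.cst

def Dt (a : Fin n) : Derivation ℝ (TA n) (TA n) := Derivation.mk'
  { toFun f := ⟨D (e a) f, T1.D f.2 _⟩
    map_add' f g := Subtype.ext (map_add (D (e a)) f.1 g.1)
    map_smul' c f := Subtype.ext ((D (e a)).map_smul c f.1) }
  fun f g => Subtype.ext ((D (e a)).leibniz f.1 g.1)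
@[simp] lemma Dt_coe (a : Fin n) (f : TA n) : (Dt a f : Sm n) = D (e a) f := rfl

structure St (a b : ℝ) (φ U : Sm n) : Prop where
  ad : Ad a b φ
  t1 : T1 U
  co : Coer U
  eqn : ∀ v, LL φ (D v φ) + D v U = 0

def Gam (φ f g : Sm n) : Sm n := ∑ a, ∑ b, tau φ a b * D (e a) f * D (e b) g
def HS (φ v : Sm n) : Sm n := ∑ i, ∑ j, (∑ k, (∑ l, tau φ i l * gm v l k) * tau φ k j) * gm v j i

namespace St
variable {a b : ℝ} {φ U : Sm n} (h : St a b φ U)

def pm : PM (Fin n) (TA n) (E n) where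
  D := Dt
  comm a b f := Subtype.ext (D_comm _ _ _)
  x a := ⟨X a, tm_X a⟩
  Dx a b := Subtype.ext (by
    simp only [Dt_coe, D_X, e_apply, eq_comm (a := b)]; split_ifs <;> simp [cst])
  V a := ⟨D (e a) U, h.t1.D _⟩
  E := { toFun f := WI U f
         map_add' f g := WI_add h.co f.2 g.2
         map_smul' c f := WI_smul c }
  ibp a f := WI_ibp f.2 h.co h.t1 _
  g := Matrix.of fun a b => ⟨gm φ a b, (h.ad.q2.t1.D _).D _⟩
  τ := Matrix.of fun a b => ⟨tau φ a b, h.ad.t1_tau a b⟩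
  gs a b := Subtype.ext (gm_symm _ _ _)
  dg a b c := Subtype.ext (D_comm _ _ _)
  τs a b := Subtype.ext (tau_symm _ _ _)
  inv := by
    ext i j x
    simp only [Matrix.mul_apply, Matrix.one_apply, Matrix.of_apply, AddSubmonoidClass.coe_finsetSum,
      MulMemClass.coe_mul, Sm.sum_apply, Sm.mul_apply, h.ad.tau_mul]
    split_ifs <;> simp
  eqn i := Subtype.ext (by simpa [LL, LT, rad_eq, gm] using h.eqn (e i))
  ev x := (ev x).comp (TA n).val
  pos f hf := WI_nonneg hf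
  fr x := by
    obtain ⟨m, hm⟩ := frame (fun a b => tau φ a b x) (fun a b => by rw [tau_symm])
      (h.ad.tau_nonneg x)
    exact ⟨m, by ext a b; exact hm a b⟩

lemma L_coe (w : TA n) : (h.pm.L w : Sm n) = LL φ w := by simp [MM.L, pm, LL, LT, rad_eq]
lemma E_eq (w : TA n) : h.pm.E w = WI U w := rfl

include h
lemma E_L {w : Sm n} (hw : T1 w) : WI U (LL φ w) = 0 := by
  have := h.pm.E_L ⟨w, hw⟩
  rwa [E_eq, L_coe] at this
lemma E_mul_L {f w : Sm n} (hf : T1 f) (hw : T1 w) :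
    WI U (f * LL φ w) = - WI U (Gam φ f w) := by
  have := h.pm.E_mul_L ⟨f, hf⟩ ⟨w, hw⟩
  simp only [E_eq, L_coe, MulMemClass.coe_mul] at this
  simpa [pm, Gam] using this
lemma bochner {v : Sm n} (hv : T1 v) :
    WI U (LL φ v * LL φ v) = WI U (Gam φ v v) + WI U (HS φ v) := by
  have := h.pm.bochner ⟨v, hv⟩
  simp only [E_eq, L_coe, MulMemClass.coe_mul, MM.trace_mul, Matrix.mul_apply, MM.H2_apply] at this
  simpa [pm, Gam, HS, gm] using this

theorem main {κ : Type*} [Fintype κ] (W : κ → Sm n) (h1 : ∀ k, T1 (W k))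
    (h2 : ∀ k w z, 0 ≤ D w (D w (W k)) z) (h3 : ∑ k, W k = U) (c : κ → ℝ) {ψ : Sm n} (hψ : T1 ψ) :
    2 * WI U ((∑ k, c k • rad (W k)) * LL φ (LL φ ψ + ψ)) -
      WI U (LL φ (LL φ ψ + ψ) * LL φ (LL φ ψ + ψ)) ≤ ∑ k, c k ^ 2 * WI U (rad (rad (W k))) := by
  have := h.pm.main (fun k a => ⟨D (e a) (W k), (h1 k).D _⟩) (fun k a b => Subtype.ext (D_comm _ _ _))
    (fun k p v => by
      refine (h2 k (WithLp.toLp 2 v) p).trans (le_of_eq ?_)
      rw [DD_eq]
      exact Finset.sum_congr rfl fun _ _ => Finset.sum_congr rfl fun _ _ => by simp [pm]; ring)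
    (fun a => Subtype.ext (by simp [pm, ← h3])) c ⟨ψ, hψ⟩
  simp only [← map_add] at this
  simp only [E_eq, L_coe, MulMemClass.coe_mul, MM.u, AddMemClass.coe_add] at this
  convert this using 5
  · simp [pm, rad_eq]
  · conv_lhs => rw [rad_eq]
    simp only [D_rad, mul_add, Finset.sum_add_distrib]
    simp [pm, rad_eq, Finset.mul_sum]
    exact Finset.sum_congr rfl fun _ _ => Finset.sum_congr rfl fun _ _ => by rw [D_comm]; ring
end St

end Vale.Agent.P227
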