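import Vale.Agent.P227.Tm

open scoped ContDiff Topology
open Filter Set MeasureTheory
noncomputable section
namespace Vale.Agent.P227
variable {n : ℕ}

lemma Sm.locBd (f : Sm n) (k : ℕ) (R : ℝ) : ∃ C : ℝ, ∀ z, ‖z‖ ≤ R → BdAt k f z C := by
  obtain ⟨C, hC⟩ := (isCompact_closedBall (0 : E n) R).exists_bound_of_continuousOn
    (hs k f).cont.continuousOn
  refine ⟨Real.sqrt C, fun z hz => (bdAt_hs k f z).mono (Real.sqrt_le_sqrt ?_)⟩
  exact (le_abs_self _).trans (hC z (by simpa using hz))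

lemma BdAt.norm_fderiv {f : Sm n} {x M} (h : BdAt 1 f x M) : ‖fderiv ℝ f x‖ ≤ M :=
  ContinuousLinearMap.opNorm_le_bound _ h.nonneg fun v => (BdAt.D (k := 0) h v).zero

lemma fderiv_eq_sum (f : Sm n) (x) :
    fderiv ℝ f x = ∑ a, D (e a) f x • (EuclideanSpace.proj a : E n →L[ℝ] ℝ) := by
  ext v; rw [← D_apply, D_eq_sum]; simp [mul_comm]

section
variable {Ω : Type*} [MeasurableSpace Ω] {μ : Measure Ω} {ρ : Ω → Sm n}

lemma meas_D (h : ∀ z, Measurable fun w => ρ w z) (v z : E n) :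
    Measurable fun w => D v (ρ w) z := by
  refine measurable_of_tendsto_metrizable' (𝓝[>] (0 : ℝ))
    (f := fun δ w => δ⁻¹ * (ρ w (z + δ • v) - ρ w z))
    (fun δ => ((h _).sub (h _)).const_mul _) (tendsto_pi_nhds.2 fun w => ?_)
  simpa using (hasDerivAt_line (ρ w) z v 0).tendsto_slope_zero_right
lemma meas_DM (h : ∀ z, Measurable fun w => ρ w z) (s) (z : E n) :
    Measurable fun w => DM s (ρ w) z := by
  induction s using Multiset.induction generalizing z with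
  | empty => exact h z
  | cons a s ih => simp only [DM_cons]; exact meas_D ih a z

structure Ker (μ : Measure Ω) (ρ : Ω → Sm n) : Prop where
  meas : ∀ z, Measurable fun w => ρ w z
  dom : ∀ k R, ∃ b : Ω → ℝ, Integrable b μ ∧ ∀ᵐ w ∂μ, ∀ z, ‖z‖ ≤ R → BdAt k (ρ w) z (b w)

lemma Ker.DM (h : Ker μ ρ) (s) : Ker μ fun w => DM s (ρ w) := by
  refine ⟨meas_DM h.meas s, fun k R => ?_⟩
  obtain ⟨b, h1, h2⟩ := h.dom (k + s.card) R
  exact ⟨fun w => b w * (s.map norm).prod, h1.mul_const _,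
    h2.mono fun w hw z hz => (hw z hz).DM s⟩
lemma Ker.D (h : Ker μ ρ) (v) : Ker μ fun w => D v (ρ w) := h.DM {v}
lemma Ker.int (h : Ker μ ρ) (z) : Integrable (fun w => ρ w z) μ := by
  obtain ⟨b, h1, h2⟩ := h.dom 0 ‖z‖
  exact h1.mono' (h.meas z).aestronglyMeasurable (h2.mono fun w hw => (hw z le_rfl).zero)

def intK (μ : Measure Ω) (ρ : Ω → Sm n) : Sm n := mk fun z => ∫ w, ρ w z ∂μ

lemma Ker.hasF (h : Ker μ ρ) (x) : DifferentiableAt ℝ (fun z => ∫ w, ρ w z ∂μ) x ∧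
    ∀ v, fderiv ℝ (fun z => ∫ w, ρ w z ∂μ) x v = ∫ w, P227.D v (ρ w) x ∂μ := by
  obtain ⟨b, h1, h2⟩ := h.dom 1 (‖x‖ + 1)
  have hm : AEStronglyMeasurable (fun w => fderiv ℝ (ρ w) x) μ := by
    simp only [fderiv_eq_sum]
    exact Finset.aestronglyMeasurable_fun_sum _ fun a _ =>
      (meas_D h.meas _ _).aestronglyMeasurable.smul_const _
  have hb : ∀ᵐ w ∂μ, ∀ z ∈ Metric.ball x 1, ‖fderiv ℝ (ρ w) z‖ ≤ b w :=
    h2.mono fun w hw z hz => (hw z (by
      have := norm_le_norm_add_norm_sub' z x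
      rw [mem_ball_iff_norm] at hz; linarith)).norm_fderiv
  have := hasFDerivAt_integral_of_dominated_of_fderiv_le (μ := μ) (F := fun z w => ρ w z)
    (F' := fun z w => fderiv ℝ (ρ w) z) (Metric.ball_mem_nhds x one_pos)
    (Eventually.of_forall fun z => (h.meas z).aestronglyMeasurable) (h.int x) hm hb h1
    (Eventually.of_forall fun w z _ => (ρ w).hasF z)
  refine ⟨this.differentiableAt, fun v => ?_⟩
  rw [this.fderiv, ContinuousLinearMap.integral_apply
    (h1.mono' hm (hb.mono fun w hw => hw x (Metric.mem_ball_self one_pos)))]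
  rfl

lemma Ker.DM_int (h : Ker μ ρ) (s z) : P227.DM s (intK μ ρ) z = ∫ w, P227.DM s (ρ w) z ∂μ := by
  obtain ⟨p, hp⟩ := jets (fun s z => ∫ w, P227.DM s (ρ w) z ∂μ) fun s x => by
    simpa only [DM_cons] using (h.DM s).hasF x
  have e1 : (fun z => ∫ w, ρ w z ∂μ) = p := funext fun z => (hp 0 z).symm
  have e2 : intK μ ρ = p := by
    ext z; rw [intK, e1, mk_apply p.smooth]
  rw [e2, hp]
lemma Ker.apply (h : Ker μ ρ) (z) : intK μ ρ z = ∫ w, ρ w z ∂μ := h.DM_int 0 z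
lemma Ker.D_int (h : Ker μ ρ) (v z) : P227.D v (intK μ ρ) z = ∫ w, P227.D v (ρ w) z ∂μ :=
  h.DM_int {v} z
end

lemma pow_le_exp_sq {a : ℝ} (ha : 0 < a) (p : ℕ) {t : ℝ} (ht : 0 ≤ t) :
    (1 + t) ^ p ≤ Real.exp (p ^ 2 / (4 * a)) * Real.exp (a * t ^ 2) := by
  rw [← Real.exp_add]
  calc (1 + t) ^ p ≤ Real.exp t ^ p := by gcongr; linarith [Real.add_one_le_exp t]
    _ = Real.exp (p * t) := by rw [Real.exp_nat_mul]
    _ ≤ _ := by
      gcongr
      have : (p : ℝ) ^ 2 / (4 * a) + a * t ^ 2 - p * t = (p - 2 * a * t) ^ 2 / (4 * a) := by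
        field_simp; ring
      have : 0 ≤ (p - 2 * a * t) ^ 2 / (4 * a) := by positivity
      linarith

def pg (p : ℕ) (a : ℝ) (w : E n) : ℝ := (1 + ‖w‖) ^ p * Real.exp (-a * ‖w‖ ^ 2)
lemma pg_pos (p a) (w : E n) : 0 < pg p a w := by unfold pg; positivity
lemma pg_cont (p a) : Continuous (pg p a : E n → ℝ) := by unfold pg; fun_prop

lemma integrable_pg {a : ℝ} (ha : 0 < a) (p : ℕ) : Integrable (pg p a : E n → ℝ) := by
  have h := (integrable_one_add_norm (E := E n) (μ := volume) (r := ((n + 1 : ℕ) : ℝ))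
    (by simp)).const_mul (Real.exp ((p + (n + 1) : ℕ) ^ 2 / (4 * a)))
  refine h.mono' (pg_cont p a).aestronglyMeasurable (Eventually.of_forall fun w => ?_)
  rw [Real.norm_eq_abs, abs_of_pos (pg_pos p a w), pg, Real.rpow_neg (by positivity),
    Real.rpow_natCast, ← div_eq_mul_inv, le_div_iff₀ (by positivity), neg_mul, Real.exp_neg]
  have := pow_le_exp_sq ha (p + (n + 1)) (norm_nonneg w)
  rw [pow_add] at this
  rw [mul_right_comm, ← div_eq_mul_inv, div_le_iff₀ (by positivity)]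
  exact this

lemma integrable_of_le {f : E n → ℝ} (hf : AEStronglyMeasurable f volume) {a : ℝ} (ha : 0 < a)
    (C : ℝ) (p : ℕ) (h : ∀ w, |f w| ≤ C * pg p a w) : Integrable f :=
  ((integrable_pg ha p).const_mul C).mono' hf (Eventually.of_forall h)

def T1 (f : Sm n) : Prop := Tm fun _ : Unit => f
def Coer (U : E n → ℝ) : Prop := ∃ a : ℝ, 0 < a ∧ ∃ C, ∀ x, a * ‖x‖ ^ 2 - C ≤ U x

lemma exp_le_of_coer {U : ℝ} {a C : ℝ} {x : E n} (h : a * ‖x‖ ^ 2 - C ≤ U) :
    Real.exp (-U) ≤ Real.exp C * Real.exp (-a * ‖x‖ ^ 2) := by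
  rw [← Real.exp_add]; gcongr; linarith

lemma integrable_w {F U : E n → ℝ} (hF : Continuous F) (hUc : Continuous U) (hU : Coer U)
    (C : ℝ) (p : ℕ) (h : ∀ x, |F x| ≤ C * (1 + ‖x‖) ^ p) :
    Integrable fun x => F x * Real.exp (-U x) := by
  obtain ⟨a, ha, C', hU⟩ := hU
  refine integrable_of_le (by fun_prop) ha (C * Real.exp C') p fun x => ?_
  rw [abs_mul, abs_of_pos (Real.exp_pos _), pg]
  have h0 := (abs_nonneg _).trans (h x)
  calc _ ≤ C * (1 + ‖x‖) ^ p * (Real.exp C' * Real.exp (-a * ‖x‖ ^ 2)) :=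
        mul_le_mul (h x) (exp_le_of_coer (hU x)) (Real.exp_pos _).le h0
    _ = _ := by ring

def WI (U f : Sm n) : ℝ := ∫ x, f x * Real.exp (-U x)

lemma T1.int {f U : Sm n} (hf : T1 f) (hU : Coer U) :
    Integrable fun x => f x * Real.exp (-U x) := by
  obtain ⟨C, p, _, h⟩ := Tm.val hf
  exact integrable_w f.cont U.cont hU C p (h ())

lemma WI_ibp {f U : Sm n} (hf : T1 f) (hU : Coer U) (hU' : T1 U) (v : E n) :
    WI U (D v f) = WI U (f * D v U) := by
  have h1 : ∀ x, fderiv ℝ (ex (-U)) x v = - (D v U x * Real.exp (-U x)) := by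
    intro x; rw [← D_apply, D_ex]; simp [mul_comm]
  have := integral_mul_fderiv_eq_neg_fderiv_mul_of_integrable (μ := volume) (f := f)
    (g := ex (-U)) (v := v) (T1.int (Tm.D hf v) hU) (by
      simp only [h1, mul_neg, ← mul_assoc]
      exact (T1.int (f := f * D v U) (Tm.mul hf (Tm.D hU' v)) hU).neg) (hf.int hU)
    (fun x _ => f.diff x) (fun x _ => (ex (-U)).diff x)
  simp only [h1, mul_neg, integral_neg, neg_inj, ← mul_assoc] at this
  exact this.symm

lemma hasDerivAt_wint (F F' U U' : ℝ → E n → ℝ) {I : Set ℝ} {t : ℝ} (hI : I ∈ 𝓝 t)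
    (hF : ∀ s, Continuous (F s)) (hF' : Continuous (F' t)) (hUc : ∀ s, Continuous (U s))
    (hU' : Continuous (U' t)) (C : ℝ) (p : ℕ)
    (h1 : ∀ s ∈ I, ∀ x, |F s x| ≤ C * (1 + ‖x‖) ^ p)
    (h2 : ∀ s ∈ I, ∀ x, |F' s x| ≤ C * (1 + ‖x‖) ^ p)
    (h3 : ∀ s ∈ I, ∀ x, |U' s x| ≤ C * (1 + ‖x‖) ^ p)
    {a : ℝ} (ha : 0 < a) (C' : ℝ) (h4 : ∀ s ∈ I, ∀ x, a * ‖x‖ ^ 2 - C' ≤ U s x)
    (d1 : ∀ s ∈ I, ∀ x, HasDerivAt (F · x) (F' s x) s)
    (d2 : ∀ s ∈ I, ∀ x, HasDerivAt (U · x) (U' s x) s) :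
    HasDerivAt (fun s => ∫ x, F s x * Real.exp (-U s x))
      (∫ x, (F' t x - F t x * U' t x) * Real.exp (-U t x)) t := by
  have ht := mem_of_mem_nhds hI
  have hC : 0 ≤ C := by simpa using (abs_nonneg _).trans (h1 t ht 0)
  refine (hasDerivAt_integral_of_dominated_loc_of_deriv_le (μ := volume)
    (F := fun s x => F s x * Real.exp (-U s x))
    (F' := fun s x => (F' s x - F s x * U' s x) * Real.exp (-U s x))
    (bound := fun x => ((C + C * C) * Real.exp C') * pg (p + p) a x) hI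
    (Eventually.of_forall fun s => by
      have := hF s; have := hUc s; fun_prop)
    (integrable_w (hF t) (hUc t) ⟨a, ha, C', h4 t ht⟩ C p (h1 t ht))
    (by have := hF t; have := hUc t; fun_prop) (Eventually.of_forall fun x s hs => ?_)
    ((integrable_pg ha _).const_mul _) (Eventually.of_forall fun x s hs => ?_)).2
  · rw [Real.norm_eq_abs, abs_mul, abs_of_pos (Real.exp_pos _), pg]
    have a1 : |F' s x - F s x * U' s x| ≤ (C + C * C) * (1 + ‖x‖) ^ (p + p) := by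
      refine (abs_sub _ _).trans ?_
      rw [abs_mul, add_mul]
      refine add_le_add ((h2 s hs x).trans (wp_mono x le_rfl hC (by omega))) ?_
      calc _ ≤ (C * (1 + ‖x‖) ^ p) * (C * (1 + ‖x‖) ^ p) := by
            gcongr
            exacts [h1 s hs x, h3 s hs x]
        _ = _ := by ring
    calc _ ≤ (C + C * C) * (1 + ‖x‖) ^ (p + p) * (Real.exp C' * Real.exp (-a * ‖x‖ ^ 2)) :=
          mul_le_mul a1 (exp_le_of_coer (h4 s hs x)) (Real.exp_pos _).le (by positivity)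
      _ = _ := by ring
  · refine ((d1 s hs x).mul (d2 s hs x).fun_neg.exp).congr_deriv ?_
    ring

lemma hasDerivAt_WI {F F' U U' : ℝ → Sm n} {I : Set ℝ} {t : ℝ} (hI : I ∈ 𝓝 t)
    (h1 : Tm F) (h2 : Tm F') (h3 : Tm U')
    {a : ℝ} (ha : 0 < a) (C' : ℝ) (h4 : ∀ s, ∀ x, a * ‖x‖ ^ 2 - C' ≤ U s x)
    (d1 : ∀ s ∈ I, ∀ x, HasDerivAt (fun r => F r x) (F' s x) s)
    (d2 : ∀ s ∈ I, ∀ x, HasDerivAt (fun r => U r x) (U' s x) s) :
    HasDerivAt (fun s => WI (U s) (F s)) (WI (U t) (F' t - F t * U' t)) t := by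
  obtain ⟨C1, p1, a1, b1⟩ := h1.val
  obtain ⟨C2, p2, a2, b2⟩ := h2.val
  obtain ⟨C3, p3, a3, b3⟩ := h3.val
  exact hasDerivAt_wint (fun s => F s) (fun s => F' s) (fun s => U s) (fun s => U' s) hI
    (fun s => (F s).cont) (F' t).cont (fun s => (U s).cont) (U' t).cont (C1 + C2 + C3)
    (p1 + p2 + p3)
    (fun s _ x => (b1 s x).trans (wp_mono x (by linarith) (by linarith) (by omega)))
    (fun s _ x => (b2 s x).trans (wp_mono x (by linarith) (by linarith) (by omega)))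
    (fun s _ x => (b3 s x).trans (wp_mono x (by linarith) (by linarith) (by omega)))
    ha C' (fun s _ => h4 s) d1 d2

lemma continuous_WI {F U : ℝ → Sm n} (h1 : Uc F) (h2 : ∀ x, Continuous fun t => U t x)
    {a : ℝ} (ha : 0 < a) (C' : ℝ) (h4 : ∀ s, ∀ x, a * ‖x‖ ^ 2 - C' ≤ U s x) :
    Continuous fun s => WI (U s) (F s) := by
  obtain ⟨C, p, a1, b1⟩ := h1.tm.val
  refine continuous_of_dominated (bound := fun x => (C * Real.exp C') * pg p a x)
    (fun s => by have := (F s).cont; have := (U s).cont; fun_prop)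
    (fun s => Eventually.of_forall fun x => ?_) ((integrable_pg ha _).const_mul _)
    (Eventually.of_forall fun x => by have := h1.cont x; have := h2 x; fun_prop)
  rw [Real.norm_eq_abs, abs_mul, abs_of_pos (Real.exp_pos _), pg]
  calc _ ≤ C * (1 + ‖x‖) ^ p * (Real.exp C' * Real.exp (-a * ‖x‖ ^ 2)) :=
        mul_le_mul (b1 s x) (exp_le_of_coer (h4 s x)) (Real.exp_pos _).le (by positivity)
    _ = _ := by ring

end Vale.Agent.P227
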