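import Vale.Agent.P227.Sm

open scoped ContDiff
noncomputable section
namespace Vale.Agent.P227
variable {n : ℕ}

def Un (s : Multiset (E n)) : Prop := ∀ a ∈ s, ‖a‖ ≤ 1
lemma Un.zero : Un (0 : Multiset (E n)) := by intro a ha; simp at ha
lemma Un.cons {s : Multiset (E n)} {v : E n} (hv : ‖v‖ ≤ 1) (hs : Un s) : Un (v ::ₘ s) := by
  intro a ha; rcases Multiset.mem_cons.1 ha with rfl | h
  exacts [hv, hs a h]
lemma Un.tail {s : Multiset (E n)} {v : E n} (hs : Un (v ::ₘ s)) : Un s :=
  fun a ha => hs a (Multiset.mem_cons_of_mem ha)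
lemma Un.head {s : Multiset (E n)} {v : E n} (hs : Un (v ::ₘ s)) : ‖v‖ ≤ 1 :=
  hs v (Multiset.mem_cons_self _ _)
lemma Un.left {s t : Multiset (E n)} (hs : Un (s + t)) : Un s :=
  fun a ha => hs a (Multiset.mem_add.2 (Or.inl ha))
lemma Un.right {s t : Multiset (E n)} (hs : Un (s + t)) : Un t :=
  fun a ha => hs a (Multiset.mem_add.2 (Or.inr ha))
lemma Un.add {s t : Multiset (E n)} (hs : Un s) (ht : Un t) : Un (s + t) :=
  fun a ha => (Multiset.mem_add.1 ha).elim (hs a) (ht a)

def BdAt (k : ℕ) (f : Sm n) (x : E n) (M : ℝ) : Prop :=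
  ∀ s : Multiset (E n), s.card = k → Un s → |DM s f x| ≤ M
def Bd (k : ℕ) (f : Sm n) (M : ℝ) : Prop := ∀ x, BdAt k f x M

lemma BdAt.mono {k} {f : Sm n} {x M M'} (h : BdAt k f x M) (hM : M ≤ M') : BdAt k f x M' :=
  fun s hs hu => (h s hs hu).trans hM
lemma Bd.mono {k} {f : Sm n} {M M'} (h : Bd k f M) (hM : M ≤ M') : Bd k f M' :=
  fun x => (h x).mono hM
lemma BdAt.nonneg {k} {f : Sm n} {x M} (h : BdAt k f x M) : 0 ≤ M :=
  (abs_nonneg _).trans (h (Multiset.replicate k 0) (by simp) (by
    intro a ha; rw [Multiset.eq_of_mem_replicate ha]; simp))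
lemma Bd.nonneg {k} {f : Sm n} {M} (h : Bd k f M) : 0 ≤ M := (h 0).nonneg

lemma BdAt.D {k} {f : Sm n} {x M} (h : BdAt (k + 1) f x M) (v : E n) :
    BdAt k (D v f) x (M * ‖v‖) := by
  intro s hs hu
  by_cases hv : v = 0
  · subst hv; simp
  have hv' : 0 < ‖v‖ := norm_pos_iff.2 hv
  have e1 : v = ‖v‖ • (‖v‖⁻¹ • v) := by rw [smul_smul, mul_inv_cancel₀ hv'.ne', one_smul]
  have h2 := h ((‖v‖⁻¹ • v) ::ₘ s) (by simp [hs]) (Un.cons (by
    rw [norm_smul, norm_inv, norm_norm, inv_mul_cancel₀ hv'.ne']) hu)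
  rw [DM_cons'] at h2
  conv_lhs => rw [e1, D_smul_dir, map_smul, Sm.smul_apply, abs_mul, abs_norm]
  rw [mul_comm]; exact mul_le_mul_of_nonneg_right h2 hv'.le
lemma BdAt.D1 {k} {f : Sm n} {x M} (h : BdAt (k + 1) f x M) {v : E n} (hv : ‖v‖ ≤ 1) :
    BdAt k (P227.D v f) x M :=
  (h.D v).mono (mul_le_of_le_one_right h.nonneg hv)
lemma BdAt.DM {k} {f : Sm n} {x M} (t : Multiset (E n)) (h : BdAt (k + t.card) f x M) :
    BdAt k (DM t f) x (M * (t.map norm).prod) := by
  induction t using Multiset.induction generalizing k with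
  | empty => simpa using h
  | cons a t ih =>
    rw [DM_cons, Multiset.map_cons, Multiset.prod_cons, mul_comm ‖a‖, ← mul_assoc]
    refine BdAt.D (ih ?_) a
    rw [Multiset.card_cons] at h
    convert h using 1; ring
lemma BdAt.DM1 {k} {f : Sm n} {x M} {t : Multiset (E n)} (h : BdAt (k + t.card) f x M)
    (ht : Un t) : BdAt k (P227.DM t f) x M := by
  intro s hs hu
  rw [← DM_add]; exact h _ (by simp [hs]) (hu.add ht)
lemma BdAt.zero {f : Sm n} {x M} (h : BdAt 0 f x M) : |f x| ≤ M := h 0 rfl Un.zero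
lemma bdAt_zero {f : Sm n} {x M} (h : |f x| ≤ M) : BdAt 0 f x M := by
  intro s hs _; rw [Multiset.card_eq_zero.1 hs]; exact h
lemma BdAt.abs_DM {f : Sm n} {x M} (t : Multiset (E n)) (h : BdAt t.card f x M) :
    |P227.DM t f x| ≤ M * (t.map norm).prod :=
  (BdAt.DM (k := 0) t (by simpa using h)).zero
lemma BdAt.add {k} {f g : Sm n} {x M M'} (h : BdAt k f x M) (h' : BdAt k g x M') :
    BdAt k (f + g) x (M + M') := by
  intro s hs hu; rw [map_add, Sm.add_apply]
  exact (abs_add_le _ _).trans (add_le_add (h s hs hu) (h' s hs hu))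
lemma BdAt.sub {k} {f g : Sm n} {x M M'} (h : BdAt k f x M) (h' : BdAt k g x M') :
    BdAt k (f - g) x (M + M') := by
  intro s hs hu; rw [map_sub, Sm.sub_apply]
  exact (abs_sub _ _).trans (add_le_add (h s hs hu) (h' s hs hu))
lemma BdAt.smul {k} {f : Sm n} {x M} (h : BdAt k f x M) (c : ℝ) :
    BdAt k (c • f) x (|c| * M) := by
  intro s hs hu; rw [map_smul, Sm.smul_apply, abs_mul]
  exact mul_le_mul_of_nonneg_left (h s hs hu) (abs_nonneg c)

lemma abs_msum_le {κ : Type*} (t : Multiset κ) (F : κ → ℝ) (B : ℝ) (h : ∀ p ∈ t, |F p| ≤ B) :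
    |(t.map F).sum| ≤ t.card * B := by
  induction t using Multiset.induction with
  | empty => simp
  | cons a t ih =>
    rw [Multiset.map_cons, Multiset.sum_cons, Multiset.card_cons]
    have h1 := h a (Multiset.mem_cons_self _ _)
    have h2 := ih fun p hp => h p (Multiset.mem_cons_of_mem hp)
    push_cast
    linarith [abs_add_le (F a) (t.map F).sum]

lemma DM_mul_apply (s) (f g : Sm n) (x) :
    DM s (f * g) x = ((Multiset.antidiagonal s).map fun p => DM p.1 f x * DM p.2 g x).sum := by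
  rw [DM_mul, Sm.msum_apply]; rfl

lemma abs_DM_mul_le (s) (f g : Sm n) (x) (B : ℝ)
    (h : ∀ s1 s2, s1 + s2 = s → |DM s1 f x| * |DM s2 g x| ≤ B) :
    |DM s (f * g) x| ≤ 2 ^ s.card * B := by
  rw [DM_mul_apply]
  refine (abs_msum_le _ _ B fun p hp => ?_).trans (by rw [Multiset.card_antidiagonal]; simp)
  rw [abs_mul]; exact h _ _ (Multiset.mem_antidiagonal.1 hp)

lemma filter_fst_zero {α : Type*} (s : Multiset α) :
    (Multiset.antidiagonal s).filter (fun p => p.1.card = 0) = {(0, s)} := by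
  induction s using Multiset.induction with
  | empty => simp [Multiset.filter_singleton]
  | cons a s ih =>
    rw [Multiset.antidiagonal_cons, Multiset.filter_add, Multiset.filter_map, Multiset.filter_map]
    have e1 : Multiset.filter ((fun p : Multiset α × Multiset α => p.1.card = 0) ∘
        Prod.map id (Multiset.cons a)) s.antidiagonal = {(0, s)} := by
      rw [← ih]; exact Multiset.filter_congr fun p _ => Iff.rfl
    have e2 : Multiset.filter ((fun p : Multiset α × Multiset α => p.1.card = 0) ∘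
        Prod.map (Multiset.cons a) id) s.antidiagonal = 0 := by
      rw [Multiset.filter_eq_nil]; intro p _; simp
    rw [e1, e2]; simp

lemma filter_snd_zero {α : Type*} (s : Multiset α) :
    (Multiset.antidiagonal s).filter (fun p => p.2.card = 0) = {(s, 0)} := by
  induction s using Multiset.induction with
  | empty => simp [Multiset.filter_singleton]
  | cons a s ih =>
    rw [Multiset.antidiagonal_cons, Multiset.filter_add, Multiset.filter_map, Multiset.filter_map]
    have e1 : Multiset.filter ((fun p : Multiset α × Multiset α => p.2.card = 0) ∘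
        Prod.map (Multiset.cons a) id) s.antidiagonal = {(s, 0)} := by
      rw [← ih]; exact Multiset.filter_congr fun p _ => Iff.rfl
    have e2 : Multiset.filter ((fun p : Multiset α × Multiset α => p.2.card = 0) ∘
        Prod.map id (Multiset.cons a)) s.antidiagonal = 0 := by
      rw [Multiset.filter_eq_nil]; intro p _; simp
    rw [e1, e2]; simp

lemma msum_split {κ : Type*} (t : Multiset κ) (F : κ → ℝ) (P : κ → Prop) [DecidablePred P] :
    (t.map F).sum = ((t.filter P).map F).sum + ((t.filter fun p => ¬ P p).map F).sum := by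
  conv_lhs => rw [← Multiset.filter_add_not P t]
  rw [Multiset.map_add, Multiset.sum_add]

lemma abs_filter_le {α : Type*} (s : Multiset α) (F : Multiset α × Multiset α → ℝ) (B : ℝ)
    (hB : 0 ≤ B) (t : Multiset (Multiset α × Multiset α)) (ht : t ≤ s.antidiagonal)
    (h : ∀ p ∈ t, |F p| ≤ B) : |(t.map F).sum| ≤ 2 ^ s.card * B := by
  refine (abs_msum_le _ _ B h).trans (mul_le_mul_of_nonneg_right ?_ hB)
  have := Multiset.card_le_card ht
  rw [Multiset.card_antidiagonal] at this
  exact_mod_cast this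

lemma abs_DM_mul_sub_le (s) (f g : Sm n) (x) (B : ℝ) (hB : 0 ≤ B)
    (h : ∀ s1 s2, s1 + s2 = s → s1 ≠ 0 → |DM s1 f x| * |DM s2 g x| ≤ B) :
    |DM s (f * g) x - f x * DM s g x| ≤ 2 ^ s.card * B := by
  rw [DM_mul_apply, msum_split _ _ (fun p => p.1.card = 0), filter_fst_zero]
  simp only [Multiset.map_singleton, Multiset.sum_singleton, DM_zero, add_sub_cancel_left]
  refine abs_filter_le s _ B hB _ (Multiset.filter_le _ _) fun p hp => ?_
  rw [Multiset.mem_filter] at hp
  rw [abs_mul]; exact h _ _ (Multiset.mem_antidiagonal.1 hp.1) (by simpa using hp.2)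

def A1 (s : Multiset (E n)) : Multiset (Multiset (E n) × Multiset (E n)) :=
  (Multiset.antidiagonal s).filter fun p => p.2.card = 1
lemma card_A1 (s : Multiset (E n)) : (A1 s).card ≤ 2 ^ s.card := by
  rw [← Multiset.card_antidiagonal]; exact Multiset.card_le_card (Multiset.filter_le _ _)
lemma mem_A1 {s : Multiset (E n)} {p} (hp : p ∈ A1 s) : ∃ a, p.2 = {a} ∧ a ::ₘ p.1 = s := by
  rw [A1, Multiset.mem_filter, Multiset.mem_antidiagonal, Multiset.card_eq_one] at hp
  obtain ⟨h1, a, ha⟩ := hp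
  refine ⟨a, ha, ?_⟩
  rw [← h1, ha, add_comm, Multiset.singleton_add]

lemma abs_DM_mul_sub3_le (s) (hs : 2 ≤ s.card) (f g : Sm n) (x) (B : ℝ) (hB : 0 ≤ B)
    (h : ∀ s1 s2, s1 + s2 = s → s1 ≠ 0 → 2 ≤ s2.card → |DM s1 f x| * |DM s2 g x| ≤ B) :
    |DM s (f * g) x - DM s f x * g x - ((A1 s).map fun p => DM p.1 f x * DM p.2 g x).sum
      - f x * DM s g x| ≤ 2 ^ s.card * B := by
  rw [DM_mul_apply, msum_split _ _ (fun p => p.1.card = 0), filter_fst_zero,
    msum_split (Multiset.filter _ _) _ (fun p => p.2.card = 0),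
    msum_split (Multiset.filter (fun p : Multiset (E n) × Multiset (E n) => ¬ p.2.card = 0) _) _
      (fun p => p.2.card = 1)]
  have e1 : Multiset.filter (fun p => p.2.card = 0) (Multiset.filter (fun p => ¬ p.1.card = 0)
      s.antidiagonal) = {(s, 0)} := by
    rw [Multiset.filter_filter, ← filter_snd_zero]
    refine Multiset.filter_congr fun p hp => ⟨fun h => h.1, fun h => ⟨h, fun h' => ?_⟩⟩
    have := congrArg Multiset.card (Multiset.mem_antidiagonal.1 hp)
    rw [Multiset.card_add] at this; omega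
  have e2 : Multiset.filter (fun p => p.2.card = 1) (Multiset.filter (fun p => ¬ p.2.card = 0)
      (Multiset.filter (fun p => ¬ p.1.card = 0) s.antidiagonal)) = A1 s := by
    rw [Multiset.filter_filter, Multiset.filter_filter, A1]
    refine Multiset.filter_congr fun p hp => ⟨fun h => h.1.1, fun h => ⟨⟨h, fun h' => ?_⟩,
      fun h' => ?_⟩⟩
    · omega
    · have := congrArg Multiset.card (Multiset.mem_antidiagonal.1 hp)
      rw [Multiset.card_add] at this; omega
  rw [e1, e2]
  simp only [Multiset.map_singleton, Multiset.sum_singleton, DM_zero]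
  rw [show ∀ a b c d : ℝ, a + (b + (c + d)) - b - c - a = d by intros; ring]
  refine abs_filter_le s _ B hB _ ((Multiset.filter_le _ _).trans
    ((Multiset.filter_le _ _).trans (Multiset.filter_le _ _))) fun p hp => ?_
  simp only [Multiset.mem_filter] at hp
  rw [abs_mul]
  refine h _ _ (Multiset.mem_antidiagonal.1 hp.1.1.1) (by simpa using hp.1.1.2) ?_
  omega

structure Wt (W : ℕ → ℝ) (r : ℕ) : Prop where
  one : ∀ j, 1 ≤ W j
  mul : ∀ a b, a + b ≤ r → W a * W b ≤ W (a + b)
lemma Wt.mono {W r r'} (h : Wt W r) (hr : r' ≤ r) : Wt W r' :=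
  ⟨h.one, fun a b hab => h.mul a b (hab.trans hr)⟩
lemma Wt.pos {W r} (h : Wt W r) (j) : 0 < W j := one_pos.trans_le (h.one j)
lemma Wt.le {W r} (h : Wt W r) {a b} (hab : a ≤ b) (hb : b ≤ r) : W a ≤ W b := by
  obtain ⟨c, rfl⟩ := Nat.exists_eq_add_of_le hab
  exact (le_mul_of_one_le_right (h.pos a).le (h.one c)).trans (h.mul a c hb)
lemma Wt.zero {W r} (h : Wt W r) : W 0 = 1 := by
  have := h.mul 0 0 (Nat.zero_le _)
  have h1 := h.one 0
  simp only [add_zero] at this
  nlinarith
lemma wt_pow {K : ℝ} (hK : 1 ≤ K) (r) : Wt (fun j => K ^ j) r :=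
  ⟨fun _ => one_le_pow₀ hK, fun a b _ => (pow_add K a b).ge⟩

lemma bdAt_ex (r : ℕ) : ∃ c : ℝ, 1 ≤ c ∧ ∀ (f : Sm n) (x : E n) (W : ℕ → ℝ) (lam : ℝ), Wt W r →
    1 ≤ lam → (∀ j, 1 ≤ j → j ≤ r → BdAt j f x (W j * lam)) →
    ∀ j ≤ r, BdAt j (ex f) x (c * W j * lam ^ j * Real.exp (f x)) := by
  induction r with
  | zero =>
    refine ⟨1, le_rfl, fun f x W lam hW _ _ j hj => ?_⟩
    obtain rfl := Nat.le_zero.1 hj
    refine bdAt_zero ?_
    rw [hW.zero]; simp [abs_of_pos (Real.exp_pos _)]
  | succ r ih =>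
    obtain ⟨c, hc, ih⟩ := ih
    have h2 : (1 : ℝ) ≤ 2 ^ r := one_le_pow₀ (by norm_num)
    refine ⟨2 ^ r * c, by nlinarith, fun f x W lam hW hl hf j hj => ?_⟩
    have ih' := ih f x W lam (hW.mono r.le_succ) hl fun j h1 h2 => hf j h1 (h2.trans r.le_succ)
    have he := Real.exp_pos (f x)
    rcases Nat.lt_or_ge j (r + 1) with h | h
    · refine (ih' j (by omega)).mono ?_
      have := hW.pos j
      gcongr; nlinarith
    obtain rfl : j = r + 1 := by omega
    intro s hs hu
    induction s using Multiset.induction with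
    | empty => simp at hs
    | cons a s _ =>
      rw [Multiset.card_cons, Nat.succ_inj] at hs
      rw [DM_cons', D_ex]
      refine (abs_DM_mul_le s _ _ x (c * W (r + 1) * lam ^ (r + 1) * Real.exp (f x)) ?_).trans
        (by rw [hs]; ring_nf; rfl)
      intro s1 s2 h12
      subst h12
      rw [Multiset.card_add] at hs
      have a1 := ih' s1.card (by omega) s1 rfl hu.tail.left
      have a2 := (hf (s2.card + 1) (by omega) (by omega)).D1 hu.head s2 rfl hu.tail.right
      have a3 := hW.mul s1.card (s2.card + 1) (by omega)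
      rw [← add_assoc, hs] at a3
      have a4 : lam ^ s1.card * lam ≤ lam ^ (r + 1) := by
        rw [← pow_succ]; exact pow_le_pow_right₀ hl (by omega)
      have := hW.pos s1.card
      have := hW.pos (s2.card + 1)
      calc _ ≤ (c * W s1.card * lam ^ s1.card * Real.exp (f x)) * (W (s2.card + 1) * lam) := by
            gcongr
        _ = c * (W s1.card * W (s2.card + 1)) * (lam ^ s1.card * lam) * Real.exp (f x) := by ring
        _ ≤ _ := by have := hW.pos (r + 1); gcongr

def hs : ℕ → Sm n → Sm n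
  | 0, f => f ^ 2
  | j + 1, f => ∑ a, hs j (D (e a) f)

lemma hs_nonneg (j : ℕ) (f : Sm n) (x) : 0 ≤ hs j f x := by
  induction j generalizing f with
  | zero => simp [hs, sq_nonneg]
  | succ j ih => simp only [hs, Sm.sum_apply]; exact Finset.sum_nonneg fun a _ => ih _

lemma sq_le_hs (j : ℕ) (f : Sm n) (x) (s : Multiset (E n)) (hs' : s.card = j) (hu : Un s) :
    (DM s f x) ^ 2 ≤ hs j f x := by
  induction s using Multiset.induction generalizing j f with
  | empty => subst hs'; simp [hs]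
  | cons v s ih =>
    subst hs'
    rw [DM_cons', D_eq_sum, map_sum]
    simp only [map_smul, Sm.sum_apply, Sm.smul_apply, Multiset.card_cons, hs]
    refine (Finset.sum_mul_sq_le_sq_mul_sq _ _ _).trans ?_
    rw [← normsq_eq]
    have h1 : ‖v‖ ^ 2 ≤ 1 := pow_le_one₀ (norm_nonneg _) hu.head
    refine (mul_le_of_le_one_left (Finset.sum_nonneg fun a _ => sq_nonneg _) h1).trans ?_
    exact Finset.sum_le_sum fun a _ => ih _ _ rfl hu.tail

lemma bdAt_hs (j : ℕ) (f : Sm n) (x) : BdAt j f x (Real.sqrt (hs j f x)) :=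
  fun s h1 h2 => Real.abs_le_sqrt (sq_le_hs j f x s h1 h2)

lemma hs_le (j : ℕ) (f : Sm n) (x M) (h : BdAt j f x M) : hs j f x ≤ n ^ j * M ^ 2 := by
  induction j generalizing f with
  | zero => simpa [hs] using sq_le_sq' (abs_le.1 h.zero).1 (abs_le.1 h.zero).2
  | succ j ih =>
    simp only [hs, Sm.sum_apply]
    refine (Finset.sum_le_sum fun a _ => ih _ (h.D1 (norm_e a).le)).trans ?_
    simp [pow_succ]; ring_nf; rfl

lemma abs_D_hs (j : ℕ) (f : Sm n) (x A B) (h : BdAt j f x A) (h' : BdAt (j + 1) f x B)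
    (v : E n) (hv : ‖v‖ ≤ 1) : |D v (hs j f) x| ≤ 2 * n ^ j * A * B := by
  induction j generalizing f with
  | zero =>
    have h1 := h.zero
    have h2 := (h'.D1 hv).zero
    simp only [hs, sq, D_mul, Sm.add_apply, Sm.mul_apply, pow_zero, mul_one]
    rw [show D v f x * f x + f x * D v f x = 2 * f x * D v f x by ring, abs_mul, abs_mul]
    have := h.nonneg
    rw [abs_two]; gcongr
  | succ j ih =>
    simp only [hs, map_sum, Sm.sum_apply]
    refine (Finset.abs_sum_le_sum_abs _ _).trans ((Finset.sum_le_sum fun a _ =>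
      ih _ (h.D1 (norm_e a).le) (h'.D1 (norm_e a).le)).trans ?_)
    simp [pow_succ]; ring_nf; rfl

end Vale.Agent.P227
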