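import Vale.Agent.P227.Q

open scoped ContDiff Topology
open Filter Set MeasureTheory
noncomputable section
namespace Vale.Agent.P227
variable {n : ℕ}

structure Sch (n : ℕ) where
  Γ : ℝ → Sm n → Sm n
  Γ0 : Sm n → Sm n
  σ : ℝ → ℝ
  κ : ℝ
  V : Sm n

def Sch.St (S : Sch n) (h : ℝ) (u : Sm n) : Sm n :=
  cen ((1 + h * S.σ h) • af (1 - h) 0 (u + h • S.Γ h u) + h • S.V)
def Sch.H (S : Sch n) (u : Sm n) : Sm n := cen (S.Γ0 u - rad u + S.κ • u + S.V)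

def Closed (𝒢 : Set (Sm n)) : Prop := ∀ (U : Ultrafilter ℕ) (u : ℕ → Sm n) (p : Sm n),
  (∀ N, u N ∈ 𝒢) → (∀ s x, Tendsto (fun N => DM s (u N) x) U (𝓝 (DM s p x))) → p ∈ 𝒢

structure Sch.Good (S : Sch n) (𝒢 : Set (Sm n)) : Prop where
  tm : Tm fun u : 𝒢 => u.1
  cl : Closed 𝒢
  zero : ∀ u ∈ 𝒢, u 0 = 0
  tV : T1 S.V
  tΓ : Tm fun p : Ioc (0 : ℝ) (1 / 2) × 𝒢 => S.Γ p.1 p.2
  tΓ0 : Tm fun u : 𝒢 => S.Γ0 u
  cons : ∀ x, ∃ C, ∀ h ∈ Ioc (0 : ℝ) (1 / 2), ∀ u ∈ 𝒢, |S.Γ h u x - S.Γ0 u x| ≤ C * √h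
  lip : ∀ x, ∃ C, ∀ u ∈ 𝒢, ∀ u' ∈ 𝒢, ∀ δ, 0 ≤ δ →
    (∀ a b, |D (e a) (D (e b) u) x - D (e a) (D (e b) u') x| ≤ δ) → |S.Γ0 u x - S.Γ0 u' x| ≤ C * δ
  hσ : ∀ h ∈ Ioc (0 : ℝ) (1 / 2), |S.σ h - S.κ| ≤ 2 * h
  hκ : |S.κ| ≤ 1

structure Flow (H : Sm n → Sm n) (𝒢 : Set (Sm n)) (T : ℝ) (φ : ℝ → Sm n) : Prop where
  mem : ∀ t, φ t ∈ 𝒢
  uc : Uc φ
  ucH : Uc fun t => H (φ t)
  der : ∀ t ∈ Ioo 0 T, ∀ s x, HasDerivAt (fun r => DM s (φ r) x) (DM s (H (φ t)) x) t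

namespace Sch.Good
variable {S : Sch n} {𝒢 : Set (Sm n)} (g : S.Good 𝒢)
include g

lemma tH : Tm fun u : 𝒢 => S.H u :=
  (((g.tΓ0.sub g.tm.rad).add (g.tm.smul _)).add (Tm.comp g.tV fun _ => ())).cen

lemma abs_σ {h} (hh : h ∈ Ioc (0 : ℝ) (1 / 2)) : |S.σ h| ≤ 2 := by
  have := abs_add_le (S.σ h - S.κ) S.κ
  rw [sub_add_cancel] at this
  linarith [g.hσ h hh, g.hκ, hh.2]
lemma abs_ρ {h} (hh : h ∈ Ioc (0 : ℝ) (1 / 2)) : |h * S.σ h| ≤ 2 * h := by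
  rw [abs_mul, abs_of_pos hh.1, mul_comm]; gcongr
  exacts [hh.1.le, g.abs_σ hh]

omit g in
def Δ (S : Sch n) (h : ℝ) (u : Sm n) : Sm n := h⁻¹ • (af (1 - h) 0 u - u) + S.σ h • af (1 - h) 0 u
  + (1 + h * S.σ h) • af (1 - h) 0 (S.Γ h u) + S.V

lemma St_eq {h} (hh : h ∈ Ioc (0 : ℝ) (1 / 2)) {u} (hu : u ∈ 𝒢) :
    S.St h u = u + h • cen (Δ S h u) := by
  ext x
  have := hh.1.ne'
  simp [St, Δ, g.zero u hu]; field_simp; ring

lemma tΔ : Tm fun p : Ioc (0 : ℝ) (1 / 2) × 𝒢 => cen (Δ S p.1 p.2) := by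
  have h1 : Tm fun p : Ioc (0 : ℝ) (1 / 2) × 𝒢 => p.2.1 := g.tm.comp Prod.snd
  have hr : ∀ p : Ioc (0 : ℝ) (1 / 2) × 𝒢, |1 - p.1.1| ≤ 1 := fun p =>
    abs_le.2 ⟨by linarith [p.1.2.2], by linarith [p.1.2.1]⟩
  refine Tm.cen ((((h1.dil (fun p => p.1.1) (fun p => p.1.2.1) fun p => by linarith [p.1.2.2]).add
    ((h1.af _ hr).smul' _ 2 fun p => g.abs_σ p.1.2)).add
    ((g.tΓ.af _ hr).smul' _ 2 fun p => ?_)).add (Tm.comp g.tV fun _ => ()))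
  have := abs_add_le 1 (p.1.1 * S.σ p.1.1)
  linarith [g.abs_ρ p.1.2, p.1.2.2, abs_one (α := ℝ)]

omit g in
lemma af_sub {κ : Type*} {F : κ → Sm n} (hF : Tm F) (x) : ∃ C, ∀ i (h : ℝ), 0 < h → h ≤ 1 →
    |F i ((1 - h) • x) - F i x| ≤ C * h := by
  obtain ⟨C, h1⟩ := hF.dil_cons x
  obtain ⟨C', p, -, h2⟩ := hF.rad.val
  refine ⟨|C| + C' * (1 + ‖x‖) ^ p, fun i h h0 h3 => ?_⟩
  have a1 := h1 i h h0 h3
  have a2 := h2 i x
  have a3 : |h⁻¹ * (F i ((1 - h) • x) - F i x)| ≤ |C| + C' * (1 + ‖x‖) ^ p := by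
    have := abs_sub (h⁻¹ * (F i ((1 - h) • x) - F i x) + rad (F i) x) (rad (F i) x)
    rw [add_sub_cancel_right] at this
    have : C * h ≤ |C| := (mul_le_mul_of_nonneg_right (le_abs_self C) h0.le).trans
      (mul_le_of_le_one_right (abs_nonneg _) h3)
    linarith
  rwa [abs_mul, abs_of_pos (inv_pos.2 h0), inv_mul_le_iff₀ h0, mul_comm] at a3

lemma consΔ' (x) : ∃ C, ∀ h ∈ Ioc (0 : ℝ) (1 / 2), ∀ u ∈ 𝒢,
    |Δ S h u x - (S.Γ0 u - rad u + S.κ • u + S.V) x| ≤ C * √h := by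
  obtain ⟨C1, h1⟩ := g.tm.dil_cons x
  obtain ⟨C2, h2⟩ := af_sub g.tm x
  obtain ⟨C3, h3⟩ := af_sub g.tΓ x
  obtain ⟨C4, h4⟩ := g.cons x
  obtain ⟨C5, -, h5⟩ := g.tm.loc 0 ‖x‖
  obtain ⟨C6, -, h6⟩ := g.tΓ.loc 0 ‖x‖
  refine ⟨|C1 + 2 * C5 + C2 + 2 * C6 + C3| + C4, fun h hh u hu => ?_⟩
  have h0 := hh.1
  have h7 : h ≤ 1 := by linarith [hh.2]
  have hx : ‖(1 - h) • x‖ ≤ ‖x‖ := by
    rw [norm_smul, Real.norm_eq_abs, abs_of_nonneg (by linarith)]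
    exact mul_le_of_le_one_left (norm_nonneg _) (by linarith)
  have a1 := h1 ⟨u, hu⟩ h h0 h7
  have a2 := h2 ⟨u, hu⟩ h h0 h7
  have a3 := h3 (⟨h, hh⟩, ⟨u, hu⟩) h h0 h7
  have a4 := h4 h hh u hu
  have a5 := (h5 ⟨u, hu⟩ _ hx).zero
  have a6 := (h6 (⟨h, hh⟩, ⟨u, hu⟩) _ hx).zero
  simp only at a1 a2 a3 a5 a6
  have b1 : |(S.σ h - S.κ) * u ((1 - h) • x)| ≤ 2 * h * C5 := by
    rw [abs_mul]; exact mul_le_mul (g.hσ h hh) a5 (abs_nonneg _) (by positivity)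
  have b2 : |S.κ * (u ((1 - h) • x) - u x)| ≤ C2 * h := by
    rw [abs_mul]; exact (mul_le_of_le_one_left (abs_nonneg _) g.hκ).trans a2
  have b3 : |h * S.σ h * S.Γ h u ((1 - h) • x)| ≤ 2 * h * C6 := by
    rw [abs_mul]; exact mul_le_mul (g.abs_ρ hh) a6 (abs_nonneg _) (by positivity)
  have b4 : (C1 + 2 * C5 + C2 + 2 * C6 + C3) * h ≤ |C1 + 2 * C5 + C2 + 2 * C6 + C3| * √h := by
    refine mul_le_mul (le_abs_self _) ?_ h0.le (abs_nonneg _)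
    rw [Real.le_sqrt h0.le h0.le]; nlinarith
  simp only [Δ, Sm.add_apply, Sm.sub_apply, Sm.smul_apply, af_apply, add_zero]
  rw [abs_le] at *
  constructor <;> linarith

lemma consΔ (x) : ∃ C, ∀ h ∈ Ioc (0 : ℝ) (1 / 2), ∀ u ∈ 𝒢,
    |cen (Δ S h u) x - S.H u x| ≤ C * √h := by
  obtain ⟨C1, h1⟩ := g.consΔ' x
  obtain ⟨C2, h2⟩ := g.consΔ' 0
  refine ⟨C1 + C2, fun h hh u hu => ?_⟩
  have a1 := abs_le.1 (h1 h hh u hu)
  have a2 := abs_le.1 (h2 h hh u hu)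
  rw [Sch.H, cen_apply, cen_apply, abs_le]
  constructor <;> linarith

lemma lipH' (x) : ∃ C, ∀ u ∈ 𝒢, ∀ u' ∈ 𝒢, ∀ δ, (∀ j ≤ 2, BdAt j (u - u') x δ) →
    |(S.Γ0 u - rad u + S.κ • u + S.V) x - (S.Γ0 u' - rad u' + S.κ • u' + S.V) x| ≤ C * δ := by
  obtain ⟨C, h⟩ := g.lip x
  refine ⟨C + ‖x‖ + 1, fun u hu u' hu' δ hδ => ?_⟩
  have a1 := h u hu u' hu' δ (hδ 0 (by simp)).nonneg fun a b => by
    simpa using (((hδ 2 le_rfl).D1 (norm_e b).le).D1 (norm_e a).le).zero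
  have a2 := (BdAt.D (k := 0) (hδ 1 (by simp)) x).zero
  have a3 : |S.κ * (u x - u' x)| ≤ δ := by
    rw [abs_mul]; exact (mul_le_of_le_one_left (abs_nonneg _) g.hκ).trans (hδ 0 (by simp)).zero
  simp only [map_sub, Sm.add_apply, Sm.sub_apply, Sm.smul_apply, rad_apply] at *
  rw [abs_le] at *
  constructor <;> linarith

lemma lipH (x) : ∃ C, ∀ u ∈ 𝒢, ∀ u' ∈ 𝒢, ∀ δ, (∀ j ≤ 2, BdAt j (u - u') x δ) →
    (∀ j ≤ 2, BdAt j (u - u') 0 δ) → |S.H u x - S.H u' x| ≤ C * δ := by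
  obtain ⟨C1, h1⟩ := g.lipH' x
  obtain ⟨C2, h2⟩ := g.lipH' 0
  refine ⟨C1 + C2, fun u hu u' hu' δ b1 b2 => ?_⟩
  have a1 := abs_le.1 (h1 u hu u' hu' δ b1)
  have a2 := abs_le.1 (h2 u hu u' hu' δ b2)
  rw [Sch.H, Sch.H, cen_apply, cen_apply, abs_le]
  constructor <;> linarith

lemma tendsto_H {κ : Type*} {l : Filter κ} {u : κ → Sm n} {p : Sm n} (hu : ∀ i, u i ∈ 𝒢)
    (hp : p ∈ 𝒢) (h : ∀ s x, Tendsto (fun i => DM s (u i) x) l (𝓝 (DM s p x))) (x) :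
    Tendsto (fun i => S.H (u i) x) l (𝓝 (S.H p x)) := by
  have key : ∀ x, Tendsto (fun i => (S.Γ0 (u i) - rad (u i) + S.κ • u i + S.V) x) l
      (𝓝 ((S.Γ0 p - rad p + S.κ • p + S.V) x)) := by
    intro x
    simp only [Sm.add_apply, Sm.sub_apply, Sm.smul_apply, rad_apply]
    refine ((Tendsto.sub ?_ (h {x} x)).add ((h 0 x).const_mul _)).add_const _
    obtain ⟨C, h1⟩ := g.lip x
    have h2 : Tendsto (fun i => ∑ a, ∑ b, |D (e a) (D (e b) (u i)) x - D (e a) (D (e b) p) x|)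
        l (𝓝 (∑ _a : Fin n, ∑ _b : Fin n, 0)) :=
      tendsto_finsetSum _ fun a _ => tendsto_finsetSum _ fun b _ => by
        have := ((h (e a ::ₘ {e b}) x).sub_const (DM (e a ::ₘ {e b}) p x)).abs
        simpa [DM_cons] using this
    rw [tendsto_iff_norm_sub_tendsto_zero]
    refine squeeze_zero (fun _ => norm_nonneg _) (fun i => h1 _ (hu i) _ hp _
      (Finset.sum_nonneg fun _ _ => Finset.sum_nonneg fun _ _ => abs_nonneg _) fun a b => ?_)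
      (by simpa using h2.const_mul C)
    refine le_trans ?_ (Finset.single_le_sum (f := fun a => ∑ b,
      |D (e a) (D (e b) (u i)) x - D (e a) (D (e b) p) x|)
      (fun _ _ => Finset.sum_nonneg fun _ _ => abs_nonneg _) (Finset.mem_univ a))
    exact Finset.single_le_sum (f := fun b => |D (e a) (D (e b) (u i)) x - D (e a) (D (e b) p) x|)
      (fun _ _ => abs_nonneg _) (Finset.mem_univ b)
  exact (key x).sub (key 0)

variable {T : ℝ} {u0 : Sm n}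
  (hit : ∀ h ∈ Ioc (0 : ℝ) (1 / 2), ∀ m : ℕ, m * h ≤ T → (S.St h)^[m] u0 ∈ 𝒢)
include hit

lemma incr (k : ℕ) : ∃ C : ℝ, ∃ p : ℕ, 0 ≤ C ∧ ∀ j ≤ k, ∀ h ∈ Ioc (0 : ℝ) (1 / 2), ∀ m m' : ℕ,
    m * h ≤ T → m' * h ≤ T → ∀ x, BdAt j ((S.St h)^[m'] u0 - (S.St h)^[m] u0) x
      (|m' * h - m * h| * (C * (1 + ‖x‖) ^ p)) := by
  obtain ⟨C, p, hC, h1⟩ := g.tΔ.upto k
  refine ⟨C, p, hC, fun j hj h hh => ?_⟩
  have key : ∀ m d : ℕ, (m + d : ℕ) * h ≤ T → ∀ x, BdAt j ((S.St h)^[m + d] u0 - (S.St h)^[m] u0) x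
      (d * h * (C * (1 + ‖x‖) ^ p)) := by
    intro m d
    induction d with
    | zero => intro _ x s _ _; simp
    | succ d ih =>
      intro hd x
      have hd' : (m + d : ℕ) * h ≤ T := by
        push_cast at hd ⊢; nlinarith [hh.1]
      have hm := hit h hh _ hd'
      rw [← add_assoc, Function.iterate_succ_apply', g.St_eq hh hm, add_sub_right_comm]
      refine ((ih hd' x).add ((h1 j hj (⟨h, hh⟩, ⟨_, hm⟩) x).smul h)).mono (le_of_eq ?_)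
      rw [abs_of_pos hh.1]; push_cast; ring
  intro m m' hm hm' x
  rcases le_total m m' with h2 | h2
  · obtain ⟨d, rfl⟩ := Nat.exists_eq_add_of_le h2
    refine (key m d hm' x).mono (le_of_eq ?_)
    push_cast
    rw [add_mul, add_sub_cancel_left, abs_of_nonneg (mul_nonneg d.cast_nonneg hh.1.le)]
  · obtain ⟨d, rfl⟩ := Nat.exists_eq_add_of_le h2
    have := (key m' d hm x).smul (-1)
    rw [neg_one_smul, neg_sub] at this
    refine this.mono (le_of_eq ?_)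
    push_cast
    rw [abs_sub_comm, add_mul, add_sub_cancel_left,
      abs_of_nonneg (mul_nonneg d.cast_nonneg hh.1.le)]; simp

lemma incr2 (x) : ∃ C C' : ℝ, ∀ h ∈ Ioc (0 : ℝ) (1 / 2), ∀ m m' : ℕ,
    m * h ≤ T → m' * h ≤ T →
    |(S.St h)^[m'] u0 x - (S.St h)^[m] u0 x - (m' * h - m * h) * S.H ((S.St h)^[m] u0) x|
      ≤ |m' * h - m * h| * (C * √h + C' * |m' * h - m * h|) := by
  obtain ⟨C1, h1⟩ := g.consΔ x
  obtain ⟨C2, h2⟩ := g.lipH x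
  obtain ⟨C3, p, hC3, h3⟩ := g.incr hit 2
  refine ⟨C1, |C2| * (C3 * (1 + ‖x‖) ^ p), fun h hh => ?_⟩
  have key : ∀ (m d j0 : ℕ) (L : ℝ), j0 * h ≤ T → (m + d : ℕ) * h ≤ T →
      (∀ j : ℕ, m ≤ j → j ≤ m + d → |j * h - j0 * h| ≤ L) →
      |(S.St h)^[m + d] u0 x - (S.St h)^[m] u0 x - d * h * S.H ((S.St h)^[j0] u0) x|
        ≤ d * h * (C1 * √h + |C2| * (C3 * (1 + ‖x‖) ^ p) * L) := by
    intro m d j0 L hj0
    induction d with
    | zero => intros; simp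
    | succ d ih =>
      intro hd hL
      have hd' : (m + d : ℕ) * h ≤ T := by
        push_cast at hd ⊢; nlinarith [hh.1]
      have hm := hit h hh _ hd'
      have a1 := ih hd' fun j b1 b2 => hL j b1 (by omega)
      have a2 := h1 h hh _ hm
      have a3 := h2 _ hm _ (hit h hh _ hj0) (L * (C3 * (1 + ‖x‖) ^ p))
        (fun j hj => (h3 j hj h hh j0 (m + d) hj0 hd' x).mono (by
          gcongr; exact hL _ (by omega) (by omega)))
        (fun j hj => (h3 j hj h hh j0 (m + d) hj0 hd' 0).mono (by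
          have := hL (m + d) (by omega) (by omega)
          have := (abs_nonneg _).trans this
          gcongr; simp))
      have a4 : C2 * (L * (C3 * (1 + ‖x‖) ^ p)) ≤ |C2| * (C3 * (1 + ‖x‖) ^ p) * L := by
        have := (abs_nonneg _).trans (hL m le_rfl (by omega))
        rw [mul_comm L, ← mul_assoc]; gcongr; exact le_abs_self _
      rw [← add_assoc, Function.iterate_succ_apply', g.St_eq hh hm, Sm.add_apply, Sm.smul_apply]
      push_cast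
      have a5 : |h * (cen (Δ S h ((S.St h)^[m + d] u0)) x - S.H ((S.St h)^[j0] u0) x)| ≤
          h * (C1 * √h + |C2| * (C3 * (1 + ‖x‖) ^ p) * L) := by
        rw [abs_mul, abs_of_pos hh.1]
        refine mul_le_mul_of_nonneg_left ?_ hh.1.le
        rw [abs_le] at *; constructor <;> linarith
      rw [abs_le] at *; constructor <;> linarith
  intro m m' hm hm'
  have h0 := hh.1
  rcases le_total m m' with h2 | h2
  · obtain ⟨d, rfl⟩ := Nat.exists_eq_add_of_le h2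
    have e1 : ((m + d : ℕ) : ℝ) * h - m * h = d * h := by push_cast; ring
    rw [e1, abs_of_nonneg (mul_nonneg d.cast_nonneg h0.le)]
    refine key m d m _ hm hm' fun j b1 b2 => ?_
    have c1 : (m : ℝ) ≤ j := by exact_mod_cast b1
    have c2 : (j : ℝ) ≤ m + d := by exact_mod_cast b2
    rw [abs_le]; constructor <;> nlinarith
  · obtain ⟨d, rfl⟩ := Nat.exists_eq_add_of_le h2
    have e1 : (m' : ℝ) * h - (m' + d : ℕ) * h = -(d * h) := by push_cast; ring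
    rw [e1, abs_neg, abs_of_nonneg (mul_nonneg d.cast_nonneg h0.le), ← abs_neg]
    convert key m' d (m' + d) (d * h) hm hm fun j b1 b2 => ?_ using 2
    · ring
    have c1 : (m' : ℝ) ≤ j := by exact_mod_cast b1
    have c2 : (j : ℝ) ≤ m' + d := by exact_mod_cast b2
    push_cast
    rw [abs_le]; constructor <;> nlinarith

theorem limit (hT : 0 < T) : ∃ φ : ℝ → Sm n, φ 0 = u0 ∧ Flow S.H 𝒢 T φ := by
  set hN : ℕ → ℝ := fun N => 1 / ((N : ℝ) + 2)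
  have hN1 : ∀ N, hN N ∈ Ioc (0 : ℝ) (1 / 2) := fun N =>
    ⟨by positivity, one_div_le_one_div_of_le (by norm_num) (by simp)⟩
  have hN2 : Tendsto hN atTop (𝓝 0) :=
    tendsto_const_nhds.div_atTop (tendsto_natCast_atTop_atTop.atTop_add tendsto_const_nhds)
  set c : ℝ → ℝ := fun t => max 0 (min t T)
  have c0 : ∀ t, 0 ≤ c t := fun t => le_max_left _ _
  have c1 : ∀ t, c t ≤ T := fun t => max_le hT.le (min_le_right _ _)
  have c2 : ∀ s t, |c s - c t| ≤ |s - t| := fun s t =>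
    (abs_max_sub_max_le_max _ _ _ _).trans (by
      simp only [sub_self, abs_zero]
      refine max_le (abs_nonneg _) ((abs_min_sub_min_le_max _ _ _ _).trans (by simp)))
  have c3 : ∀ t ∈ Ioo 0 T, c t = t := fun t ht => by
    simp only [c]; rw [min_eq_left ht.2.le, max_eq_right ht.1.le]
  set m : ℕ → ℝ → ℕ := fun N t => ⌊c t / hN N⌋₊
  have m1 : ∀ N t, m N t * hN N ≤ c t := fun N t => by
    rw [← le_div_iff₀ (hN1 N).1]; exact Nat.floor_le (div_nonneg (c0 t) (hN1 N).1.le)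
  have m2 : ∀ N t, m N t * hN N ≤ T := fun N t => (m1 N t).trans (c1 t)
  set U := hyperfilter ℕ
  have hU : (U : Filter ℕ) ≤ atTop := by rw [← Nat.cofinite_eq_atTop]; exact hyperfilter_le_cofinite
  have m3 : ∀ t, Tendsto (fun N => m N t * hN N) U (𝓝 (c t)) := fun t => by
    refine Tendsto.mono_left ?_ hU
    refine tendsto_of_tendsto_of_tendsto_of_le_of_le (g := fun N => c t - hN N)
      (by simpa using hN2.const_sub (c t)) tendsto_const_nhds (fun N => ?_) fun N => m1 N t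
    have := Nat.lt_floor_add_one (c t / hN N)
    rw [div_lt_iff₀ (hN1 N).1] at this
    simp only [m]; linarith
  set u : ℝ → ℕ → Sm n := fun t N => (S.St (hN N))^[m N t] u0
  have u1 : ∀ t N, u t N ∈ 𝒢 := fun t N => hit _ (hN1 N) _ (m2 N t)
  choose φ hφ using fun t => (g.tm.comp fun N => (⟨u t N, u1 t N⟩ : 𝒢)).ulim U
  have φ1 : ∀ t, φ t ∈ 𝒢 := fun t => g.cl U (u t) _ (u1 t) (hφ t)
  have φ2 : ∀ k, ∃ C : ℝ, ∃ p : ℕ, 0 ≤ C ∧ ∀ s t x,
      BdAt k (φ s - φ t) x (|s - t| * (C * (1 + ‖x‖) ^ p)) := fun k => by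
    obtain ⟨C, p, hC, h1⟩ := g.incr hit k
    refine ⟨C, p, hC, fun s t x l hl hu => ?_⟩
    refine le_trans (le_of_tendsto_of_tendsto' (by
      simpa using ((hφ s l x).sub (hφ t l x)).abs)
      (((m3 s).sub (m3 t)).abs.mul_const (C * (1 + ‖x‖) ^ p)) fun N => ?_)
      (mul_le_mul_of_nonneg_right (c2 s t) (by positivity))
    simpa using h1 k le_rfl _ (hN1 N) _ _ (m2 N t) (m2 N s) x l hl hu
  have φ3 : ∀ x, ∃ C, ∀ s t, |φ s x - φ t x - (c s - c t) * S.H (φ t) x| ≤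
      |c s - c t| * (C * |c s - c t|) := fun x => by
    obtain ⟨C, C', h1⟩ := g.incr2 hit x
    refine ⟨C', fun s t => ?_⟩
    have a1 : Tendsto (fun N => √(hN N)) U (𝓝 0) := by
      simpa using (hN2.mono_left hU).sqrt
    have a2 := ((m3 s).sub (m3 t)).abs.mul ((a1.const_mul C).add
      (((m3 s).sub (m3 t)).abs.const_mul C'))
    rw [mul_zero, zero_add] at a2
    exact le_of_tendsto_of_tendsto' (((hφ s 0 x).sub (hφ t 0 x)).sub
      (((m3 s).sub (m3 t)).mul (g.tendsto_H (u1 t) (φ1 t) (hφ t) x))).abs a2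
      fun N => h1 _ (hN1 N) _ _ (m2 N t) (m2 N s)
  have φ4 : Uc φ := by
    refine ⟨g.tm.comp fun t => ⟨φ t, φ1 t⟩, fun x => ?_⟩
    obtain ⟨C, p, hC, h1⟩ := φ2 0
    refine (LipschitzWith.of_dist_le_mul (K := ⟨C * (1 + ‖x‖) ^ p, by positivity⟩)
      fun s t => ?_).continuous
    rw [Real.dist_eq, Real.dist_eq, mul_comm]
    exact (h1 s t x).zero
  refine ⟨φ, ?_, φ1, φ4, ⟨g.tH.comp fun t => ⟨φ t, φ1 t⟩, fun x =>
    continuous_iff_continuousAt.2 fun t => g.tendsto_H φ1 (φ1 t)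
      (fun s y => ((φ4.DM s).cont y).tendsto t) x⟩, fun t ht l x => ?_⟩
  · ext x
    refine tendsto_nhds_unique (hφ 0 0 x) ?_
    simp [u, m, c, hT.le]
  have a1 : Tm fun s => (s - t)⁻¹ • (φ s - φ t) := fun k => by
    obtain ⟨C, p, hC, h1⟩ := φ2 k
    refine ⟨C, p, fun s x => ((h1 s t x).smul _).mono ?_⟩
    rw [← mul_assoc, ← abs_mul]
    refine mul_le_of_le_one_left (by positivity) ?_
    by_cases h : s - t = 0
    · simp [h]
    · rw [inv_mul_cancel₀ h, abs_one]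
  have a2 := a1.tendsto_DM (l := 𝓝[≠] t) (G := S.H (φ t)) (fun y => by
    obtain ⟨C, h1⟩ := φ3 y
    rw [tendsto_iff_norm_sub_tendsto_zero]
    have b1 : Tendsto (fun s => C * |s - t|) (𝓝[≠] t) (𝓝 0) := by
      have : Continuous fun s => C * |s - t| := by fun_prop
      simpa using (this.tendsto t).mono_left nhdsWithin_le_nhds
    refine squeeze_zero' (Eventually.of_forall fun _ => norm_nonneg _) ?_ b1
    filter_upwards [self_mem_nhdsWithin, nhdsWithin_le_nhds (Ioo_mem_nhds ht.1 ht.2)] with s hs hs'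
    have b2 := h1 s t
    have b3 : s - t ≠ 0 := sub_ne_zero.2 hs
    rw [c3 s hs', c3 t ht] at b2
    have e1 : ((s - t)⁻¹ • (φ s - φ t)) y - S.H (φ t) y =
        (s - t)⁻¹ * (φ s y - φ t y - (s - t) * S.H (φ t) y) := by simp; field_simp
    rw [Real.norm_eq_abs, e1, abs_mul, abs_inv, inv_mul_le_iff₀ (abs_pos.2 b3)]
    exact b2) l x
  rw [hasDerivAt_iff_tendsto_slope]
  simpa [slope_fun_def_field, div_eq_inv_mul] using a2

end Sch.Good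

end Vale.Agent.P227
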