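import Vale.Agent.P227.Int

open scoped ContDiff Topology
open Filter Set MeasureTheory
noncomputable section
namespace Vale.Agent.P227
variable {n : ℕ}

structure PolK (χ : E n → Sm n) : Prop where
  meas : ∀ z, Measurable fun w => χ w z
  bd : ∀ k, ∃ C : ℝ, ∀ w z, BdAt k (χ w) z (C * ‖w‖ ^ 2)

lemma PolK.upto {χ : E n → Sm n} (h : PolK χ) (k : ℕ) :
    ∃ C : ℝ, 1 ≤ C ∧ ∀ j ≤ k, ∀ w z, BdAt j (χ w) z (C * ‖w‖ ^ 2) := by
  choose C hC using h.bd
  refine ⟨1 + ∑ j ∈ Finset.range (k + 1), |C j|, by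
    have := Finset.sum_nonneg (s := Finset.range (k + 1)) fun j _ => abs_nonneg (C j)
    linarith, fun j hj w z => (hC j w z).mono ?_⟩
  have := Finset.single_le_sum (s := Finset.range (k + 1)) (f := fun j => |C j|)
    (fun j _ => abs_nonneg (C j)) (Finset.mem_range.2 (Nat.lt_succ_of_le hj))
  have := le_abs_self (C j)
  gcongr; linarith
lemma PolK.DM {χ : E n → Sm n} (h : PolK χ) (s) : PolK fun w => DM s (χ w) := by
  refine ⟨meas_DM h.meas s, fun k => ?_⟩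
  obtain ⟨C, hC⟩ := h.bd (k + s.card)
  exact ⟨C * (s.map norm).prod, fun w z => ((hC w z).DM s).mono (le_of_eq (by ring))⟩
lemma PolK.D {χ : E n → Sm n} (h : PolK χ) (v) : PolK fun w => D v (χ w) := h.DM {v}

structure Adm (a b : ℝ) (q : E n → Sm n) : Prop extends PolK q where
  pos : 0 < a
  lo : ∀ w z, a * ‖w‖ ^ 2 ≤ q w z
  hi : ∀ w z, q w z ≤ b * ‖w‖ ^ 2

def ZZ (q : E n → Sm n) (z : E n) : ℝ := ∫ w, Real.exp (-(1 / 2) * q w z)
def G (q : E n → Sm n) : Sm n := mk fun z => -2 * Real.log (ZZ q z)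
def om (q : E n → Sm n) (w : E n) : Sm n := ex ((1 / 2 : ℝ) • (G q - q w))
def Z0 (n : ℕ) (b : ℝ) : ℝ := ∫ w : E n, pg 0 (b / 2) w
def br (q χ : E n → Sm n) : Sm n := intK volume fun w => χ w * om q w

lemma sq_le_w (w : E n) : ‖w‖ ^ 2 ≤ (1 + ‖w‖) ^ 2 := by gcongr; simp
lemma pg_mono {p p' : ℕ} (h : p ≤ p') (a) (w : E n) : pg p a w ≤ pg p' a w := by
  unfold pg; gcongr; exact one_le_w w
lemma pg_mul (p p' : ℕ) (a) (w : E n) : (1 + ‖w‖) ^ p * pg p' a w = pg (p + p') a w := by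
  unfold pg; ring
lemma Z0_pos {b : ℝ} (hb : 0 < b) : 0 < Z0 n b :=
  integral_pos_of_integrable_nonneg_nonzero (x := 0) (pg_cont _ _)
    (integrable_pg (by linarith) _) (fun w => (pg_pos _ _ w).le) (pg_pos _ _ _).ne'

namespace Adm
variable {a b : ℝ} {q : E n → Sm n} (h : Adm a b q)
include h

lemma exp_le (w z) : Real.exp (-(1 / 2) * q w z) ≤ pg 0 (a / 2) w := by
  rw [pg, pow_zero, one_mul, Real.exp_le_exp]; linarith [h.lo w z]
lemma le_exp (w z) : pg 0 ((|b| + 1) / 2) w ≤ Real.exp (-(1 / 2) * q w z) := by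
  rw [pg, pow_zero, one_mul, Real.exp_le_exp]
  have := h.hi w z
  have : b * ‖w‖ ^ 2 ≤ (|b| + 1) * ‖w‖ ^ 2 := by gcongr; linarith [le_abs_self b]
  linarith

lemma ker0 : Ker volume fun w => ex (-(1 / 2 : ℝ) • q w) := by
  refine ⟨fun z => ((h.meas z).const_mul _).exp, fun k R => ?_⟩
  obtain ⟨K, hK, h1⟩ := h.toPolK.upto k
  obtain ⟨c, hc, h2⟩ := bdAt_ex (n := n) k
  refine ⟨fun w => c * K ^ k * pg (2 * k) (a / 2) w,
    (integrable_pg (by linarith [h.pos]) _).const_mul _, Eventually.of_forall fun w z _ => ?_⟩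
  refine (h2 _ z (fun j => K ^ j) ((1 + ‖w‖) ^ 2) (wt_pow hK k) (one_le_wp w 2)
    (fun j hj hjk => ((h1 j hjk w z).smul _).mono ?_) k le_rfl).mono ?_
  · have := sq_le_w w
    have h3 : K ≤ K ^ j := le_self_pow₀ hK (by omega)
    rw [abs_neg, abs_of_pos (by norm_num)]
    have : K * ‖w‖ ^ 2 ≤ K ^ j * (1 + ‖w‖) ^ 2 := by gcongr
    have : 0 ≤ K * ‖w‖ ^ 2 := by positivity
    linarith
  · beta_reduce
    rw [← add_zero (2 * k), ← pg_mul, ← pow_mul, mul_assoc (c * K ^ k)]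
    gcongr; exact h.exp_le w z

lemma int0 (z) : Integrable fun w => Real.exp (-(1 / 2) * q w z) := h.ker0.int z
lemma ZZ_le (z) : ZZ q z ≤ Z0 n a :=
  integral_mono (h.int0 z) (integrable_pg (by linarith [h.pos]) _) fun w => h.exp_le w z
lemma le_ZZ (z) : Z0 n (|b| + 1) ≤ ZZ q z :=
  integral_mono (integrable_pg (by positivity) _) (h.int0 z) fun w => h.le_exp w z
lemma ZZ_pos (z) : 0 < ZZ q z := (Z0_pos (by positivity)).trans_le (h.le_ZZ z)
lemma ZZ_eq : ZZ q = intK volume fun w => ex (-(1 / 2 : ℝ) • q w) :=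
  funext fun z => (h.ker0.apply z).symm
lemma G_fn : (G q : E n → ℝ) = fun z => -2 * Real.log (ZZ q z) := by
  refine mk_fn (contDiff_const.mul (ContDiff.log ?_ fun z => (h.ZZ_pos z).ne'))
  rw [h.ZZ_eq]; exact Sm.smooth _
lemma G_apply (z) : G q z = -2 * Real.log (ZZ q z) := by rw [h.G_fn]
lemma om_apply (w z) : om q w z = Real.exp (-(1 / 2) * q w z) / ZZ q z := by
  rw [om, ex_apply, Sm.smul_apply, Sm.sub_apply, h.G_apply, eq_div_iff (h.ZZ_pos z).ne']
  conv_lhs => rw [← Real.exp_log (h.ZZ_pos z), Real.log_exp, ← Real.exp_add]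
  congr 1; ring
omit h in
lemma om_pos (w z) : 0 < om q w z := Real.exp_pos _
lemma om_int (z) : Integrable fun w => om q w z := by
  simp only [h.om_apply]; exact (h.int0 z).div_const _
lemma om_integral (z) : ∫ w, om q w z = 1 := by
  simp only [h.om_apply]; rw [integral_div]; exact div_self (h.ZZ_pos z).ne'
lemma om_le (w z) : om q w z ≤ (Z0 n (|b| + 1))⁻¹ * pg 0 (a / 2) w := by
  rw [h.om_apply, ← div_eq_inv_mul]
  exact div_le_div₀ (pg_pos _ _ _).le (h.exp_le w z) (Z0_pos (by positivity)) (h.le_ZZ z)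
lemma om_meas (z) : Measurable fun w => om q w z := by
  simp only [h.om_apply]; exact ((h.meas z).const_mul _).exp.div_const _
omit h in
lemma D_om (v w) : D v (om q w) = om q w * ((1 / 2 : ℝ) • (D v (G q) - D v (q w))) := by
  rw [om, D_ex]; simp

lemma D_G' (v z) : D v (G q) z = ∫ w, D v (q w) z * om q w z := by
  have h1 := h.ker0.D_int v z
  rw [D_apply, ← h.ZZ_eq] at h1
  have h2 : HasFDerivAt (ZZ q) (fderiv ℝ (ZZ q) z) z := by rw [h.ZZ_eq]; exact Sm.hasF _ z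
  rw [D_apply, h.G_fn, ((h2.log (h.ZZ_pos z).ne').const_mul (-2)).fderiv]
  simp only [smul_apply, h1, smul_eq_mul, D_ex, h.om_apply, ← mul_div_assoc]
  rw [integral_div, ← mul_assoc, mul_comm (-2 : ℝ), mul_assoc, ← integral_const_mul,
    ← div_eq_inv_mul]
  congr 2; ext w; simp; ring

lemma om_loc (k : ℕ) (R : ℝ) : ∃ C : ℝ, ∀ j ≤ k, ∀ w z, ‖z‖ ≤ R →
    BdAt j (om q w) z (C * pg (2 * k) (a / 2) w) := by
  obtain ⟨K, hK, h1⟩ := h.toPolK.upto k
  obtain ⟨c, hc, h2⟩ := bdAt_ex (n := n) k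
  choose C hC using fun j => (G q).locBd j R
  set K' := K + ∑ j ∈ Finset.range (k + 1), |C j|
  have hK' : K ≤ K' := le_add_of_nonneg_right (Finset.sum_nonneg fun j _ => abs_nonneg _)
  have hZ := Z0_pos (n := n) (b := |b| + 1) (by positivity)
  refine ⟨c * K' ^ k * (Z0 n (|b| + 1))⁻¹, fun j hj w z hz => ?_⟩
  refine (h2 _ z (fun j => K' ^ j) ((1 + ‖w‖) ^ 2) (wt_pow (hK.trans hK') k) (one_le_wp w 2)
    (fun j hj hjk => (((hC j z hz).sub (h1 j hjk w z)).smul _).mono ?_) j hj).mono ?_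
  · have := sq_le_w w
    have := one_le_wp w 2
    have h3 : K' ≤ K' ^ j := le_self_pow₀ (hK.trans hK') (by omega)
    have h4 := Finset.single_le_sum (s := Finset.range (k + 1)) (f := fun j => |C j|)
      (fun j _ => abs_nonneg (C j)) (Finset.mem_range.2 (Nat.lt_succ_of_le hjk))
    have h5 : C j ≤ K' := by simp only [K'] at *; linarith [le_abs_self (C j)]
    rw [abs_of_pos (by norm_num)]
    have : K * ‖w‖ ^ 2 ≤ K' ^ j * (1 + ‖w‖) ^ 2 := by gcongr; linarith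
    have : C j ≤ K' ^ j * (1 + ‖w‖) ^ 2 := by nlinarith
    linarith
  · rw [← add_zero (2 * k), ← pg_mul, ← pow_mul]
    have h6 := h.om_le w z
    have h7 : K' ^ j ≤ K' ^ k := pow_le_pow_right₀ (hK.trans hK') hj
    have h8 : (1 + ‖w‖) ^ (2 * j) ≤ (1 + ‖w‖) ^ (2 * k) :=
      pow_le_pow_right₀ (one_le_w w) (by omega)
    have : 0 ≤ K' := by linarith
    calc _ ≤ c * K' ^ k * (1 + ‖w‖) ^ (2 * k) * ((Z0 n (|b| + 1))⁻¹ * pg 0 (a / 2) w) := by
          gcongr; exact h6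
      _ = _ := by ring

lemma kerBr {χ : E n → Sm n} (hχ : PolK χ) : Ker volume fun w => χ w * om q w := by
  refine ⟨fun z => (hχ.meas z).mul (h.om_meas z), fun k R => ?_⟩
  obtain ⟨K, hK, h1⟩ := hχ.upto k
  obtain ⟨C, h2⟩ := h.om_loc k R
  refine ⟨fun w => 2 ^ k * (K * C * pg (2 + 2 * k) (a / 2) w),
    ((integrable_pg (by linarith [h.pos]) _).const_mul _).const_mul _,
    Eventually.of_forall fun w z hz s hs hu => ?_⟩
  refine (abs_DM_mul_le s _ _ z _ ?_).trans (by rw [hs])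
  rintro s1 s2 rfl
  rw [Multiset.card_add] at hs
  have a1 := h1 s1.card (by omega) w z s1 rfl hu.left
  have a2 := h2 s2.card (by omega) w z hz s2 rfl hu.right
  have := sq_le_w w
  rw [← pg_mul]
  calc _ ≤ (K * (1 + ‖w‖) ^ 2) * (C * pg (2 * k) (a / 2) w) := by
        gcongr; exact a1.trans (by gcongr)
    _ = _ := by ring

lemma br_DM {χ : E n → Sm n} (hχ : PolK χ) (s z) :
    DM s (br q χ) z = ∫ w, DM s (χ w * om q w) z := (h.kerBr hχ).DM_int s z
lemma br_apply {χ : E n → Sm n} (hχ : PolK χ) (z) :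
    br q χ z = ∫ w, χ w z * om q w z := (h.kerBr hχ).apply z
lemma br_int {χ : E n → Sm n} (hχ : PolK χ) (s z) :
    Integrable fun w => DM s (χ w * om q w) z := ((h.kerBr hχ).DM s).int z
lemma D_G (v) : D v (G q) = br q fun w => D v (q w) := by
  ext z; rw [h.D_G', h.br_apply (h.toPolK.D v)]
lemma int_mul_DM {χ : E n → Sm n} (hχ : PolK χ) (s z) :
    Integrable fun w => χ w z * DM s (om q w) z := by
  obtain ⟨K, h1⟩ := hχ.bd 0
  obtain ⟨C, h2⟩ := h.om_loc s.card ‖z‖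
  refine integrable_of_le ((hχ.meas z).mul (meas_DM h.om_meas s z)).aestronglyMeasurable
    (a := a / 2) (by linarith [h.pos]) (|K| * (C * (s.map norm).prod)) (2 + 2 * s.card) fun w => ?_
  have a1 := (h1 w z).zero
  have a2 := (h2 _ le_rfl w z le_rfl).abs_DM
  have := sq_le_w w
  rw [← pg_mul, abs_mul]
  calc _ ≤ (|K| * (1 + ‖w‖) ^ 2) * (C * pg (2 * s.card) (a / 2) w * (s.map norm).prod) := by
        gcongr; exact a1.trans (by gcongr; exact le_abs_self K)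
    _ = _ := by ring
end Adm

lemma abs_int_le {f : E n → ℝ} {a : ℝ} (ha : 0 < a) (C : ℝ) (p : ℕ)
    (h : ∀ w, |f w| ≤ C * pg p a w) : |∫ w, f w| ≤ C * ∫ w : E n, pg p a w := by
  rw [← integral_const_mul]
  exact norm_integral_le_of_norm_le (f := f) ((integrable_pg ha p).const_mul C)
    (Eventually.of_forall h)
lemma int_pg_nonneg (p a) : 0 ≤ ∫ w : E n, pg p a w := integral_nonneg fun w => (pg_pos _ _ w).le

lemma Adm.br_bd {a b : ℝ} {q χ : E n → Sm n} (h : Adm a b q) (hχ : PolK χ) (k p : ℕ) (z : E n)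
    (A B : ℕ → ℝ) (M : ℝ) (h1 : ∀ j ≤ k, ∀ w, BdAt j (χ w) z (A j * ‖w‖ ^ 2))
    (hA : ∀ j ≤ k, 0 ≤ A j) (hB : ∀ j ≤ k, 0 ≤ B j)
    (h2 : ∀ j ≤ k, ∀ w, BdAt j (om q w) z (B j * pg p (a / 2) w))
    (h3 : ∀ i j, i + j = k → A i * B j ≤ M) :
    BdAt k (br q χ) z (2 ^ k * M * ∫ w : E n, pg (2 + p) (a / 2) w) := by
  intro s hs hu
  rw [h.br_DM hχ]
  refine abs_int_le (by linarith [h.pos]) _ _ fun w => ?_
  refine (abs_DM_mul_le s _ _ z (M * pg (2 + p) (a / 2) w) ?_).trans (by rw [hs, mul_assoc])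
  rintro s1 s2 rfl
  rw [Multiset.card_add] at hs
  have a1 := h1 s1.card (by omega) w s1 rfl hu.left
  have a2 := h2 s2.card (by omega) w s2 rfl hu.right
  have := sq_le_w w
  have := hA s1.card (by omega)
  have := hB s2.card (by omega)
  have := pg_pos p (a / 2) w
  rw [← pg_mul]
  calc _ ≤ (A s1.card * (1 + ‖w‖) ^ 2) * (B s2.card * pg p (a / 2) w) := by
        gcongr; exact a1.trans (by gcongr)
    _ = (A s1.card * B s2.card) * ((1 + ‖w‖) ^ 2 * pg p (a / 2) w) := by ring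
    _ ≤ _ := by gcongr; exact h3 _ _ hs

lemma om_of_G (a b c0 : ℝ) (hc0 : 1 ≤ c0) (r : ℕ) : ∃ c : ℝ, 1 ≤ c ∧ ∀ q : E n → Sm n,
    Adm a b q → ∀ z W, Wt W r →
    (∀ j, 1 ≤ j → j ≤ r → ∀ w, BdAt j (q w) z (W j * ‖w‖ ^ 2)) →
    (∀ j, 1 ≤ j → j ≤ r → BdAt j (G q) z (c0 * W j)) →
    ∀ j ≤ r, ∀ w, BdAt j (om q w) z (c * W j * pg (2 * r) (a / 2) w) := by
  have hZ := Z0_pos (n := n) (b := |b| + 1) (by positivity)
  obtain ⟨c, hc, h2⟩ := bdAt_ex (n := n) r
  refine ⟨c * c0 ^ r * ((Z0 n (|b| + 1))⁻¹ + 1), one_le_mul_of_one_le_of_one_le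
    (one_le_mul_of_one_le_of_one_le hc (one_le_pow₀ hc0)) (by simp [hZ.le]),
    fun q h z W hW h1 hG j hj w => ?_⟩
  have := one_le_wp w 2
  refine (h2 _ z W (c0 * (1 + ‖w‖) ^ 2) hW (by nlinarith)
    (fun j hj hjk => (((hG j hj hjk).sub (h1 j hj hjk w)).smul _).mono ?_) j hj).mono ?_
  · have := sq_le_w w
    have := hW.pos j
    rw [abs_of_pos (by norm_num)]
    have : W j * ‖w‖ ^ 2 ≤ W j * (c0 * (1 + ‖w‖) ^ 2) := by gcongr; nlinarith
    have : c0 * W j ≤ W j * (c0 * (1 + ‖w‖) ^ 2) := by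
      rw [mul_comm]; gcongr; nlinarith
    linarith
  · rw [← add_zero (2 * r), ← pg_mul, mul_pow, ← pow_mul]
    have h6 := h.om_le w z
    have h7 : c0 ^ j ≤ c0 ^ r := pow_le_pow_right₀ hc0 hj
    have h8 : (1 + ‖w‖) ^ (2 * j) ≤ (1 + ‖w‖) ^ (2 * r) :=
      pow_le_pow_right₀ (one_le_w w) (by omega)
    have := hW.pos j
    have := pg_pos 0 (a / 2) w
    calc _ ≤ c * W j * (c0 ^ r * (1 + ‖w‖) ^ (2 * r)) *
          (((Z0 n (|b| + 1))⁻¹ + 1) * pg 0 (a / 2) w) := by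
          gcongr; exact h6.trans (by gcongr; linarith)
      _ = _ := by ring

lemma qb (a b : ℝ) (r : ℕ) : ∃ c : ℝ, 1 ≤ c ∧ ∀ q : E n → Sm n, Adm a b q → ∀ z W, Wt W r →
    (∀ j, 1 ≤ j → j ≤ r → ∀ w, BdAt j (q w) z (W j * ‖w‖ ^ 2)) →
    (∀ j, 1 ≤ j → j ≤ r → BdAt j (G q) z (c * W j)) ∧
    ∀ j ≤ r, ∀ w, BdAt j (om q w) z (c * W j * pg (2 * r) (a / 2) w) := by
  induction r with
  | zero =>
    obtain ⟨c, hc, h⟩ := om_of_G (n := n) a b 1 le_rfl 0
    exact ⟨c, hc, fun q hq z W hW h1 => ⟨fun j _ _ => by omega,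
      h q hq z W hW h1 fun j _ _ => by omega⟩⟩
  | succ r ih =>
    obtain ⟨c, hc, ih⟩ := ih
    set I := ∫ w : E n, pg (2 + 2 * r) (a / 2) w
    have hI : 0 ≤ I := int_pg_nonneg _ _
    set c0 := c + 2 ^ r * c * I
    have h0 : 0 ≤ 2 ^ r * c * I := by positivity
    have hc0 : 1 ≤ c0 := by linarith
    obtain ⟨c1, hc1, h⟩ := om_of_G (n := n) a b c0 hc0 (r + 1)
    refine ⟨c0 + c1, by linarith, fun q hq z W hW h1 => ?_⟩
    obtain ⟨i1, i2⟩ := ih q hq z W (hW.mono r.le_succ) fun j h2 h3 => h1 j h2 (h3.trans r.le_succ)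
    have hG : ∀ j, 1 ≤ j → j ≤ r + 1 → BdAt j (G q) z (c0 * W j) := by
      intro j hj hj'
      have := hW.pos j
      rcases Nat.lt_or_ge j (r + 1) with h2 | h2
      · exact (i1 j hj (by omega)).mono (by gcongr; linarith)
      obtain rfl : j = r + 1 := by omega
      intro s hs hu
      induction s using Multiset.induction with
      | empty => simp at hs
      | cons v s _ =>
        rw [Multiset.card_cons, Nat.succ_inj] at hs
        rw [DM_cons', hq.D_G]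
        refine (hq.br_bd (hq.toPolK.D v) r (2 * r) z (fun j => W (j + 1)) (fun j => c * W j)
          (c * W (r + 1)) (fun j hj w => (h1 (j + 1) (by omega) (by omega) w).D1 hu.head)
          (fun j _ => (hW.pos _).le) (fun j _ => by have := hW.pos j; positivity) i2
          (fun i j hij => ?_) s hs hu.tail).trans ?_
        · have := hW.mul (i + 1) j (by omega)
          rw [show i + 1 + j = r + 1 by omega] at this
          rw [mul_left_comm]; gcongr
        · have : 2 ^ r * (c * W (r + 1)) * I = (2 ^ r * c * I) * W (r + 1) := by ring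
          rw [this]; gcongr; linarith
    refine ⟨fun j h2 h3 => (hG j h2 h3).mono ?_, fun j hj w => (h q hq z W hW h1 hG j hj w).mono ?_⟩
    · have := hW.pos j; gcongr; linarith
    · have := hW.pos j; have := pg_pos (2 * (r + 1)) (a / 2) w; gcongr; linarith

lemma G_lip (a b : ℝ) (p : ℕ) : ∃ C : ℝ, ∀ q q' : E n → Sm n, Adm a b q → Adm a b q' →
    ∀ z z' δ, 0 ≤ δ → (∀ w, |q w z - q' w z'| ≤ δ * (1 + ‖w‖) ^ p) →
    |G q z - G q' z'| ≤ C * δ := by
  have hZ := Z0_pos (n := n) (b := |b| + 1) (by positivity)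
  refine ⟨2 * ((∫ w : E n, pg p (a / 2) w) / Z0 n (|b| + 1)), fun q q' h h' z z' δ hδ hq => ?_⟩
  have h1 : |ZZ q z - ZZ q' z'| ≤ δ * ∫ w : E n, pg p (a / 2) w := by
    rw [ZZ, ZZ, ← integral_sub (h.int0 z) (h'.int0 z')]
    refine abs_int_le (by linarith [h.pos]) _ _ fun w => ?_
    have key : ∀ x y m : ℝ, x ≤ m → y ≤ m → |Real.exp x - Real.exp y| ≤ |x - y| * Real.exp m := by
      intro x y m hx hy
      wlog hxy : y ≤ x generalizing x y
      · rw [abs_sub_comm, abs_sub_comm x]; exact this y x hy hx (le_of_not_ge hxy)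
      have e1 := Real.exp_le_exp.2 hxy
      have e2 := Real.exp_le_exp.2 hx
      have e3 := Real.add_one_le_exp (y - x)
      rw [Real.exp_sub, le_div_iff₀ (Real.exp_pos x)] at e3
      rw [abs_of_nonneg (by linarith), abs_of_nonneg (by linarith)]
      nlinarith
    refine (key _ _ (-(a / 2) * ‖w‖ ^ 2) (by linarith [h.lo w z]) (by linarith [h'.lo w z'])).trans ?_
    rw [pg, ← mul_assoc]; gcongr
    rw [← mul_sub, abs_mul, abs_neg, abs_of_pos (by norm_num)]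
    linarith [hq w, abs_nonneg (q w z - q' w z')]
  have key : ∀ x y m : ℝ, 0 < m → m ≤ x → m ≤ y → |Real.log x - Real.log y| ≤ |x - y| / m := by
    intro x y m hm hx hy
    wlog hxy : y ≤ x generalizing x y
    · rw [abs_sub_comm, abs_sub_comm x]; exact this y x hy hx (le_of_not_ge hxy)
    have hy0 := hm.trans_le hy
    have hx0 := hm.trans_le hx
    rw [abs_of_nonneg (by linarith [Real.log_le_log hy0 hxy]), abs_of_nonneg (by linarith),
      ← Real.log_div hx0.ne' hy0.ne']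
    refine (Real.log_le_sub_one_of_pos (by positivity)).trans ?_
    rw [div_sub_one hy0.ne']; gcongr
  rw [h.G_apply, h'.G_apply, ← mul_sub, abs_mul, abs_neg, abs_two, mul_assoc]
  gcongr
  refine (key _ _ _ hZ (h.le_ZZ z) (h'.le_ZZ z')).trans ?_
  rw [div_mul_eq_mul_div, mul_comm]; gcongr

lemma G_abs (a b : ℝ) : ∃ C : ℝ, ∀ q : E n → Sm n, Adm a b q → ∀ z, |G q z| ≤ C := by
  refine ⟨2 * (|Real.log (Z0 n a)| + |Real.log (Z0 n (|b| + 1))|), fun q h z => ?_⟩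
  have hZ := Z0_pos (n := n) (b := |b| + 1) (by positivity)
  have h1 := Real.log_le_log (h.ZZ_pos z) (h.ZZ_le z)
  have h2 := Real.log_le_log hZ (h.le_ZZ z)
  rw [h.G_apply, abs_mul, abs_neg, abs_two]
  gcongr
  rw [abs_le]
  constructor
  · linarith [neg_abs_le (Real.log (Z0 n (|b| + 1))), abs_nonneg (Real.log (Z0 n a))]
  · linarith [le_abs_self (Real.log (Z0 n a)), abs_nonneg (Real.log (Z0 n (|b| + 1)))]

end Vale.Agent.P227
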