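import Vale.Agent.P227.CalAlg

set_option linter.unusedSectionVars false
noncomputable section
namespace Vale.Agent.P227
open Finset Matrix

structure MM (ι A : Type*) [Fintype ι] [DecidableEq ι] [CommRing A] [Algebra ℝ A] where
  D : ι → Derivation ℝ A A
  comm : ∀ a b f, D a (D b f) = D b (D a f)
  x : ι → A
  Dx : ∀ a b, D a (x b) = if a = b then 1 else 0
  V : ι → A
  E : A →ₗ[ℝ] ℝ
  ibp : ∀ a f, E (D a f) = E (f * V a)
  g : Matrix ι ι A
  τ : Matrix ι ι A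
  gs : ∀ a b, g a b = g b a
  dg : ∀ a b c, D a (g b c) = D b (g a c)
  τs : ∀ a b, τ a b = τ b a
  inv : τ * g = 1
  eqn : ∀ i, ∑ a, ∑ b, τ a b * D a (g b i) - ∑ c, x c * g c i + V i = 0

namespace MM
variable {ι A : Type*} [Fintype ι] [DecidableEq ι] [CommRing A] [Algebra ℝ A] (M : MM ι A)

lemma D_mul (a) (f h : A) : M.D a (f * h) = M.D a f * h + f * M.D a h := by
  rw [Derivation.leibniz]; simp [mul_comm, add_comm]
def d (a : ι) (X : Matrix ι ι A) : Matrix ι ι A := X.map (M.D a)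
lemma d_apply (a X i j) : M.d a X i j = M.D a (X i j) := rfl
lemma d_mul (a) (X Y : Matrix ι ι A) : M.d a (X * Y) = M.d a X * Y + X * M.d a Y := by
  ext i j; simp [d_apply, mul_apply, M.D_mul, sum_add_distrib, - Derivation.leibniz]
lemma d_one (a) : M.d a 1 = 0 := by
  ext i j; simp only [d_apply, one_apply]; split_ifs <;> simp
lemma d_T (a) {X : Matrix ι ι A} (h : Xᵀ = X) : (M.d a X)ᵀ = M.d a X := by
  ext i j; rw [transpose_apply, d_apply, d_apply, ← h, transpose_apply, h]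
lemma τT : M.τᵀ = M.τ := by ext i j; exact M.τs _ _
lemma gT : M.gᵀ = M.g := by ext i j; exact M.gs _ _
lemma inv' : M.g * M.τ = 1 := mul_eq_one_comm.1 M.inv
lemma dτg (a) : M.d a M.τ * M.g = - (M.τ * M.d a M.g) := by
  have := M.d_mul a M.τ M.g
  rw [M.inv, d_one] at this
  exact eq_neg_of_add_eq_zero_left this.symm
lemma dτ (a) : M.d a M.τ = - (M.τ * M.d a M.g * M.τ) := by
  rw [← neg_mul, ← dτg, mul_assoc, inv', mul_one]
lemma dg' (a) : M.d a M.g = - (M.g * M.d a M.τ * M.g) := by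
  rw [mul_assoc, dτg, mul_neg, neg_neg, ← mul_assoc, inv', one_mul]
lemma dg2 (a b c) : M.D a (M.g b c) = M.D a (M.g c b) := by rw [M.gs]

def T (b c j : ι) : A := ∑ a, M.τ a b * M.D a (M.τ c j)
lemma T_eq (b c j) : M.T b c j = - ∑ a, ∑ e, ∑ d, M.τ a b * (M.τ c d * M.D a (M.g d e) * M.τ e j) := by
  simp only [T, ← d_apply, dτ, Matrix.neg_apply, mul_apply, sum_mul, mul_neg, mul_sum, sum_neg_distrib]
lemma T2 (b c j) : M.T b c j = M.T b j c := by simp only [T, M.τs c]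
lemma T1 (b c j) : M.T b c j = M.T c b j := by
  rw [T_eq, T_eq, sum_comm, sum_comm (f := fun a e => ∑ d, M.τ a c * _)]
  congr 1
  refine sum_congr rfl fun e _ => ?_
  rw [sum_comm]
  exact sum_congr rfl fun _ _ => sum_congr rfl fun _ _ => by rw [M.dg, M.τs c, M.τs b]; ring

lemma τ_T (y : ι → A) (c d) : ∑ a, (∑ i, M.τ a i * y i) * M.D a (M.τ c d) = ∑ i, M.T c d i * y i := by
  have : ∀ i, M.T c d i = ∑ a, M.τ a i * M.D a (M.τ c d) := fun i => by rw [T2, T1]; rfl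
  simp only [sum_mul, this]
  rw [sum_comm]
  exact sum_congr rfl fun _ _ => sum_congr rfl fun _ _ => by ring

def div (X : ι → A) : A := ∑ a, (M.D a (X a) - X a * M.V a)
def L (w : A) : A := ∑ a, ∑ b, M.τ a b * M.D a (M.D b w) - ∑ b, M.x b * M.D b w
lemma div_mul (X : ι → A) (f : A) : M.div (fun a => X a * f) = M.div X * f + ∑ a, X a * M.D a f := by
  simp only [div, D_mul, sum_mul, ← sum_add_distrib]; exact sum_congr rfl fun _ _ => by ring
lemma div_sum (X : ι → ι → A) : M.div (fun a => ∑ b, X a b) = ∑ b, M.div fun a => X a b := by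
  simp only [div, map_sum, sum_mul, ← sum_sub_distrib]; exact sum_comm
lemma E_div (X : ι → A) : M.E (M.div X) = 0 := by simp [div, M.ibp]
lemma E_mul_div (X : ι → A) (f : A) : M.E (f * M.div X) = - M.E (∑ a, X a * M.D a f) := by
  have := M.E_div fun a => X a * f
  rw [div_mul, map_add, mul_comm] at this
  linarith
lemma div_τ (b) : M.div (fun a => M.τ a b) = - M.x b := by
  have h1 : ∑ i, (∑ a, ∑ c, M.τ a c * M.D a (M.g c i) - ∑ c, M.x c * M.g c i + M.V i) * M.τ i b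
      = 0 := by simp [M.eqn]
  have h2 : ∑ i, (∑ c, M.x c * M.g c i) * M.τ i b = M.x b := by
    have : ∀ c, ∑ i, M.x c * M.g c i * M.τ i b = M.x c * (M.g * M.τ) c b := fun c => by
      simp [mul_apply, mul_sum, mul_assoc]
    simp only [sum_mul]
    rw [sum_comm]; simp [this, M.inv', one_apply]
  have h3 : ∑ a, M.D a (M.τ a b) = - ∑ i, (∑ a, ∑ c, M.τ a c * M.D a (M.g c i)) * M.τ i b := by
    simp only [← d_apply, dτ, Matrix.neg_apply, mul_apply, sum_mul, sum_neg_distrib]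
    rw [sum_comm]
  simp only [add_mul, sub_mul, sum_add_distrib, sum_sub_distrib, h2] at h1
  simp only [div, sum_sub_distrib, h3, mul_comm (M.τ _ b) (M.V _)]
  linear_combination -h1
lemma L_eq (w : A) : M.L w = M.div fun a => ∑ b, M.τ a b * M.D b w := by
  simp only [div_sum, div_mul, div_τ, L, sum_add_distrib, neg_mul, sum_neg_distrib]
  rw [sum_comm]; ring
lemma E_L (w : A) : M.E (M.L w) = 0 := by rw [L_eq, E_div]
lemma E_mul_L (f w : A) : M.E (f * M.L w) = - M.E (∑ a, ∑ b, M.τ a b * M.D a f * M.D b w) := by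
  rw [L_eq, E_mul_div]
  simp only [sum_mul, mul_right_comm]
lemma E_sum_div (X : ι → ι → A) (f : ι → A) :
    M.E (∑ j, f j * M.div (X j)) = - M.E (∑ j, ∑ a, X j a * M.D a (f j)) := by
  simp only [map_sum (s := univ) (f := fun j => f j * M.div (X j)), E_mul_div, sum_neg_distrib,
    map_sum (s := univ) (f := fun j => ∑ a, X j a * M.D a (f j))]
lemma E_sum_L (f w : ι → A) : M.E (∑ j, f j * M.L (w j)) =
    - M.E (∑ j, ∑ a, ∑ b, M.τ a b * M.D a (f j) * M.D b (w j)) := by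
  simp only [map_sum (s := univ) (f := fun j => f j * M.L (w j)), E_mul_L, sum_neg_distrib,
    map_sum (s := univ) (f := fun j => ∑ a, ∑ b, M.τ a b * M.D a (f j) * M.D b (w j))]
lemma D_L (i) (w : A) : M.D i (M.L w) =
    M.L (M.D i w) + ∑ a, ∑ b, M.D i (M.τ a b) * M.D a (M.D b w) - M.D i w := by
  simp only [L, map_sub, map_sum, D_mul, sum_add_distrib, M.Dx, M.comm i, ite_mul, one_mul,
    zero_mul, sum_ite_eq, mem_univ, if_true]
  ring
lemma E_div_sq (X : ι → A) : M.E (M.div X * M.div X) =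
    M.E (∑ a, ∑ b, M.D a (X b) * M.D b (X a)) + M.E (∑ a, ∑ b, M.D a (M.V b) * X a * X b) := by
  have h1 : ∀ a, M.D a (M.div X) = M.div (fun b => M.D a (X b)) - ∑ b, X b * M.D a (M.V b) :=
    fun a => by
      simp only [div, map_sum, map_sub, D_mul, M.comm a, ← sum_sub_distrib]
      exact sum_congr rfl fun _ _ => by ring
  rw [E_mul_div]
  simp only [h1, mul_sub, sum_sub_distrib, map_sub, E_sum_div, mul_sum]
  rw [neg_sub, sub_neg_eq_add, add_comm]
  congr 2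
  exact sum_congr rfl fun _ _ => sum_congr rfl fun _ _ => by ring

def H2 (w : A) : Matrix ι ι A := Matrix.of fun a b => M.D a (M.D b w)
lemma H2_apply (w a b) : M.H2 w a b = M.D a (M.D b w) := rfl
lemma H2T (w) : (M.H2 w)ᵀ = M.H2 w := by ext a b; exact M.comm _ _ _
def gr (w : A) (j : ι) : A := ∑ i, M.τ j i * M.D i w

lemma τ_D_gr (w : A) (i j) : ∑ a, M.τ a i * M.D a (M.gr w j) =
    ∑ b, M.T i j b * M.D b w + (M.τ * M.H2 w * M.τ) i j := by
  simp only [gr, map_sum, D_mul, mul_add, mul_sum, sum_add_distrib, T, sum_mul, mul_apply, H2_apply]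
  rw [sum_comm, sum_comm (f := fun a b => M.τ a i * (M.τ j b * _))]
  congr 1 <;> refine sum_congr rfl fun _ _ => sum_congr rfl fun _ _ => ?_
  · ring
  · rw [M.τs i, M.τs j]; ring

lemma trace_mul (X Y : Matrix ι ι A) : trace (X * Y) = ∑ i, ∑ j, X i j * Y j i := by
  simp [trace, mul_apply]

lemma bochner (v : A) : M.E (M.L v * M.L v) = M.E (∑ a, ∑ b, M.τ a b * M.D a v * M.D b v) +
    M.E (trace (M.τ * M.H2 v * M.τ * M.H2 v)) := by
  have h1 : ∑ a, ∑ b, M.τ a b * M.D a (M.L v) * M.D b v = ∑ a, M.gr v a * M.D a (M.L v) := by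
    simp only [gr, sum_mul]; exact sum_congr rfl fun _ _ => sum_congr rfl fun _ _ => by ring
  have h2 : ∑ a, M.gr v a * M.D a v = ∑ a, ∑ b, M.τ a b * M.D a v * M.D b v := by
    simp only [gr, sum_mul]; exact sum_congr rfl fun _ _ => sum_congr rfl fun _ _ => by ring
  have h3 : ∑ a, ∑ b, ∑ c, M.τ b c * M.D b (M.gr v a) * M.D c (M.D a v) =
      ∑ a, M.gr v a * ∑ c, ∑ d, M.D a (M.τ c d) * M.D c (M.D d v) +
        trace (M.τ * M.H2 v * M.τ * M.H2 v) := by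
    have e1 : ∀ a, ∑ b, ∑ c, M.τ b c * M.D b (M.gr v a) * M.D c (M.D a v) =
        ∑ c, (∑ b, M.τ b c * M.D b (M.gr v a)) * M.D c (M.D a v) := fun a => by
      rw [sum_comm]; simp only [sum_mul]
    simp only [e1, τ_D_gr, add_mul, sum_add_distrib, trace_mul]
    congr 1
    · have e2 : ∀ c d, ∑ a, M.gr v a * (M.D a (M.τ c d) * M.D c (M.D d v)) =
          (∑ i, M.T c d i * M.D i v) * M.D c (M.D d v) := fun c d => by
        simp only [← mul_assoc, ← sum_mul, τ_T, gr]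
      simp only [mul_sum]
      rw [sum_comm, ← sum_comm_cycle]
      simp only [e2]
    · rw [sum_comm]
      exact sum_congr rfl fun _ _ => sum_congr rfl fun _ _ => by rw [H2_apply, M.comm]
  rw [E_mul_L, h1]
  simp only [D_L, mul_add, mul_sub, sum_add_distrib, sum_sub_distrib, map_add, map_sub, h2,
    E_sum_L]
  rw [h3, map_add]; ring

lemma tr3T {X Y Z : Matrix ι ι A} (hX : Xᵀ = X) (hY : Yᵀ = Y) (hZ : Zᵀ = Z) :
    (X * Y * Z)ᵀ = Z * Y * X := by rw [transpose_mul, transpose_mul, hX, hY, hZ, mul_assoc]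
lemma tr4 {X Y Z W : Matrix ι ι A} (hX : Xᵀ = X) (hY : Yᵀ = Y) (hZ : Zᵀ = Z) (hW : Wᵀ = W) :
    trace (X * (Y * (Z * W))) = trace (W * (Z * (Y * X))) := by
  rw [← trace_transpose]; simp only [transpose_mul, hX, hY, hZ, hW, mul_assoc]
lemma cyc (X Y : Matrix ι ι A) : trace (X * Y) = trace (Y * X) := trace_mul_comm X Y
lemma τg (X : Matrix ι ι A) : M.τ * (M.g * X) = X := by rw [← mul_assoc, M.inv, one_mul]
lemma gτ (X : Matrix ι ι A) : M.g * (M.τ * X) = X := by rw [← mul_assoc, M.inv', one_mul]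

section
variable (φ : A)
def S : Matrix ι ι A := M.τ * M.H2 φ * M.τ
def N : Matrix ι ι A := M.τ * (M.H2 φ * M.τ * M.H2 φ) * M.τ
def u : A := M.L φ + φ
def H : Matrix ι ι A := Matrix.of fun i j => ∑ a, M.τ a i * M.D a (M.gr (M.u φ) j)
def IB : A := ∑ a, ∑ b, M.τ a b * trace (M.τ * (M.d a (M.H2 φ) * (M.τ * M.d b (M.H2 φ))))
def IAB : A := ∑ a, ∑ b, M.τ a b * trace (M.d a M.τ * (M.H2 φ * (M.τ * M.d b (M.H2 φ))))
def Ie : A := ∑ a, ∑ b, M.τ a b * trace (M.H2 φ * (M.d a M.τ * (M.H2 φ * M.d b M.τ)))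
def Ip : A := ∑ a, ∑ b, M.τ a b *
  trace (M.H2 φ * (M.τ * (M.H2 φ * (M.d a M.τ * (M.g * M.d b M.τ)))))
def It : A := trace (M.τ * (M.H2 φ * (M.τ * M.H2 φ)))
def Z (a : ι) : Matrix ι ι A := M.d a (M.H2 φ) + M.d a (M.H2 φ) +
  (M.g * M.d a M.τ * M.H2 φ + M.H2 φ * M.d a M.τ * M.g)

lemma ST : (M.S φ)ᵀ = M.S φ := tr3T M.τT (M.H2T φ) M.τT
lemma NT : (M.N φ)ᵀ = M.N φ := tr3T M.τT (tr3T (M.H2T φ) M.τT (M.H2T φ)) M.τT
lemma HT : (M.H φ)ᵀ = M.H φ := by
  ext i j
  simp only [H, transpose_apply, of_apply, τ_D_gr, M.T1 j i]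
  rw [← tr3T M.τT (M.H2T _) M.τT, transpose_apply, tr3T M.τT (M.H2T _) M.τT]
lemma ZT (a) : (M.Z φ a)ᵀ = M.Z φ a := by
  rw [Z, transpose_add, transpose_add, transpose_add, M.d_T a (M.H2T φ),
    tr3T M.gT (M.d_T a M.τT) (M.H2T φ), tr3T (M.H2T φ) (M.d_T a M.τT) M.gT,
    add_comm (M.H2 φ * _ * _)]

lemma D_u (i) : M.D i (M.u φ) = M.L (M.D i φ) + ∑ a, ∑ b, M.D i (M.τ a b) * M.H2 φ a b := by
  simp only [u, map_add, D_L, H2_apply]; ring
lemma div_S (j) : M.div (fun a => M.S φ a j) = M.gr (M.u φ) j := by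
  have e1 : ∀ a, M.S φ a j = ∑ b, M.τ a b * ∑ c, M.H2 φ b c * M.τ c j := fun a => by
    rw [S, mul_assoc, mul_apply]; rfl
  have e2 : ∑ i, ∑ a, ∑ b, M.τ j i * (M.D i (M.τ a b) * M.D a (M.D b φ)) =
      ∑ b, ∑ c, ∑ a, M.τ a b * (M.D b (M.D c φ) * M.D a (M.τ c j)) := by
    have : ∀ a b, ∑ i, M.τ j i * (M.D i (M.τ a b) * M.D a (M.D b φ)) =
        ∑ i, M.τ i a * (M.D a (M.D b φ) * M.D i (M.τ b j)) := fun a b => by
      have h1 : M.T j a b = M.T a b j := by rw [T1, T2]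
      simp only [T] at h1
      simp only [M.τs j, mul_comm (M.D a (M.D b φ)), ← mul_assoc, ← sum_mul, h1]
    rw [← sum_comm_cycle]
    simp only [this]
  simp only [e1, div_sum, div_mul, div_τ, gr, D_u, mul_add, sum_add_distrib, D_mul,
    mul_sum, L, mul_sub, sum_sub_distrib, H2_apply, neg_mul, sum_neg_distrib]
  have e3 : ∑ b, ∑ c, ∑ a, M.τ a b * (M.D a (M.D b (M.D c φ)) * M.τ c j) =
      ∑ i, ∑ a, ∑ b, M.τ j i * (M.τ a b * M.D a (M.D b (M.D i φ))) := by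
    rw [sum_comm]
    refine sum_congr rfl fun _ _ => ?_
    rw [sum_comm]
    exact sum_congr rfl fun _ _ => sum_congr rfl fun _ _ => by rw [M.τs j]; ring
  have e4 : ∑ b, ∑ c, M.x b * (M.D b (M.D c φ) * M.τ c j) =
      ∑ i, ∑ b, M.τ j i * (M.x b * M.D b (M.D i φ)) := by
    rw [sum_comm]
    exact sum_congr rfl fun _ _ => sum_congr rfl fun _ _ => by rw [M.τs j]; ring
  rw [e2, e3, e4]; ring

lemma E_tr_L (X Y : Matrix ι ι A) (hY : Yᵀ = Y) : M.E (∑ i, ∑ j, X i j * M.L (Y i j)) =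
    - M.E (∑ a, ∑ b, M.τ a b * trace (M.d a X * M.d b Y)) := by
  rw [map_sum]
  simp only [E_sum_L, sum_neg_distrib]
  rw [← map_sum]
  congr 2
  simp only [trace_mul, mul_sum]
  refine perm4 _ _ (fun (i, j, a, b) => (a, b, i, j))
    (fun ⟨_, _, _, _⟩ ⟨_, _, _, _⟩ h => by cases h; rfl) fun i j a b => ?_
  simp only [d_apply]
  rw [← hY, transpose_apply, hY, mul_assoc]

lemma sum_T (F : ι → ι → ι → A) :
    ∑ a, ∑ b, M.τ a b * ∑ c, ∑ d, M.D a (M.τ c d) * F b c d = ∑ b, ∑ c, ∑ d, M.T b c d * F b c d := by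
  simp only [T, mul_sum, sum_mul, mul_assoc]
  rw [sum_comm]
  refine sum_congr rfl fun _ _ => ?_
  rw [← sum_comm_cycle]

lemma claimA : M.E (trace (M.H φ * M.H2 φ)) = - M.E (M.IB φ + M.IAB φ + M.It φ) := by
  have h1 : trace (M.H φ * M.H2 φ) =
      ∑ j, ∑ a, ∑ b, M.τ a b * M.D a (M.gr (M.u φ) j) * M.D b (M.D j φ) := by
    simp only [trace_mul, H, of_apply, sum_mul, H2_apply, M.comm _ _ φ]
    rw [sum_comm]
    refine sum_congr rfl fun _ _ => ?_
    rw [sum_comm]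
    exact sum_congr rfl fun _ _ => sum_congr rfl fun _ _ => by rw [M.comm]
  have h2 := M.E_sum_L (M.gr (M.u φ)) fun j => M.D j φ
  have h3 := M.E_sum_div (fun j a => M.S φ a j) fun j => M.L (M.D j φ)
  have h4 := M.E_tr_L (M.S φ) (M.H2 φ) (M.H2T φ)
  have h5 : ∑ j, ∑ a, M.S φ a j * ∑ c, ∑ d, M.D a (M.τ c d) * M.D c (M.D d (M.D j φ)) = M.IAB φ := by
    have e1 : ∀ a j, M.S φ a j = ∑ b, M.τ a b * (M.H2 φ * M.τ) b j := fun a j => by
      rw [S, mul_assoc, mul_apply]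
    have e2 : M.IAB φ = ∑ b, ∑ c, ∑ d, M.T b c d * ∑ j, (M.H2 φ * M.τ) d j * M.D b (M.H2 φ j c) := by
      rw [← sum_T, IAB]
      simp only [← mul_assoc (M.H2 φ), trace_mul, mul_apply (M := M.H2 φ * M.τ), d_apply]
    have e3 : ∀ j, ∑ a, M.S φ a j * ∑ c, ∑ d, M.D a (M.τ c d) * M.D c (M.D d (M.D j φ)) =
        ∑ b, ∑ c, ∑ d, M.T b c d * ((M.H2 φ * M.τ) b j * M.D c (M.D d (M.D j φ))) := fun j => by
      rw [← sum_T]
      simp only [e1, sum_mul]
      simp only [mul_sum]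
      exact sum_congr rfl fun _ _ => sum_congr rfl fun _ _ => sum_congr rfl fun _ _ =>
        sum_congr rfl fun _ _ => by ring
    simp only [e3]
    simp only [e2, mul_sum]
    refine perm4 _ _ (fun (j, b, c, d) => (c, d, b, j))
      (fun ⟨_, _, _, _⟩ ⟨_, _, _, _⟩ h => by cases h; rfl) fun j b c d => ?_
    simp only [H2_apply]
    rw [M.T1 b, M.T2 c, M.comm j]
  have h6 : ∑ a, ∑ b, M.τ a b * trace (M.d a (M.S φ) * M.d b (M.H2 φ)) =
      M.IB φ + 2 * M.IAB φ := by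
    simp only [S, d_mul, add_mul, trace_add, mul_add, sum_add_distrib, mul_assoc, IB, IAB,
      fun a b => tr4 M.τT (M.H2T φ) (M.d_T a M.τT) (M.d_T b (M.H2T φ))]
    have : ∀ a b, trace (M.d b (M.H2 φ) * (M.d a M.τ * (M.H2 φ * M.τ))) =
        trace (M.d a M.τ * (M.H2 φ * (M.τ * M.d b (M.H2 φ)))) := fun a b => by
      rw [cyc]; simp only [mul_assoc]
    simp only [this]; ring
  have h7 : ∑ j, ∑ a, M.S φ a j * M.D a (M.D j φ) = M.It φ := by
    rw [It, ← mul_assoc, ← mul_assoc, trace_mul, sum_comm]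
    exact sum_congr rfl fun _ _ => sum_congr rfl fun _ _ => by rw [H2_apply, M.comm]; rfl
  rw [h6] at h4
  rw [sum_comm] at h4
  simp only [div_S, D_L, mul_add, mul_sub, sum_add_distrib, sum_sub_distrib, h5, h7, map_add,
    map_sub, mul_comm (M.L _)] at h3
  simp only [H2_apply, map_add, two_mul] at h4
  rw [h1, map_add, map_add]; linarith

lemma V2_eq (i j) : M.D i (M.V j) =
    M.g i j - M.L (M.g i j) - ∑ a, ∑ b, M.D i (M.τ a b) * M.D a (M.g b j) := by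
  have := congrArg (M.D i) (M.eqn j)
  have e1 : ∀ a b, M.D i (M.D a (M.g b j)) = M.D a (M.D b (M.g i j)) := fun a b => by
    rw [M.comm, M.dg i]
  simp only [map_add, map_sub, map_sum, D_mul, map_zero, sum_add_distrib, e1, M.Dx, ite_mul,
    one_mul, zero_mul, sum_ite_eq, mem_univ, if_true, M.dg i] at this
  rw [L]; linear_combination this

lemma claimB : M.E (∑ i, ∑ j, M.D i (M.V j) * M.N φ i j) =
    M.E (M.It φ - M.Ip φ - 2 * M.IAB φ - M.Ie φ) := by
  have hΦ := M.H2T φ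
  have hτ := M.τT
  have h1 := M.E_tr_L (M.N φ) M.g M.gT
  have h2 : ∑ i, ∑ j, M.g i j * M.N φ i j = M.It φ := by
    have : ∑ i, ∑ j, M.g i j * M.N φ i j = trace (M.g * M.N φ) := by
      rw [trace_mul]
      exact sum_congr rfl fun i _ => sum_congr rfl fun j _ => by
        rw [← congrFun (congrFun (M.NT φ) i) j, transpose_apply]
    rw [this, N, It]
    simp only [mul_assoc, gτ]
    rw [cyc M.τ]; simp only [mul_assoc]
  have h3 : ∑ i, ∑ j, (∑ a, ∑ b, M.D i (M.τ a b) * M.D a (M.g b j)) * M.N φ i j = - M.Ip φ := by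
    set P := M.H2 φ * M.τ * M.H2 φ
    have hP : Pᵀ = P := tr3T hΦ hτ hΦ
    have e1 : ∀ i j, M.N φ i j = ∑ k, M.τ i k * (P * M.τ) k j := fun i j => by
      rw [N, mul_assoc, mul_apply]
    have e2 : - M.Ip φ = ∑ b, ∑ c, ∑ d, M.T b c d * ∑ j, M.D b (M.g d j) * (P * M.τ) c j := by
      rw [← sum_T, Ip, ← sum_neg_distrib]
      refine sum_congr rfl fun a _ => ?_
      rw [← sum_neg_distrib]
      refine sum_congr rfl fun b _ => ?_
      rw [← mul_neg, ← trace_neg, M.dτ b]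
      simp only [mul_neg, neg_neg, mul_assoc, gτ]
      congr 1
      rw [← mul_assoc M.τ, ← mul_assoc (M.H2 φ), ← mul_assoc (M.H2 φ), cyc, mul_assoc, mul_assoc,
        trace_mul]
      refine sum_congr rfl fun c _ => sum_congr rfl fun d _ => ?_
      rw [d_apply, mul_apply]
      congr 1
      refine sum_congr rfl fun j _ => ?_
      rw [d_apply, ← transpose_apply (M.τ * _), transpose_mul, hP, hτ]
    have e3 : ∀ j, ∑ i, (∑ a, ∑ b, M.D i (M.τ a b) * M.D a (M.g b j)) * M.N φ i j =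
        ∑ k, ∑ a, ∑ b, M.T k a b * (M.D a (M.g b j) * (P * M.τ) k j) := fun j => by
      rw [← sum_T]
      simp only [e1, sum_mul, mul_sum]
      refine sum_congr rfl fun _ _ => sum_congr rfl fun _ _ => sum_congr rfl fun _ _ =>
        sum_congr rfl fun _ _ => by ring
    rw [sum_comm]
    simp only [e2, e3, mul_sum]
    refine perm4 _ _ (fun (j, k, a, b) => (a, k, b, j))
      (fun ⟨_, _, _, _⟩ ⟨_, _, _, _⟩ h => by cases h; rfl) fun j k a b => ?_
    simp only [M.T1 k]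
  have h4 : ∑ a, ∑ b, M.τ a b * trace (M.d a (M.N φ) * M.d b M.g) =
      - (2 * M.Ip φ + 2 * M.IAB φ + M.Ie φ) := by
    have e1 : ∀ a b, trace (M.d a (M.N φ) * M.d b M.g) = - (
        trace (M.H2 φ * (M.τ * (M.H2 φ * (M.d b M.τ * (M.g * M.d a M.τ))))) +
        trace (M.H2 φ * (M.τ * (M.H2 φ * (M.d a M.τ * (M.g * M.d b M.τ))))) +
        2 * trace (M.d b M.τ * (M.H2 φ * (M.τ * M.d a (M.H2 φ)))) +
        trace (M.H2 φ * (M.d a M.τ * (M.H2 φ * M.d b M.τ)))) := fun a b => by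
      have : trace (M.d a (M.N φ) * M.d b M.g) =
          - trace (M.g * (M.d a (M.N φ) * (M.g * M.d b M.τ))) := by
        rw [M.dg' b, mul_neg, trace_neg, ← mul_assoc, cyc]
      rw [this]
      simp only [N, d_mul, add_mul, mul_add, trace_add, mul_assoc, gτ, τg]
      rw [tr4 (M.d_T a hΦ) hτ hΦ (M.d_T b hτ), ← mul_assoc M.g, cyc (M.g * _),
        cyc (M.d b M.τ) (M.H2 φ * _)]
      simp only [mul_assoc]; ring
    have e2 : ∀ F : ι → ι → A, ∑ a, ∑ b, M.τ a b * F b a = ∑ a, ∑ b, M.τ a b * F a b := fun F => by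
      rw [sum_comm]; exact sum_congr rfl fun _ _ => sum_congr rfl fun _ _ => by rw [M.τs]
    simp only [e1, mul_neg, mul_add, sum_neg_distrib, sum_add_distrib, mul_left_comm _ (2 : A),
      ← mul_sum]
    rw [e2 fun a b => trace (M.H2 φ * (M.τ * (M.H2 φ * (M.d a M.τ * (M.g * M.d b M.τ))))),
      e2 fun a b => trace (M.d a M.τ * (M.H2 φ * (M.τ * M.d b (M.H2 φ))))]
    simp only [Ip, IAB, Ie]; ring
  simp only [V2_eq, sub_mul, sum_sub_distrib, h2, h3, mul_comm (M.L _), map_sub, h1, h4, map_neg,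
    map_add, two_mul]
  ring

lemma claimZ : ∑ a, ∑ b, M.τ a b * trace (M.τ * (M.Z φ a * (M.τ * M.Z φ b))) =
    4 * M.IB φ + 8 * M.IAB φ + 2 * M.Ie φ + 2 * M.Ip φ := by
  have hΦ := M.H2T φ
  have hτ := M.τT
  have e1 : ∀ a b, trace (M.τ * (M.Z φ a * (M.τ * M.Z φ b))) =
      4 * trace (M.τ * (M.d a (M.H2 φ) * (M.τ * M.d b (M.H2 φ)))) +
      4 * trace (M.d b M.τ * (M.H2 φ * (M.τ * M.d a (M.H2 φ)))) +
      4 * trace (M.d a M.τ * (M.H2 φ * (M.τ * M.d b (M.H2 φ)))) +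
      2 * trace (M.H2 φ * (M.d a M.τ * (M.H2 φ * M.d b M.τ))) +
      trace (M.H2 φ * (M.τ * (M.H2 φ * (M.d b M.τ * (M.g * M.d a M.τ))))) +
      trace (M.H2 φ * (M.τ * (M.H2 φ * (M.d a M.τ * (M.g * M.d b M.τ))))) := fun a b => by
    simp only [Z, add_mul, mul_add, trace_add, mul_assoc, gτ, τg]
    have c1 : trace (M.τ * (M.d a (M.H2 φ) * (M.d b M.τ * M.H2 φ))) =
        trace (M.d b M.τ * (M.H2 φ * (M.τ * M.d a (M.H2 φ)))) := by
      rw [← mul_assoc, cyc]; simp only [mul_assoc]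
    have c2 : trace (M.τ * (M.d a (M.H2 φ) * (M.τ * (M.H2 φ * (M.d b M.τ * M.g))))) =
        trace (M.d b M.τ * (M.H2 φ * (M.τ * M.d a (M.H2 φ)))) := by
      rw [cyc]; simp only [mul_assoc, M.inv', mul_one]
      exact tr4 (M.d_T a hΦ) hτ hΦ (M.d_T b hτ)
    have c3 : trace (M.τ * (M.H2 φ * (M.d a M.τ * M.d b (M.H2 φ)))) =
        trace (M.d a M.τ * (M.H2 φ * (M.τ * M.d b (M.H2 φ)))) := by
      rw [tr4 hτ hΦ (M.d_T a hτ) (M.d_T b hΦ), cyc]; simp only [mul_assoc]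
    have c4 : trace (M.d a M.τ * (M.H2 φ * (M.d b M.τ * M.H2 φ))) =
        trace (M.H2 φ * (M.d a M.τ * (M.H2 φ * M.d b M.τ))) := by
      rw [cyc (M.H2 φ)]; simp only [mul_assoc]
    have c5 : trace (M.d a M.τ * (M.H2 φ * (M.τ * (M.H2 φ * (M.d b M.τ * M.g))))) =
        trace (M.H2 φ * (M.τ * (M.H2 φ * (M.d b M.τ * (M.g * M.d a M.τ))))) := by
      rw [cyc]; simp only [mul_assoc]
    have c6 : trace (M.τ * (M.H2 φ * (M.d a M.τ * (M.g * (M.d b M.τ * M.H2 φ))))) =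
        trace (M.H2 φ * (M.τ * (M.H2 φ * (M.d a M.τ * (M.g * M.d b M.τ))))) := by
      rw [cyc (M.H2 φ)]; simp only [mul_assoc]
    have c7 : trace (M.τ * (M.H2 φ * (M.d a M.τ * (M.H2 φ * (M.d b M.τ * M.g))))) =
        trace (M.H2 φ * (M.d a M.τ * (M.H2 φ * M.d b M.τ))) := by
      rw [cyc]; simp only [mul_assoc, M.inv', mul_one]
    rw [c1, c2, c3, c4, c5, c6, c7]; ring
  have e2 : ∀ F : ι → ι → A, ∑ a, ∑ b, M.τ a b * F b a = ∑ a, ∑ b, M.τ a b * F a b := fun F => by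
    rw [sum_comm]; exact sum_congr rfl fun _ _ => sum_congr rfl fun _ _ => by rw [M.τs]
  simp only [e1, mul_add, sum_add_distrib, mul_left_comm _ (2 : A), mul_left_comm _ (4 : A),
    ← mul_sum]
  rw [e2 fun a b => trace (M.H2 φ * (M.τ * (M.H2 φ * (M.d a M.τ * (M.g * M.d b M.τ))))),
    e2 fun a b => trace (M.d a M.τ * (M.H2 φ * (M.τ * M.d b (M.H2 φ))))]
  simp only [Ip, IAB, Ie, IB]; ring
end

end MM
end Vale.Agent.P227
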