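import Vale.Agent.P227.Scheme

open scoped ContDiff Topology
open Filter Set MeasureTheory
noncomputable section
namespace Vale.Agent.P227
variable {n : ℕ}

def HP (m : Fin n → E n) (t : ℝ) (x : E n) (F : ℝ → Sm n) (c : ℝ) : Prop :=
  ∃ c', HasDerivAt (fun s => F s x) c' t ∧
    c = ∑ i, D (m i) (D (m i) (F t)) x - rad (F t) x - c'

namespace HP
variable {m : Fin n → E n} {t : ℝ} {x : E n} {F G : ℝ → Sm n} {c d : ℝ}
lemma unique (h : HP m t x F c) (h' : HP m t x F d) : c = d := by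
  obtain ⟨a, h1, rfl⟩ := h
  obtain ⟨b, h2, rfl⟩ := h'
  rw [h1.unique h2]
lemma congr (h : HP m t x F c) (h' : c = d) : HP m t x F d := h' ▸ h
lemma add (h : HP m t x F c) (h' : HP m t x G d) : HP m t x (fun s => F s + G s) (c + d) := by
  obtain ⟨a, h1, rfl⟩ := h
  obtain ⟨b, h2, rfl⟩ := h'
  exact ⟨a + b, h1.add h2, by simp [Finset.sum_add_distrib]; ring⟩
lemma cst (a : ℝ) : HP m t x (fun _ => cst a) 0 := ⟨0, hasDerivAt_const _ _, by simp [P227.cst]⟩
lemma mul (h : HP m t x F c) (h' : HP m t x G d) : HP m t x (fun s => F s * G s)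
    (F t x * d + G t x * c + 2 * ∑ i, D (m i) (F t) x * D (m i) (G t) x) := by
  obtain ⟨a, h1, rfl⟩ := h
  obtain ⟨b, h2, rfl⟩ := h'
  refine ⟨a * G t x + F t x * b, h1.mul h2, ?_⟩
  simp only [D_mul, map_add, Sm.add_apply, Sm.mul_apply, Finset.sum_add_distrib, rad_apply,
    ← Finset.mul_sum, ← Finset.sum_mul]
  ring
lemma sum {ι : Type*} (s : Finset ι) {F : ι → ℝ → Sm n} {c : ι → ℝ}
    (h : ∀ j ∈ s, HP m t x (F j) (c j)) : HP m t x (fun r => ∑ j ∈ s, F j r) (∑ j ∈ s, c j) := by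
  classical
  induction s using Finset.induction with
  | empty => simpa [P227.cst] using cst (m := m) (t := t) (x := x) 0
  | insert a s ha ih =>
    simp only [Finset.sum_insert ha]
    exact (h a (Finset.mem_insert_self _ _)).add (ih fun j hj => h j (Finset.mem_insert_of_mem hj))
end HP

lemma max_Sm {g : Sm n} {x : E n} (h : ∀ y, g y ≤ g x) (v : E n) :
    D v g x = 0 ∧ D v (D v g) x ≤ 0 := by
  have h1 : D v g x = 0 := by
    have : IsLocalMax (fun u : ℝ => g (x + u • v)) 0 :=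
      Eventually.of_forall fun u => by simpa using h _
    simpa using this.hasDerivAt_eq_zero (hasDerivAt_line g x v 0)
  refine ⟨h1, le_of_not_gt fun h2 => ?_⟩
  have h3 := (hasDerivAt_line (D v g) x v 0).tendsto_slope_zero_right
  simp only [zero_add, zero_smul, add_zero, h1, sub_zero, smul_eq_mul] at h3
  obtain ⟨δ, hδ, h4⟩ := (mem_nhdsGT_iff_exists_Ioo_subset).1 (h3.eventually (lt_mem_nhds h2))
  obtain ⟨ξ, hξ, h5⟩ := exists_hasDerivAt_eq_slope (fun u : ℝ => g (x + u • v))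
    (fun u => D v g (x + u • v)) hδ
    (fun u _ => (hasDerivAt_line g x v u).continuousAt.continuousWithinAt)
    fun u _ => hasDerivAt_line g x v u
  have h6 : 0 < ξ⁻¹ * D v g (x + ξ • v) := h4 hξ
  have h7 := (mul_pos_iff_of_pos_left (inv_pos.2 hξ.1)).1 h6
  rw [h5, sub_zero, div_pos_iff_of_pos_right hδ] at h7
  simp at h7; linarith [h (x + δ • v)]

def nsq : Sm n := ∑ a, X a * X a
lemma nsq_apply (x : E n) : nsq x = ‖x‖ ^ 2 := by rw [normsq_eq]; simp [nsq, sq]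
lemma D_nsq (v : E n) : D v nsq = ∑ a, (2 * v a) • X a := by
  ext x; simp [nsq, D_X]; exact Finset.sum_congr rfl fun _ _ => by ring
lemma D_nsq_apply (v x : E n) : D v nsq x = 2 * ∑ a, v a * x a := by
  simp [D_nsq, Finset.mul_sum, mul_assoc]
lemma DD_nsq (v w : E n) : D w (D v nsq) = cst (2 * ∑ a, v a * w a) := by
  ext x; simp [D_nsq, D_X, Finset.mul_sum, mul_assoc]
lemma sum_mul_self (v : E n) : ∑ a, v a * v a = ‖v‖ ^ 2 := by rw [normsq_eq]; simp [sq]

theorem maxP {F : ℝ → Sm n} (hF : Uc F) {T K C B : ℝ} (hC : 0 ≤ C) (hb : ∀ t x, F t x ≤ B)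
    (h0 : ∀ x, F 0 x ≤ K) (hP : ∀ t ∈ Ioo 0 T, ∀ x, K < F t x →
      ∃ m c, ∑ i, ‖m i‖ ^ 2 ≤ C ∧ HP m t x F c ∧ 0 ≤ c) :
    ∀ t ∈ Ico 0 T, ∀ x, F t x ≤ K := by
  intro t1 ht1 x1
  by_contra hK
  rw [not_le] at hK
  obtain ⟨ε, hε, h1⟩ : ∃ ε, 0 < ε ∧ K < F t1 x1 - ε * (‖x1‖ ^ 2 + (2 * C + 1) * t1) := by
    have h2 : 0 ≤ ‖x1‖ ^ 2 + (2 * C + 1) * t1 := by have := ht1.1; positivity
    refine ⟨(F t1 x1 - K) / (‖x1‖ ^ 2 + (2 * C + 1) * t1 + 1), div_pos (by linarith) (by linarith),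
      ?_⟩
    rw [div_mul_eq_mul_div, lt_sub_comm, div_lt_iff₀ (by linarith)]
    nlinarith
  set G : ℝ × E n → ℝ := fun p => F p.1 p.2 - ε * (‖p.2‖ ^ 2 + (2 * C + 1) * p.1)
  have hG : Continuous G := hF.continuous.sub (by fun_prop)
  set R := ‖x1‖ + |B - K| / ε + 1
  have hR0 : 0 ≤ |B - K| / ε := by positivity
  obtain ⟨⟨t0, x0⟩, ⟨ht0, -⟩, hm⟩ := ((isCompact_Icc (a := 0) (b := t1)).prod
    (isCompact_closedBall (0 : E n) R)).exists_isMaxOn
    ⟨(t1, x1), ⟨ht1.1, le_rfl⟩, by simp [R]; linarith⟩ hG.continuousOn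
  have h2 : K < G (t0, x0) := h1.trans_le (hm (a := (t1, x1)) ⟨⟨ht1.1, le_rfl⟩, by
    simp [R]; linarith⟩)
  have hm' : ∀ s ∈ Icc 0 t1, ∀ y, G (s, y) ≤ G (t0, x0) := by
    intro s hs y
    by_cases hy : ‖y‖ ≤ R
    · exact hm ⟨hs, by simpa using hy⟩
    rw [not_le] at hy
    have a1 : 1 ≤ ‖y‖ := by linarith [norm_nonneg x1]
    have a2 : |B - K| / ε ≤ ‖y‖ ^ 2 := by nlinarith [norm_nonneg x1]
    rw [div_le_iff₀ hε] at a2
    have a3 : 0 ≤ ε * ((2 * C + 1) * s) := by have := hs.1; positivity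
    have := hb s y
    have := le_abs_self (B - K)
    simp only [G] at *; linarith
  have h3 : K < F t0 x0 := by
    have : 0 ≤ ε * (‖x0‖ ^ 2 + (2 * C + 1) * t0) := by have := ht0.1; positivity
    simp only [G] at h2; linarith
  have h4 : 0 < t0 := lt_of_le_of_ne ht0.1 (by rintro rfl; linarith [h0 x0])
  obtain ⟨m, c, a1, ⟨c', a2, rfl⟩, a3⟩ := hP t0 ⟨h4, ht0.2.trans_lt ht1.2⟩ x0 h3
  have b1 : ε * (2 * C + 1) ≤ c' := by
    have d1 := (hasDerivAt_iff_tendsto_slope.1 a2).mono_left (nhdsLT_le_nhdsNE t0)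
    refine ge_of_tendsto d1 ?_
    filter_upwards [Ioo_mem_nhdsLT h4] with s hs
    have := hm' s ⟨hs.1.le, hs.2.le.trans ht0.2⟩ x0
    rw [slope_def_field, le_div_iff_of_neg (by linarith [hs.2])]
    simp only [G] at this; linarith
  have b2 := fun v => max_Sm (g := F t0 - ε • nsq) (x := x0) (fun y => by
    have := hm' t0 ht0 y
    simp only [G, Sm.sub_apply, Sm.smul_apply, nsq_apply] at *; linarith) v
  have b3 := (b2 x0).1
  have b4 := Finset.sum_le_sum fun i (_ : i ∈ Finset.univ) => (b2 (m i)).2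
  simp only [map_sub, Derivation.map_smul, Sm.sub_apply, Sm.smul_apply, D_nsq_apply, DD_nsq,
    sum_mul_self, cst_apply, Finset.sum_sub_distrib, ← Finset.mul_sum, Finset.sum_const_zero]
    at b3 b4
  rw [rad_apply] at a3
  nlinarith [sq_nonneg ‖x0‖]

lemma sum4_swap {ι M : Type*} [Fintype ι] [AddCommMonoid M] (f : ι → ι → ι → ι → M) :
    ∑ i, ∑ j, ∑ a, ∑ b, f i j a b = ∑ a, ∑ b, ∑ i, ∑ j, f i j a b := by
  rw [Finset.sum_comm_cycle]
  refine Finset.sum_congr rfl fun a _ => ?_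
  rw [Finset.sum_comm_cycle]

def Lin (F : E n → Sm n) : Prop := ∀ u, F u = ∑ a, u a • F (e a)
def Bil (B : E n → E n → Sm n) : Prop := ∀ u v, B u v = ∑ a, ∑ b, (u a * v b) • B (e a) (e b)
lemma lin_D (f : Sm n) : Lin fun u => D u f := fun u => D_eq_sum u f
lemma Lin.D {F : E n → Sm n} (h : Lin F) (v) : Lin fun u => D v (F u) := fun u => by
  beta_reduce; rw [h u]; simp
lemma Lin.mul {F G : E n → Sm n} (h : Lin F) (h' : Lin G) : Bil fun u v => F u * G v := fun u v => by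
  beta_reduce; rw [h u, h' v, Finset.sum_mul_sum]; simp [smul_smul, mul_comm]
lemma bil_DD (f : Sm n) : Bil fun u v => D u (D v f) := fun u v => by
  ext x; rw [DD_eq]; simp
def ctr (τ : Fin n → Fin n → Sm n) (m : Fin n → E n) (B : E n → E n → Sm n) : Sm n :=
  ∑ i, ∑ j, τ i j * B (m i) (m j)
lemma Bil.ctr {B : E n → E n → E n → E n → Sm n} (h : ∀ w w', Bil fun u v => B u v w w') (τ m) :
    Bil fun u v => ctr τ m (B u v) := fun u v => by
  simp only [P227.ctr, h _ _ u v, Finset.mul_sum, Finset.smul_sum, mul_smul_comm]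
  exact sum4_swap _
lemma Bil.inv {B : E n → E n → Sm n} (h : Bil B) {τ σ : Fin n → Fin n → Sm n} {m : Fin n → E n}
    (hm : ∀ a b, τ a b = ∑ i, ∑ j, (m i a * m j b) • σ i j) : P227.ctr τ e B = P227.ctr σ m B := by
  simp only [P227.ctr, h (m _) (m _), hm, Finset.mul_sum, Finset.sum_mul, mul_smul_comm,
    smul_mul_assoc]
  exact sum4_swap _

structure Fr (φ : Sm n) (x : E n) (m : Fin n → E n) (N : Fin n → Fin n → ℝ) : Prop where
  h1 : ∀ a b, tau φ a b x = ∑ i, m i a * m i b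
  h2 : ∀ a b, ∑ i, m i a * N i b = if a = b then 1 else 0
  h3 : ∀ i j, ∑ a, N i a * m j a = if i = j then 1 else 0

lemma Ad.frame {a b} {φ : Sm n} (h : Ad a b φ) (x) : ∃ m N, Fr φ x m N := by
  obtain ⟨M, hM⟩ := P227.frame (fun i j => tau φ i j x) (fun i j => by rw [tau_symm])
    (h.tau_nonneg x)
  set N := M.transpose * Matrix.of fun i j => gm φ i j x
  have h1 : M * N = 1 := by
    ext i j
    rw [← Matrix.mul_assoc, Matrix.mul_apply, Matrix.one_apply, ← h.tau_mul i j x]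
    simp [Matrix.mul_apply, hM]
  have h2 := mul_eq_one_comm.1 h1
  refine ⟨fun i => WithLp.toLp 2 fun a => M a i, N, hM, fun a b => ?_, fun i j => ?_⟩
  · simpa [Matrix.mul_apply, Matrix.one_apply] using congrFun (congrFun h1 a) b
  · simpa [Matrix.mul_apply, Matrix.one_apply] using congrFun (congrFun h2 i) j

namespace Fr
variable {φ : Sm n} {x : E n} {m : Fin n → E n} {N : Fin n → Fin n → ℝ} (f : Fr φ x m N)
include f

lemma ctr_eq {B : E n → E n → Sm n} (h : Bil B) : ctr (tau φ) e B x = ∑ i, B (m i) (m i) x := by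
  simp only [ctr, h (m _) (m _), Sm.sum_apply, Sm.mul_apply, Sm.smul_apply, f.h1, Finset.sum_mul]
  rw [Finset.sum_comm_cycle]
lemma LT_eq (w : Sm n) : LT φ w x = ∑ i, D (m i) (D (m i) w) x := f.ctr_eq (bil_DD w)
lemma quad (ξ : Fin n → ℝ) :
    ∑ a, ∑ b, tau φ a b x * ξ a * ξ b = ∑ i, (∑ a, m i a * ξ a) ^ 2 := by
  simp only [f.h1, Finset.sum_mul, sq, Finset.mul_sum]
  rw [Finset.sum_comm_cycle]
  refine Finset.sum_congr rfl fun _ _ => Finset.sum_congr rfl fun _ _ =>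
    Finset.sum_congr rfl fun _ _ => by ring
lemma sum_sq {a b} (h : Ad a b φ) : ∑ i, ‖m i‖ ^ 2 ≤ n / a := by
  have h1 : ∀ c, a * tau φ c c x ≤ 1 := fun c => by
    simpa [e_apply] using (h.tau_bounds x (e c)).2
  simp only [normsq_eq]
  rw [Finset.sum_comm, le_div_iff₀ h.pos, Finset.sum_mul]
  refine (Finset.sum_le_sum (g := fun _ => 1) fun c _ => ?_).trans (by simp)
  have := h1 c
  rw [f.h1] at this
  simpa [sq, mul_comm] using this
lemma norm_le {a b} (h : Ad a b φ) (i) : ‖m i‖ ≤ √(n / a) :=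
  Real.le_sqrt_of_sq_le ((Finset.single_le_sum (f := fun i => ‖m i‖ ^ 2) (fun _ _ => sq_nonneg _)
    (Finset.mem_univ i)).trans (f.sum_sq h))
lemma grad_lo {a b} (h : Ad a b φ) (g : Sm n) :
    ∑ c, D (e c) g x ^ 2 ≤ b * ∑ i, D (m i) g x ^ 2 := by
  have := (h.tau_bounds x (WithLp.toLp 2 fun c => D (e c) g x)).1
  rw [f.quad, normsq_eq] at this
  simpa [D_eq_sum (m _)] using this

omit f in
def tt (N : Fin n → Fin n → ℝ) (ψ : Sm n) (i j : Fin n) : Sm n :=
  ∑ a, ∑ b, (N i a * N j b) • tau ψ a b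
omit f in
lemma tt_symm (ψ : Sm n) (i j) : tt N ψ i j = tt N ψ j i := by
  rw [tt, tt, Finset.sum_comm]
  exact Finset.sum_congr rfl fun _ _ => Finset.sum_congr rfl fun _ _ => by rw [tau_symm, mul_comm]
lemma tau_eq (ψ : Sm n) (a b) : tau ψ a b = ∑ i, ∑ j, (m i a * m j b) • tt N ψ i j := by
  simp only [tt, Finset.smul_sum, smul_smul]
  rw [sum4_swap]
  have : ∀ c d, ∑ i, ∑ j, (m i a * m j b * (N i c * N j d)) • tau ψ c d =
      ((∑ i, m i a * N i c) * ∑ j, m j b * N j d) • tau ψ c d := fun c d => by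
    rw [Finset.sum_mul_sum]; simp only [Finset.sum_smul, mul_mul_mul_comm]
  simp [this, f.h2, ite_smul]
lemma tt_pt (i j) : tt N φ i j x = if i = j then 1 else 0 := by
  simp only [tt, Sm.sum_apply, Sm.smul_apply, f.h1, Finset.mul_sum]
  rw [Finset.sum_comm_cycle]
  have : ∀ k, ∑ a, ∑ b, N i a * N j b * (m k a * m k b) =
      (∑ a, N i a * m k a) * ∑ b, N j b * m k b := fun k => by
    rw [Finset.sum_mul_sum]; simp only [mul_mul_mul_comm]
  simp [this, f.h3]
lemma tt_mul {a b} {ψ : Sm n} (h : Ad a b ψ) (i k) :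
    ∑ j, tt N ψ i j * D (m j) (D (m k) ψ) = if i = k then 1 else 0 := by
  ext y
  have e1 : ∀ b, ∑ j, N j b * D (m j) (D (m k) ψ) y = ∑ d, m k d * gm ψ b d y := fun b => by
    simp only [DD_eq ψ (m _), Finset.mul_sum]
    rw [Finset.sum_comm_cycle]
    refine Finset.sum_congr rfl fun d _ => ?_
    rw [Finset.sum_comm]
    have : ∀ c, ∑ j, N j b * (m j c * m k d * D (e c) (D (e d) ψ) y) =
        (∑ j, m j c * N j b) * (m k d * gm ψ c d y) := fun c => by
      rw [Finset.sum_mul]; exact Finset.sum_congr rfl fun _ _ => by simp only [gm]; ring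
    simp [this, f.h2]
  have e2 : ∀ a, ∑ b, tau ψ a b y * ∑ d, m k d * gm ψ b d y = m k a := fun a => by
    simp only [Finset.mul_sum]
    rw [Finset.sum_comm]
    have : ∀ d, ∑ b, tau ψ a b y * (m k d * gm ψ b d y) =
        m k d * ∑ b, tau ψ a b y * gm ψ b d y := fun d => by
      rw [Finset.mul_sum]; exact Finset.sum_congr rfl fun _ _ => by ring
    simp [this, h.tau_mul]
  calc _ = ∑ a, N i a * ∑ b, tau ψ a b y * ∑ j, N j b * D (m j) (D (m k) ψ) y := by
        simp only [tt, Sm.sum_apply, Sm.mul_apply, Sm.smul_apply, Finset.mul_sum, Finset.sum_mul]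
        rw [← Finset.sum_comm_cycle]
        refine Finset.sum_congr rfl fun _ _ => Finset.sum_congr rfl fun _ _ =>
          Finset.sum_congr rfl fun _ _ => by ring
    _ = _ := by
        simp only [e1, e2, f.h3]; split_ifs <;> rfl
lemma LT_tt (ψ w : Sm n) : LT ψ w = ∑ i, ∑ j, tt N ψ i j * D (m i) (D (m j) w) :=
  (bil_DD w).inv (f.tau_eq ψ)
lemma expand {a b} (h : Ad a b φ) (u : E n) :
    ∃ c : Fin n → ℝ, u = ∑ i, c i • m i ∧ ∑ i, c i ^ 2 ≤ b * ‖u‖ ^ 2 := by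
  have e1 : u = ∑ i, (∑ a, N i a * u a) • m i := by
    ext c
    simp only [Finset.sum_smul, WithLp.ofLp_sum, Finset.sum_apply, PiLp.smul_apply, smul_eq_mul]
    rw [Finset.sum_comm]
    have : ∀ d, ∑ i, N i d * u d * m i c = (∑ i, m i c * N i d) * u d := fun d => by
      rw [Finset.sum_mul]; exact Finset.sum_congr rfl fun _ _ => by ring
    simp [this, f.h2]
  refine ⟨_, e1, le_trans (le_of_eq ?_) (h.hi u x)⟩
  have e2 : ∀ j k, D (m j) (D (m k) φ) x = if j = k then 1 else 0 := fun j k => by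
    have := congrArg (fun g : Sm n => g x) (f.tt_mul h j k)
    simp only [Sm.sum_apply, Sm.mul_apply, f.tt_pt] at this
    split_ifs at this ⊢ <;> simpa using this
  conv_rhs => rw [e1]
  simp [D_sum_dir, D_smul_dir, e2, sq]
end Fr

end Vale.Agent.P227
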