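import Vale.Agent.P227.Exist

open scoped ContDiff Topology ENNReal
open Filter Set MeasureTheory
noncomputable section
namespace Vale.Agent.P227
variable {n : ℕ}

def Gr (f : Sm n) : Sm n := ∑ a, D (e a) f * D (e a) f
lemma Gr_nn (f : Sm n) (x) : 0 ≤ Gr f x := by
  simp only [Gr, Sm.sum_apply, Sm.mul_apply]; exact Finset.sum_nonneg fun _ _ => mul_self_nonneg _
lemma T1.gr {f : Sm n} (h : T1 f) : T1 (Gr f) := T1.sum _ fun _ _ => (h.D _).mul (h.D _)
lemma sq_D_le (f : Sm n) (v z) : D v f z ^ 2 ≤ ‖v‖ ^ 2 * Gr f z := by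
  have := Finset.sum_mul_sq_le_sq_mul_sq Finset.univ (fun a => v a) fun a => D (e a) f z
  rw [D_eq_sum, normsq_eq]
  simpa [Gr, sq] using this

lemma half_seg (f : Sm n) (x v : E n) : (f (x + (1 / 2 : ℝ) • v) - f x) ^ 2 ≤
    ∫ s in Ioc (0 : ℝ) (1 / 2), ‖v‖ ^ 2 * Gr f (x + s • v) := by
  have c1 : Continuous fun s : ℝ => D v f (x + s • v) := (D v f).cont.comp (by fun_prop)
  have c2 : Continuous fun s : ℝ => ‖v‖ ^ 2 * Gr f (x + s • v) :=
    continuous_const.mul ((Gr f).cont.comp (by fun_prop))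
  have h1 := intervalIntegral.integral_eq_sub_of_hasDerivAt (a := 0) (b := 1 / 2)
    (fun t _ => hasDerivAt_line f x v t) (c1.intervalIntegrable _ _)
  simp only [zero_smul, add_zero] at h1
  set A := f (x + (1 / 2 : ℝ) • v) - f x
  have h2 := intervalIntegral.integral_mono_on (μ := volume) (a := 0) (b := 1 / 2) (by norm_num)
    ((continuous_const.mul c1).intervalIntegrable _ _ (u := fun s => 2 * A * D v f (x + s • v)))
    ((continuous_const.add c2).intervalIntegrable _ _
      (u := fun s => A ^ 2 + ‖v‖ ^ 2 * Gr f (x + s • v))) fun s _ => by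
      nlinarith [sq_D_le f v (x + s • v), sq_nonneg (A - D v f (x + s • v))]
  rw [intervalIntegral.integral_const_mul, h1, intervalIntegral.integral_add (by simp)
    (c2.intervalIntegrable _ _), intervalIntegral.integral_const,
    intervalIntegral.integral_of_le (by norm_num)] at h2
  simp only [smul_eq_mul] at h2
  nlinarith [sq_nonneg A]

lemma int_exp_le {c A : ℝ} (hc : 0 < c) :
    ∫ s in Ioc (0 : ℝ) (1 / 2), A * Real.exp (-c * s * A) ≤ c⁻¹ := by
  rw [← intervalIntegral.integral_of_le (by norm_num),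
    intervalIntegral.integral_eq_sub_of_hasDerivAt (f := fun s => -c⁻¹ * Real.exp (-c * s * A))
    (fun t _ => ((((hasDerivAt_id t).const_mul (-c)).mul_const A).exp.const_mul _).congr_deriv
      (by simp; field_simp)) (Continuous.intervalIntegrable (by fun_prop) _ _)]
  simp; positivity

lemma lint_aff {F : E n → ℝ≥0∞} (hF : Measurable F) (y : E n) {s : ℝ} (hs : s ∈ Ioc (0 : ℝ) (1 / 2)) :
    ∫⁻ x, F (x + s • (y - x)) ≤ ENNReal.ofReal (2 ^ n) * ∫⁻ z, F z := by
  have h0 : 1 / 2 ≤ 1 - s := by linarith [hs.2]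
  have : ∀ x, x + s • (y - x) = (1 - s) • x + s • y := fun x => by module
  simp only [this]
  rw [← lintegral_map (f := fun x => F (x + s • y)) (by fun_prop) (by fun_prop),
    Measure.map_addHaar_smul _ (by linarith), lintegral_smul_measure, lintegral_add_right_eq_self,
    smul_eq_mul, finrank_euclideanSpace_fin, ← inv_pow, abs_of_pos (by positivity)]
  gcongr
  rw [inv_le_comm₀ (by linarith) two_pos]; linarith

section
variable {V : Sm n} {α : ℝ} (hα : 0 < α) (h : ∀ w z, α * ‖w‖ ^ 2 ≤ D w (D w V) z) (he : Ev V)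
include hα h he

lemma wt_le (x y : E n) {s : ℝ} (hs : s ∈ Ioc (0 : ℝ) (1 / 2)) :
    ‖y - x‖ ^ 2 * (Real.exp (-V x) * Real.exp (-V y)) ≤
      ‖x + s • (y - x) - y‖ ^ 2 * Real.exp (-(α / 4) * s * ‖x + s • (y - x) - y‖ ^ 2) *
      (4 * Real.exp (-(V y / 2 + V 0 / 2)) * Real.exp (-V (x + s • (y - x)))) := by
  have h0 := hs.1
  have h1 := hs.2
  have a1 := sconv h x y (s := s) ⟨h0.le, by linarith⟩
  have a2 : ∀ z, V 0 ≤ V z := fun z => le_trans (by simp; positivity) (ev_lo h he z)
  have a3 : ‖x + s • (y - x) - y‖ ^ 2 = (1 - s) ^ 2 * ‖y - x‖ ^ 2 := by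
    rw [show x + s • (y - x) - y = (s - 1) • (y - x) by module, norm_smul, mul_pow, Real.norm_eq_abs,
      sq_abs]; ring
  rw [a3]
  set r := ‖y - x‖ ^ 2
  have hr : 0 ≤ r := sq_nonneg _
  calc _ ≤ (4 * ((1 - s) ^ 2 * r)) * Real.exp (-(α / 4) * s * ((1 - s) ^ 2 * r) +
        -(V y / 2 + V 0 / 2) + -V (x + s • (y - x))) := by
        rw [← Real.exp_add]
        refine mul_le_mul (by nlinarith [mul_nonneg hr (show 0 ≤ 4 * (1 - s) ^ 2 - 1 by nlinarith)])
          (Real.exp_le_exp.2 ?_) (Real.exp_pos _).le (by positivity)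
        have b1 := mul_le_mul_of_nonneg_left (a2 x) h0.le
        have b2 := mul_le_mul_of_nonneg_left (a2 y) (sub_nonneg.2 h1)
        have b3 : 0 ≤ α * s * r * ((1 - s) * (1 + s)) := by
          have : 0 ≤ 1 - s := by linarith
          positivity
        nlinarith
    _ = _ := by rw [Real.exp_add, Real.exp_add]; ring

lemma pstep (f : Sm n) (y : E n) : ∫⁻ x, ENNReal.ofReal ((f (x + (1 / 2 : ℝ) • (y - x)) - f x) ^ 2 *
    (Real.exp (-V x) * Real.exp (-V y))) ≤
    ENNReal.ofReal (2 ^ n * (α / 4)⁻¹ * (4 * Real.exp (-(V y / 2 + V 0 / 2)))) *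
      ∫⁻ z, ENNReal.ofReal (Gr f z * Real.exp (-V z)) := by
  have c1 := V.cont
  have c2 := (Gr f).cont
  have c3 := Gr_nn f
  set B := 4 * Real.exp (-(V y / 2 + V 0 / 2))
  set K : ℝ → E n → ℝ≥0∞ := fun s z => ENNReal.ofReal (‖z - y‖ ^ 2 *
    Real.exp (-(α / 4) * s * ‖z - y‖ ^ 2) * (B * (Gr f z * Real.exp (-V z)))) with hK
  calc _ ≤ ∫⁻ x, ∫⁻ s in Ioc (0 : ℝ) (1 / 2), K s (x + s • (y - x)) := by
        refine lintegral_mono fun x => (ENNReal.ofReal_le_ofReal (mul_le_mul_of_nonneg_right
          (half_seg f x (y - x)) (by positivity))).trans ?_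
        rw [← integral_mul_const, ofReal_integral_eq_lintegral_ofReal
          (Continuous.integrableOn_Ioc (by fun_prop))
          (Eventually.of_forall fun s => by have := c3 (x + s • (y - x)); simp only [Pi.zero_apply]; positivity)]
        refine setLIntegral_mono' measurableSet_Ioc fun s hs => ENNReal.ofReal_le_ofReal ?_
        have := mul_le_mul_of_nonneg_right (wt_le hα h he x y hs) (c3 (x + s • (y - x)))
        linarith
    _ = ∫⁻ s in Ioc (0 : ℝ) (1 / 2), ∫⁻ x, K s (x + s • (y - x)) :=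
        lintegral_lintegral_swap (Measurable.aemeasurable (by simp only [hK]; fun_prop))
    _ ≤ ∫⁻ s in Ioc (0 : ℝ) (1 / 2), ENNReal.ofReal (2 ^ n) * ∫⁻ z, K s z :=
        setLIntegral_mono' measurableSet_Ioc fun s hs =>
          lint_aff (by simp only [hK]; fun_prop) y hs
    _ = ENNReal.ofReal (2 ^ n) * ∫⁻ z, ∫⁻ s in Ioc (0 : ℝ) (1 / 2), K s z := by
        rw [lintegral_const_mul' _ _ ENNReal.ofReal_ne_top, lintegral_lintegral_swap
          (Measurable.aemeasurable (by simp only [hK]; fun_prop))]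
    _ ≤ ENNReal.ofReal (2 ^ n) * ∫⁻ z, ENNReal.ofReal ((α / 4)⁻¹ * B) *
          ENNReal.ofReal (Gr f z * Real.exp (-V z)) := by
        gcongr with z
        have := c3 z
        rw [← ofReal_integral_eq_lintegral_ofReal (Continuous.integrableOn_Ioc (by fun_prop))
          (Eventually.of_forall fun s => by simp only [Pi.zero_apply]; positivity),
          ← ENNReal.ofReal_mul (by positivity), integral_mul_const, mul_assoc (α / 4)⁻¹]
        exact ENNReal.ofReal_le_ofReal (mul_le_mul_of_nonneg_right (int_exp_le (by positivity))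
          (by positivity))
    _ = _ := by
        rw [lintegral_const_mul' _ _ ENNReal.ofReal_ne_top, ← mul_assoc,
          ← ENNReal.ofReal_mul (by positivity), ← mul_assoc]

theorem poincare : ∃ C, 0 ≤ C ∧ ∀ f, T1 f →
    WI V (f * f) - WI V f ^ 2 / WI V 1 ≤ C * WI V (Gr f) := by
  have c1 := V.cont
  have hc : Coer V := ⟨α / 2, by linarith, -V 0, fun x => by linarith [ev_lo h he x]⟩
  have hZ := WI_pos hc
  set B : E n → ℝ := fun y => 2 ^ n * (α / 4)⁻¹ * (4 * Real.exp (-(V y / 2 + V 0 / 2)))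
  have hB : Integrable B := by
    have := integrable_w (F := fun _ => 1) (U := fun y => V y / 2 + V 0 / 2) continuous_const
      (by fun_prop) ⟨α / 4, by linarith, -V 0, fun x => by linarith [ev_lo h he x]⟩ 1 0 (by simp)
    simp only [one_mul] at this
    exact (this.const_mul _).const_mul _
  have hB0 : ∀ y, 0 ≤ B y := fun y => by positivity
  have hI : 0 ≤ ∫ y, B y := integral_nonneg hB0
  refine ⟨4 * (∫ y, B y) / WI V 1, by positivity, fun f hf => ?_⟩
  have c2 := f.cont
  have hG : 0 ≤ WI V (Gr f) := WI_nonneg (Gr_nn f)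
  set v := WI V (f * f) - WI V f ^ 2 / WI V 1
  rcases le_total v 0 with hv | hv
  · exact hv.trans (by positivity)
  set A : E n → E n → ℝ≥0∞ := fun x y => ENNReal.ofReal ((f (x + (1 / 2 : ℝ) • (y - x)) - f x) ^ 2 *
    (Real.exp (-V x) * Real.exp (-V y))) with hA
  have two : ∀ t, 2 * ENNReal.ofReal t = ENNReal.ofReal (2 * t) := fun t => by
    rw [ENNReal.ofReal_mul (by norm_num), ENNReal.ofReal_ofNat]
  have a1 : ∀ y, ENNReal.ofReal (v * ((1 : Sm n) y * Real.exp (-V y))) ≤
      2 * (∫⁻ x, A x y) + 2 * ∫⁻ x, A y x := by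
    intro y
    have t1 := hf.sub (T1.cst (f y))
    have b1 : v ≤ WI V ((f - cst (f y)) * (f - cst (f y))) := by
      rw [show (f - cst (f y)) * (f - cst (f y)) = f * f - (2 * f y) • f + cst (f y ^ 2) by
        ext; simp; ring, WI_add hc ((hf.mul hf).sub (hf.smul _)) (T1.cst _),
        WI_sub hc (hf.mul hf) (hf.smul _), WI_smul, WI_cst]
      have : 0 ≤ (WI V f - f y * WI V 1) ^ 2 / WI V 1 := by positivity
      have e1 : (WI V f - f y * WI V 1) ^ 2 / WI V 1 =
        WI V f ^ 2 / WI V 1 - 2 * f y * WI V f + f y ^ 2 * WI V 1 := by field_simp; ring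
      simp only [v]; linarith
    refine (ENNReal.ofReal_le_ofReal (mul_le_mul_of_nonneg_right b1 (by simp; positivity))).trans ?_
    rw [WI, ← integral_mul_const, ofReal_integral_eq_lintegral_ofReal
      (((t1.mul t1).int hc).mul_const _) (Eventually.of_forall fun x => by
        have := mul_self_nonneg ((f - cst (f y) : Sm n) x)
        simp only [Pi.zero_apply, Sm.mul_apply, Sm.one_apply]; positivity),
      ← lintegral_const_mul' _ _ (by simp), ← lintegral_const_mul' _ _ (by simp),
      ← lintegral_add_left (by simp only [hA]; fun_prop)]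
    refine lintegral_mono fun x => ?_
    simp only [hA]
    rw [two, two, ← ENNReal.ofReal_add (by positivity) (by positivity),
      show y + (1 / 2 : ℝ) • (x - y) = x + (1 / 2 : ℝ) • (y - x) by module]
    refine ENNReal.ofReal_le_ofReal ?_
    have := mul_nonneg (sq_nonneg (2 * f (x + (1 / 2 : ℝ) • (y - x)) - f x - f y))
      (mul_pos (Real.exp_pos (-V x)) (Real.exp_pos (-V y))).le
    simp only [Sm.mul_apply, Sm.sub_apply, cst_apply, Sm.one_apply]
    linarith
  have a2 : ∫⁻ y, ∫⁻ x, A x y ≤ ENNReal.ofReal ((∫ y, B y) * WI V (Gr f)) := by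
    refine (lintegral_mono fun y => pstep hα h he f y).trans (le_of_eq ?_)
    rw [← ofReal_integral_eq_lintegral_ofReal (hf.gr.int hc) (Eventually.of_forall fun x =>
      mul_nonneg (Gr_nn f x) (Real.exp_pos _).le), lintegral_mul_const' _ _ ENNReal.ofReal_ne_top,
      ← ofReal_integral_eq_lintegral_ofReal hB (Eventually.of_forall hB0),
      ← ENNReal.ofReal_mul hI]
    rfl
  have mA : Measurable (Function.uncurry A) := by simp only [hA]; fun_prop
  have a3 := lintegral_mono (μ := volume) a1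
  rw [lintegral_add_left (mA.lintegral_prod_left.const_mul _), lintegral_const_mul' _ _ (by simp),
    lintegral_const_mul' _ _ (by simp), lintegral_lintegral_swap (f := A) mA.aemeasurable,
    ← ofReal_integral_eq_lintegral_ofReal ((T1.one.int hc).const_mul v)
      (Eventually.of_forall fun x => by simp only [Pi.zero_apply, Sm.one_apply]; positivity),
    integral_const_mul] at a3
  have a4 := a3.trans (add_le_add (mul_le_mul_right a2 2) (mul_le_mul_right a2 2))
  rw [two, ← ENNReal.ofReal_add (by positivity) (by positivity),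
    ENNReal.ofReal_le_ofReal_iff (by positivity)] at a4
  rw [div_mul_eq_mul_div, le_div_iff₀ hZ]
  change v * WI V 1 ≤ _ at a4
  linarith
end

end Vale.Agent.P227
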