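import Vale.Agent.P227.LogZ

open scoped ContDiff Topology
open Filter Set MeasureTheory
noncomputable section
namespace Vale.Agent.P227
variable {n : ℕ}

def Qk (θ : ℝ) (χ : Sm n) (w : E n) (u : ℝ) : Sm n :=
  (3 / 2 * (1 - u) ^ 2) • (af 1 ((θ * u) • w) χ + af 1 (-(θ * u) • w) χ)
def Q (θ : ℝ) (ψ : Sm n) (w : E n) : Sm n :=
  intK (volume.restrict (Ioc 0 1)) (Qk θ (D w (D w ψ)) w)

lemma Qk_apply (θ : ℝ) (χ : Sm n) (w u z) : Qk θ χ w u z =
    3 / 2 * (1 - u) ^ 2 * (χ (z + (θ * u) • w) + χ (z + -(θ * u) • w)) := by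
  simp only [Qk, Sm.smul_apply, Sm.add_apply, af_apply, one_smul]
lemma DM_Qk (θ : ℝ) (χ : Sm n) (w u s) : DM s (Qk θ χ w u) = Qk θ (DM s χ) w u := by
  simp [Qk, DM_af]

lemma ker_Qk (θ : ℝ) (χ : Sm n) (w : E n) : Ker (volume.restrict (Ioc 0 1)) (Qk θ χ w) := by
  refine ⟨fun z => Continuous.measurable ?_, fun k R => ?_⟩
  · simp only [Qk_apply]; have := χ.cont; fun_prop
  obtain ⟨C, hC⟩ := χ.locBd k (R + |θ| * ‖w‖)
  refine ⟨fun _ => 3 / 2 * (C + C), integrable_const _,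
    ae_restrict_of_forall_mem measurableSet_Ioc fun u hu z hz s hs hU => ?_⟩
  have h1 : ∀ c : ℝ, |c| ≤ |θ| → ‖z + c • w‖ ≤ R + |θ| * ‖w‖ := fun c hc =>
    (norm_add_le _ _).trans (add_le_add hz (by rw [norm_smul, Real.norm_eq_abs]; gcongr))
  have h2 : |θ * u| ≤ |θ| := by
    rw [abs_mul, abs_of_pos hu.1]; exact mul_le_of_le_one_right (abs_nonneg _) hu.2
  have a1 := hC _ (h1 _ h2) s hs hU
  have a2 := hC _ (h1 (-(θ * u)) (by rwa [abs_neg])) s hs hU
  rw [DM_Qk, Qk_apply, abs_mul, abs_of_nonneg (by positivity)]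
  have : (1 - u) ^ 2 ≤ 1 := pow_le_one₀ (by linarith [hu.2]) (by linarith [hu.1])
  refine mul_le_mul (by linarith) ((abs_add_le _ _).trans (add_le_add a1 a2)) (abs_nonneg _)
    (by norm_num)

lemma Q_apply (θ : ℝ) (ψ : Sm n) (w z) : Q θ ψ w z = ∫ u in (0 : ℝ)..1, 3 / 2 * (1 - u) ^ 2 *
    (D w (D w ψ) (z + (θ * u) • w) + D w (D w ψ) (z + -(θ * u) • w)) := by
  rw [Q, (ker_Qk _ _ _).apply, intervalIntegral.integral_of_le zero_le_one]
  simp only [Qk_apply]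
lemma DM_Q (θ : ℝ) (ψ : Sm n) (w s) : DM s (Q θ ψ w) = Q θ (DM s ψ) w := by
  ext z
  rw [Q, (ker_Qk _ _ _).DM_int, Q, (ker_Qk _ _ _).apply]
  simp only [DM_Qk, DM_D]
lemma D_Q (θ : ℝ) (ψ : Sm n) (w v) : D v (Q θ ψ w) = Q θ (D v ψ) w := DM_Q θ ψ w {v}

lemma DD_eq (ψ : Sm n) (v w y : E n) :
    D v (D w ψ) y = ∑ a, ∑ b, v a * w b * D (e a) (D (e b) ψ) y := by
  rw [D_eq_sum v, D_eq_sum w]
  simp [Finset.mul_sum, mul_assoc]

lemma DD_cont (ψ : Sm n) : Continuous fun p : E n × E n => D p.1 (D p.1 ψ) p.2 := by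
  have e1 : (fun p : E n × E n => D p.1 (D p.1 ψ) p.2) =
      fun p => ∑ a, ∑ b, p.1 a * p.1 b * D (e a) (D (e b) ψ) p.2 :=
    funext fun p => DD_eq ψ _ _ _
  rw [e1]
  have : ∀ a b, Continuous (D (e a) (D (e b) ψ)) := fun a b => Sm.cont _
  fun_prop

lemma Q_cont (θ : ℝ) (ψ : Sm n) (z) : Continuous fun w => Q θ ψ w z := by
  simp only [Q_apply]
  refine intervalIntegral.continuous_parametric_intervalIntegral_of_continuous' ?_ _ _
  unfold Function.uncurry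
  refine Continuous.mul (by fun_prop) (Continuous.add ?_ ?_)
  · exact (DD_cont ψ).comp (f := fun p : E n × ℝ => (p.1, z + (θ * p.2) • p.1)) (by fun_prop)
  · exact (DD_cont ψ).comp (f := fun p : E n × ℝ => (p.1, z + -(θ * p.2) • p.1)) (by fun_prop)

lemma int_wt : ∫ u in (0 : ℝ)..1, 3 * (1 - u) ^ 2 = 1 := by
  have := intervalIntegral.integral_eq_sub_of_hasDerivAt (a := 0) (b := 1)
    (f := fun u : ℝ => -(1 - u) ^ 3) (f' := fun u => 3 * (1 - u) ^ 2) (fun u _ => by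
      have := (((hasDerivAt_id u).const_sub 1).fun_pow 3).fun_neg
      refine this.congr_deriv ?_
      simp) (Continuous.intervalIntegrable (by fun_prop) _ _)
  simpa using this

lemma Q_le (θ : ℝ) (ψ : Sm n) (w z) (M : ℝ) (h : ∀ c : ℝ, |c| ≤ |θ| → D w (D w ψ) (z + c • w) ≤ M) :
    Q θ ψ w z ≤ M := by
  rw [Q_apply]
  have := (D w (D w ψ)).cont
  calc _ ≤ ∫ u in (0 : ℝ)..1, 3 * (1 - u) ^ 2 * M := by
        refine intervalIntegral.integral_mono_on zero_le_one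
          (Continuous.intervalIntegrable (by fun_prop) _ _)
          (Continuous.intervalIntegrable (by fun_prop) _ _) fun u hu => ?_
        have h2 : |θ * u| ≤ |θ| := by
          rw [abs_mul, abs_of_nonneg hu.1]; exact mul_le_of_le_one_right (abs_nonneg _) hu.2
        have a1 := h _ h2
        have a2 := h (-(θ * u)) (by rwa [abs_neg])
        nlinarith [sq_nonneg (1 - u)]
    _ = M := by rw [intervalIntegral.integral_mul_const, int_wt, one_mul]
lemma Q_neg (θ : ℝ) (ψ : Sm n) (w z) : Q θ (-ψ) w z = - Q θ ψ w z := by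
  rw [Q_apply, Q_apply, ← intervalIntegral.integral_neg]
  congr 1; ext u; simp; ring
lemma le_Q (θ : ℝ) (ψ : Sm n) (w z) (M : ℝ) (h : ∀ c : ℝ, |c| ≤ |θ| → M ≤ D w (D w ψ) (z + c • w)) :
    M ≤ Q θ ψ w z := by
  have := Q_le θ (-ψ) w z (-M) fun c hc => by simpa using h c hc
  rw [Q_neg] at this; linarith

lemma Bd.DD {ψ : Sm n} {M k} (h : Bd (k + 2) ψ M) (w y) :
    BdAt k (D w (D w ψ)) y (M * ‖w‖ ^ 2) := by
  have := ((h y).D w).D w
  rwa [mul_assoc, ← sq] at this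

lemma Bd.Q {ψ : Sm n} {M k} (h : Bd (k + 2) ψ M) (θ w z) :
    BdAt k (Q θ ψ w) z (M * ‖w‖ ^ 2) := by
  intro s hs hu
  rw [DM_Q, abs_le]
  have h1 : ∀ y, |D w (D w (DM s ψ)) y| ≤ M * ‖w‖ ^ 2 := fun y => by
    have := h.DD w y s hs hu
    rwa [DM_D, DM_D] at this
  exact ⟨le_Q _ _ _ _ _ fun c _ => (abs_le.1 (h1 _)).1, Q_le _ _ _ _ _ fun c _ => (abs_le.1 (h1 _)).2⟩

lemma Q_cons {ψ : Sm n} {M} (h : Bd 3 ψ M) (θ w z) :
    |Q θ ψ w z - D w (D w ψ) z| ≤ M * |θ| * (1 + ‖w‖) ^ 3 := by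
  have h1 : ∀ c : ℝ, |c| ≤ |θ| →
      |D w (D w ψ) (z + c • w) - D w (D w ψ) z| ≤ M * |θ| * (1 + ‖w‖) ^ 3 := fun c hc => by
    refine abs_sub_le_line _ _ _ _ fun t _ => ?_
    refine (((Bd.DD (k := 1) h w _).D (c • w)).zero).trans ?_
    rw [norm_smul, Real.norm_eq_abs]
    have := h.nonneg
    calc _ = M * |c| * ‖w‖ ^ 3 := by ring
      _ ≤ _ := by gcongr; simp
  rw [abs_le]
  constructor
  · have := le_Q θ ψ w z (D w (D w ψ) z - M * |θ| * (1 + ‖w‖) ^ 3) fun c hc => by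
      linarith [(abs_le.1 (h1 c hc)).1]
    linarith
  · have := Q_le θ ψ w z (D w (D w ψ) z + M * |θ| * (1 + ‖w‖) ^ 3) fun c hc => by
      linarith [(abs_le.1 (h1 c hc)).2]
    linarith

lemma hasDerivAt_p (f : Sm n) (θ : ℝ) (z w : E n) (u : ℝ) :
    HasDerivAt (fun u : ℝ => f (z + (θ * u) • w)) (θ * D w f (z + (θ * u) • w)) u := by
  have := (hasDerivAt_line f z w (θ * u)).comp u ((hasDerivAt_id u).const_mul θ)
  refine this.congr_deriv (by ring)
lemma hasDerivAt_m (f : Sm n) (θ : ℝ) (z w : E n) (u : ℝ) :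
    HasDerivAt (fun u : ℝ => f (z + -(θ * u) • w)) (-θ * D w f (z + -(θ * u) • w)) u := by
  simpa only [neg_mul] using hasDerivAt_p f (-θ) z w u

lemma Q_id1 {θ h : ℝ} (hθ : θ ^ 2 = 6 * h) (χ : Sm n) (w z) : h * Q θ χ w z =
    ∫ u in (0 : ℝ)..1, θ / 2 * (1 - u) * (D w χ (z + (θ * u) • w) - D w χ (z + -(θ * u) • w)) := by
  have := (D w χ).cont
  have := (D w (D w χ)).cont
  have h1 := intervalIntegral.integral_eq_sub_of_hasDerivAt (a := 0) (b := 1)
    (f := fun u : ℝ => θ / 4 * (1 - u) ^ 2 * (D w χ (z + (θ * u) • w) - D w χ (z + -(θ * u) • w)))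
    (f' := fun u => h * (3 / 2 * (1 - u) ^ 2 *
      (D w (D w χ) (z + (θ * u) • w) + D w (D w χ) (z + -(θ * u) • w))) -
      θ / 2 * (1 - u) * (D w χ (z + (θ * u) • w) - D w χ (z + -(θ * u) • w))) (fun u _ => by
      have := ((((hasDerivAt_id u).const_sub 1).fun_pow 2).const_mul (θ / 4)).fun_mul
        ((hasDerivAt_p (D w χ) θ z w u).fun_sub (hasDerivAt_m (D w χ) θ z w u))
      refine this.congr_deriv ?_
      have e : h = θ ^ 2 / 6 := by linarith
      simp only [e, id]; ring) (Continuous.intervalIntegrable (by fun_prop) _ _)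
  rw [intervalIntegral.integral_sub (Continuous.intervalIntegrable (by fun_prop) _ _)
    (Continuous.intervalIntegrable (by fun_prop) _ _), intervalIntegral.integral_const_mul,
    ← Q_apply] at h1
  simp only [sub_self, mul_zero, neg_zero, zero_smul, add_zero] at h1
  linarith

lemma Q_id0 {θ h : ℝ} (hθ : θ ^ 2 = 6 * h) (χ : Sm n) (w z) : χ z + h * Q θ χ w z =
    ∫ u in (0 : ℝ)..1, 1 / 2 * (χ (z + (θ * u) • w) + χ (z + -(θ * u) • w)) := by
  have := (D w χ).cont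
  have := χ.cont
  have h1 := intervalIntegral.integral_eq_sub_of_hasDerivAt (a := 0) (b := 1)
    (f := fun u : ℝ => 1 / 2 * (1 - u) * (χ (z + (θ * u) • w) + χ (z + -(θ * u) • w)))
    (f' := fun u => θ / 2 * (1 - u) * (D w χ (z + (θ * u) • w) - D w χ (z + -(θ * u) • w)) -
      1 / 2 * (χ (z + (θ * u) • w) + χ (z + -(θ * u) • w))) (fun u _ => by
      have := (((hasDerivAt_id u).const_sub 1).const_mul (1 / 2)).fun_mul
        ((hasDerivAt_p χ θ z w u).fun_add (hasDerivAt_m χ θ z w u))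
      refine this.congr_deriv ?_
      simp only [id]; ring) (Continuous.intervalIntegrable (by fun_prop) _ _)
  rw [intervalIntegral.integral_sub (Continuous.intervalIntegrable (by fun_prop) _ _)
    (Continuous.intervalIntegrable (by fun_prop) _ _), ← Q_id1 hθ] at h1
  simp only [sub_self, mul_zero, neg_zero, zero_smul, add_zero, zero_mul] at h1
  linarith

lemma pair_norm (a c : E n) (ha : ‖a‖ ≤ 1) : ‖a + c‖ + ‖a - c‖ ≤ 2 + ‖c‖ ^ 2 := by
  have h1 := parallelogram_law_with_norm ℝ a c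
  have := norm_nonneg a
  have h2 : ‖a‖ * ‖a‖ ≤ 1 := by nlinarith
  nlinarith [sq_nonneg (‖a + c‖ - 1), sq_nonneg (‖a - c‖ - 1)]

lemma msum_intervalIntegral {κ : Type*} (t : Multiset κ) (F : κ → ℝ → ℝ)
    (hF : ∀ p, Continuous (F p)) : Continuous (fun u => (t.map fun p => F p u).sum) ∧
    (t.map fun p => ∫ u in (0 : ℝ)..1, F p u).sum = ∫ u in (0 : ℝ)..1, (t.map fun p => F p u).sum := by
  induction t using Multiset.induction with
  | empty => simp [continuous_const]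
  | cons a t ih =>
    simp only [Multiset.map_cons, Multiset.sum_cons]
    refine ⟨(hF a).add ih.1, ?_⟩
    rw [intervalIntegral.integral_add ((hF a).intervalIntegrable _ _) (ih.1.intervalIntegrable _ _),
      ih.2]

lemma core_w {θ h : ℝ} (hθ : θ ^ 2 = 6 * h) {ψ : Sm n} {M : ℝ} {s : Multiset (E n)}
    (hM : Bd s.card ψ M) (hu : Un s) (A : Multiset (Multiset (E n) × Multiset (E n)))
    (hA : ∀ p ∈ A, ∃ a, p.2 = {a} ∧ a ::ₘ p.1 = s) (β : Multiset (E n) → ℝ) (B : ℝ)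
    (hβ : ∀ p ∈ A, |β p.2| ≤ B) (w z) :
    |DM s ψ z + h * Q θ (DM s ψ) w z + (A.map fun p => h * Q θ (DM p.1 ψ) w z * β p.2).sum|
      ≤ M * (1 + 3 * h * A.card ^ 2 * B ^ 2 * ‖w‖ ^ 2) := by
  have hh : 0 ≤ h := by nlinarith [sq_nonneg θ]
  have hM0 := hM.nonneg
  have := (DM s ψ).cont
  have hc : ∀ p : Multiset (E n) × Multiset (E n), Continuous fun u : ℝ => θ / 2 * (1 - u) *
      (D w (DM p.1 ψ) (z + (θ * u) • w) - D w (DM p.1 ψ) (z + -(θ * u) • w)) * β p.2 := by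
    intro p; have := (D w (DM p.1 ψ)).cont; fun_prop
  obtain ⟨c1, c2⟩ := msum_intervalIntegral A _ hc
  simp only [Q_id1 hθ (DM _ ψ), ← intervalIntegral.integral_mul_const]
  rw [← Q_id1 hθ, Q_id0 hθ, c2, ← intervalIntegral.integral_add
    (Continuous.intervalIntegrable (by fun_prop) _ _) (c1.intervalIntegrable _ _)]
  rw [← Real.norm_eq_abs]
  refine (intervalIntegral.norm_integral_le_of_norm_le_const
    (C := M * (1 + 3 * h * A.card ^ 2 * B ^ 2 * ‖w‖ ^ 2)) fun u hu' => ?_).trans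
    (by rw [sub_zero, abs_one, mul_one])
  rw [uIoc_of_le zero_le_one] at hu'
  rw [Real.norm_eq_abs]
  by_cases h0 : A = 0
  · subst h0
    have a1 := hM (z + (θ * u) • w) s rfl hu
    have a2 := hM (z + -(θ * u) • w) s rfl hu
    simp only [Multiset.map_zero, Multiset.sum_zero, add_zero, Multiset.card_zero]
    rw [abs_mul, abs_of_pos (by norm_num)]
    have := abs_add_le (DM s ψ (z + (θ * u) • w)) (DM s ψ (z + -(θ * u) • w))
    simp only [Nat.cast_zero, ne_eq, OfNat.ofNat_ne_zero, not_false_eq_true, zero_pow, mul_zero,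
      zero_mul, add_zero, mul_one]
    linarith
  have hm : (0 : ℝ) < A.card := by exact_mod_cast Multiset.card_pos.2 h0
  have e1 : ∀ Y : ℝ, Y = (A.map fun _ => Y / A.card).sum := by
    intro Y; simp; field_simp
  rw [e1 (1 / 2 * _), ← Multiset.sum_map_add]
  refine (abs_msum_le _ _ (M * (1 + 3 * h * A.card ^ 2 * B ^ 2 * ‖w‖ ^ 2) / A.card)
    fun p hp => ?_).trans (le_of_eq (by field_simp))
  obtain ⟨a, -, ha⟩ := hA p hp
  set κ := A.card * θ * (1 - u) * β p.2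
  have hb : ∀ y v, |D v (DM p.1 ψ) y| ≤ M * ‖v‖ := fun y v =>
    (BdAt.D (k := 0) (BdAt.DM1 (k := 1) (by
      have := hM y; rwa [← ha, Multiset.card_cons, add_comm] at this) (ha ▸ hu).tail) v).zero
  have a1 := hb (z + (θ * u) • w) (a + κ • w)
  have a2 := hb (z + -(θ * u) • w) (a - κ • w)
  have a3 := pair_norm a (κ • w) (ha ▸ hu).head
  have a4 : ‖κ • w‖ ^ 2 ≤ 6 * h * A.card ^ 2 * B ^ 2 * ‖w‖ ^ 2 := by
    rw [norm_smul, mul_pow, Real.norm_eq_abs, sq_abs]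
    gcongr
    have b1 : β p.2 ^ 2 ≤ B ^ 2 := sq_le_sq' (abs_le.1 (hβ p hp)).1 (abs_le.1 (hβ p hp)).2
    have b2 : (1 - u) ^ 2 ≤ 1 := pow_le_one₀ (by linarith [hu'.2]) (by linarith [hu'.1])
    calc κ ^ 2 = 6 * h * A.card ^ 2 * ((1 - u) ^ 2 * β p.2 ^ 2) := by rw [← hθ]; ring
      _ ≤ 6 * h * A.card ^ 2 * (1 * B ^ 2) := by gcongr
      _ = _ := by ring
  rw [D_add_dir, D_smul_dir, ← DM_cons, ha] at a1
  rw [D_sub_dir, D_smul_dir, ← DM_cons, ha] at a2
  simp only [Sm.add_apply, Sm.sub_apply, Sm.smul_apply] at a1 a2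
  rw [le_div_iff₀ hm, ← abs_of_pos hm, ← abs_mul, abs_of_pos hm]
  have e2 : ∀ Y1 Y2 X1 X2 : ℝ, (1 / 2 * (Y1 + Y2) / A.card + θ / 2 * (1 - u) * (X1 - X2) * β p.2)
      * A.card = 1 / 2 * ((Y1 + κ * X1) + (Y2 - κ * X2)) := by
    intros; simp only [κ]; field_simp; ring
  rw [e2, abs_mul, abs_of_pos (by norm_num)]
  have a5 := (abs_add_le _ _).trans (add_le_add a1 a2)
  have a6 : M * ‖a + κ • w‖ + M * ‖a - κ • w‖ ≤
      M * (2 + 6 * h * A.card ^ 2 * B ^ 2 * ‖w‖ ^ 2) := by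
    rw [← mul_add]; exact mul_le_mul_of_nonneg_left (by linarith) hM0
  linarith

lemma msum_integral {κ : Type*} (t : Multiset κ) (F : κ → E n → ℝ)
    (hF : ∀ p, Integrable (F p)) : Integrable (fun u => (t.map fun p => F p u).sum) ∧
    (t.map fun p => ∫ u, F p u).sum = ∫ u, (t.map fun p => F p u).sum := by
  induction t using Multiset.induction with
  | empty => simp
  | cons a t ih =>
    simp only [Multiset.map_cons, Multiset.sum_cons]
    refine ⟨(hF a).add ih.1, ?_⟩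
    rw [integral_add (hF a) ih.1, ih.2]

def Q2 (ψ : Sm n) : Prop := ∀ k, ∃ M, Bd (k + 2) ψ M
lemma Q2.DM {ψ : Sm n} (h : Q2 ψ) (s) : Q2 (DM s ψ) := fun k => by
  obtain ⟨M, hM⟩ := h (k + s.card)
  exact ⟨_, fun x => BdAt.DM s (by have := hM x; rwa [add_right_comm] at this)⟩
lemma Q2.D {ψ : Sm n} (h : Q2 ψ) (v) : Q2 (D v ψ) := h.DM {v}
lemma Q2.polK {ψ : Sm n} (h : Q2 ψ) (θ) : PolK (Q θ ψ) :=
  ⟨fun z => (Q_cont θ ψ z).measurable, fun k => by
    obtain ⟨M, hM⟩ := h k; exact ⟨M, fun w z => hM.Q θ w z⟩⟩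

lemma core {a b : ℝ} {q : E n → Sm n} (hq : Adm a b q) {θ h : ℝ} (hθ : θ ^ 2 = 6 * h)
    {ψ : Sm n} (hψ : Q2 ψ) {M : ℝ} {s : Multiset (E n)}
    (hM : Bd s.card ψ M) (hu : Un s) (A : Multiset (Multiset (E n) × Multiset (E n)))
    (hA : ∀ p ∈ A, ∃ a, p.2 = {a} ∧ a ::ₘ p.1 = s) (z) (B : ℝ)
    (hG : BdAt 1 (G q) z B) (hq1 : ∀ w, BdAt 1 (q w) z (B * ‖w‖ ^ 2)) :
    |DM s ψ z + h * (∫ w, Q θ (DM s ψ) w z * om q w z) +
      h * ∫ w, (A.map fun p => Q θ (DM p.1 ψ) w z * DM p.2 (om q w) z).sum|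
      ≤ M * (1 + h * A.card ^ 2 * B ^ 2 *
        (3 * (Z0 n (|b| + 1))⁻¹ * ∫ w : E n, pg 6 (a / 2) w)) := by
  have hh : 0 ≤ h := by nlinarith [sq_nonneg θ]
  have hM0 := hM.nonneg
  have hB := hG.nonneg
  have hZ := Z0_pos (n := n) (b := |b| + 1) (by positivity)
  obtain ⟨i1, -⟩ := msum_integral A (fun p w => Q θ (DM p.1 ψ) w z * DM p.2 (om q w) z)
    fun p => hq.int_mul_DM ((hψ.DM _).polK θ) _ z
  have i2 := hq.int_mul_DM ((hψ.DM s).polK θ) 0 z
  simp only [DM_zero] at i2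
  have i3 := (hq.om_int z).const_mul (DM s ψ z)
  have e0 : DM s ψ z = ∫ w, DM s ψ z * om q w z := by
    rw [integral_const_mul, hq.om_integral, mul_one]
  rw [e0, ← integral_const_mul, ← integral_const_mul, ← integral_add i3 (i2.const_mul _),
    ← integral_add (by exact i3.add (i2.const_mul _)) (i1.const_mul _)]
  have i4 := (integrable_pg (n := n) (a := a / 2) (by linarith [hq.pos]) 6).const_mul
    (M * (h * A.card ^ 2 * B ^ 2 * (3 * (Z0 n (|b| + 1))⁻¹)))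
  rw [← Real.norm_eq_abs]
  refine (norm_integral_le_of_norm_le (((hq.om_int z).const_mul M).add i4)
    (Eventually.of_forall fun w => ?_)).trans (le_of_eq ?_)
  swap
  · simp only [Pi.add_apply]
    rw [integral_add ((hq.om_int z).const_mul M) i4, integral_const_mul, integral_const_mul,
      hq.om_integral]; ring
  have := core_w hθ hM hu A hA (fun t => DM t ((1 / 2 : ℝ) • (G q - q w)) z) (B * (1 + ‖w‖) ^ 2)
    (fun p hp => by
      obtain ⟨v, hv, hv'⟩ := hA p hp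
      rw [hv]
      refine ((((hG.sub (hq1 w)).smul _).D1 (hv' ▸ hu).head).zero).trans ?_
      rw [abs_of_pos (by norm_num)]
      have := sq_le_w w
      have := one_le_wp w 2
      nlinarith) w z
  have e1 : (A.map fun p => Q θ (DM p.1 ψ) w z * DM p.2 (om q w) z).sum * h =
      (A.map fun p => h * Q θ (DM p.1 ψ) w z * DM p.2 ((1 / 2 : ℝ) • (G q - q w)) z).sum
        * om q w z := by
    rw [← Multiset.sum_map_mul_right, ← Multiset.sum_map_mul_right]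
    congr 1
    refine Multiset.map_congr rfl fun p hp => ?_
    obtain ⟨v, hv, -⟩ := hA p hp
    rw [hv, DM_single, DM_single, Adm.D_om]; simp; ring
  have hp := Adm.om_pos (q := q) w z
  simp only [Pi.add_apply]
  rw [mul_comm h (Multiset.sum _), e1, ← mul_assoc, ← add_mul, ← add_mul, Real.norm_eq_abs, abs_mul,
    abs_of_pos hp]
  refine (mul_le_mul_of_nonneg_right this hp.le).trans ?_
  rw [mul_add, add_mul, mul_one]
  refine add_le_add le_rfl ?_
  have a1 := hq.om_le w z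
  have a2 := sq_le_w w
  rw [show 6 = 6 + 0 from rfl, ← pg_mul]
  calc _ ≤ M * (3 * h * A.card ^ 2 * (B * (1 + ‖w‖) ^ 2) ^ 2 * (1 + ‖w‖) ^ 2) *
        ((Z0 n (|b| + 1))⁻¹ * pg 0 (a / 2) w) := by gcongr
    _ = _ := by ring

end Vale.Agent.P227
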