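import Vale.Agent.P227.Conc

open scoped ContDiff Topology RealInnerProductSpace
open Filter Set MeasureTheory
noncomputable section
namespace Vale.Agent.P227
variable {n : ℕ}

def prim (g : ℝ → ℝ) (s : ℝ) : ℝ := ∫ t in 0..s, g t
lemma deriv_prim {g : ℝ → ℝ} (h : Continuous g) : deriv (prim g) = g :=
  funext fun s => (h.integral_hasStrictDerivAt 0 s).hasDerivAt.deriv
lemma smooth_prim {g : ℝ → ℝ} (h : ContDiff ℝ ∞ g) : ContDiff ℝ ∞ (prim g) :=
  contDiff_infty_iff_deriv.2 ⟨fun s => (h.continuous.integral_hasStrictDerivAt 0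
    s).hasDerivAt.differentiableAt, by rwa [deriv_prim h.continuous]⟩
lemma prim_zero {g : ℝ → ℝ} (h : ∀ s ≤ 1, g s = 0) : ∀ s ≤ 1, prim g s = 0 := fun s hs => by
  rw [prim, intervalIntegral.integral_congr (g := fun _ => 0) fun t ht =>
    h t (ht.2.trans (max_le zero_le_one hs))]; simp
lemma prim_pos {g : ℝ → ℝ} (hc : Continuous g) (h0 : ∀ s, 0 ≤ g s)
    (h : ∀ s, 1 < s → s < 2 → 0 < g s) : ∀ s, 1 < s → 0 < prim g s := fun s hs =>
  intervalIntegral.integral_pos (by linarith) hc.continuousOn (fun t _ => h0 t)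
    ⟨min s (3 / 2), ⟨le_min (by linarith) (by norm_num), min_le_left _ _⟩,
      h _ (lt_min hs (by norm_num)) ((min_le_right _ _).trans_lt (by norm_num))⟩

lemma exists_r : ∃ r : ℝ → ℝ, ContDiff ℝ ∞ r ∧ HasCompactSupport (deriv (deriv r)) ∧
    (∀ s, 0 ≤ deriv (deriv r) s) ∧ (∀ s ≤ 1, r s = 0) ∧ ∀ s, 1 < s → 0 < r s := by
  set b : ℝ → ℝ := fun s => expNegInvGlue (s - 1) * expNegInvGlue (2 - s)
  have b1 : ContDiff ℝ ∞ b := (expNegInvGlue.contDiff.comp (by fun_prop)).mul
    (expNegInvGlue.contDiff.comp (by fun_prop))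
  have b2 : ∀ s, 0 ≤ b s := fun s => mul_nonneg (expNegInvGlue.nonneg _) (expNegInvGlue.nonneg _)
  have b3 : ∀ s ≤ 1, b s = 0 := fun s hs => by simp [b, hs]
  have b4 := prim_pos b1.continuous b2 fun s h1 h2 =>
    mul_pos (expNegInvGlue.pos_of_pos (by linarith)) (expNegInvGlue.pos_of_pos (by linarith))
  have c1 := smooth_prim b1
  refine ⟨prim (prim b), smooth_prim c1, ?_, ?_, prim_zero (prim_zero b3), prim_pos c1.continuous
    (fun s => (le_or_gt s 1).elim (fun h => (prim_zero b3 s h).ge) fun h => (b4 s h).le)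
    fun s h _ => b4 s h⟩ <;> rw [deriv_prim c1.continuous, deriv_prim b1.continuous]
  · refine HasCompactSupport.intro (isCompact_Icc (a := 1) (b := 2)) fun s hs => ?_
    rcases not_and_or.1 hs with h | h <;> simp [b, (not_le.1 h).le]
  · exact b2

def cp (g : ℝ → ℝ) (u : E n) : Sm n := mk fun x => g ⟪u, x⟫
section
variable {g : ℝ → ℝ} (hg : ContDiff ℝ ∞ g) (u : E n)
include hg
lemma cp_fn : (cp g u : E n → ℝ) = fun x => g ⟪u, x⟫ :=
  mk_fn (hg.comp (contDiff_const.inner ℝ contDiff_id))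
lemma smooth_deriv : ContDiff ℝ ∞ (deriv g) := (contDiff_infty_iff_deriv.1 hg).2
lemma D_cp (v) : D v (cp g u) = ⟪u, v⟫ • cp (deriv g) u := by
  ext x
  have := ((contDiff_infty_iff_deriv.1 hg).1 ⟪u, x⟫).hasDerivAt.comp_hasFDerivAt x
    (innerSL ℝ u).hasFDerivAt
  rw [D_apply, cp_fn hg, Sm.smul_apply, cp_fn (smooth_deriv hg)]
  erw [this.fderiv]; simp [mul_comm]
lemma bd_cp {k M} (h : Bd k (cp (deriv g) u) M) : Bd (k + 1) (cp g u) (‖u‖ * M) := by
  intro x s hs hu
  induction s using Multiset.induction with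
  | empty => simp at hs
  | cons v s _ =>
    rw [DM_cons', D_cp hg, map_smul, Sm.smul_apply, abs_mul]
    exact mul_le_mul ((abs_real_inner_le_norm _ _).trans
      (mul_le_of_le_one_right (norm_nonneg _) hu.head)) (h x s (by simpa using hs) hu.tail)
      (abs_nonneg _) (norm_nonneg _)
lemma q2_cp (h : HasCompactSupport (deriv (deriv g))) : Q2 (cp g u) := fun k => by
  have : ∀ g : ℝ → ℝ, ContDiff ℝ ∞ g → HasCompactSupport g → ∃ M, Bd k (cp g u) M := by
    induction k with
    | zero =>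
      intro g h1 h2
      obtain ⟨C, hC⟩ := h2.exists_bound_of_continuous h1.continuous
      exact ⟨C, fun x => bdAt_zero (by rw [cp_fn h1]; exact hC _)⟩
    | succ k ih =>
      intro g h1 h2
      obtain ⟨M, hM⟩ := ih _ (smooth_deriv h1) h2.deriv
      exact ⟨_, bd_cp h1 u hM⟩
  obtain ⟨M, hM⟩ := this _ (smooth_deriv (smooth_deriv hg)) h
  exact ⟨_, bd_cp hg u (bd_cp (smooth_deriv hg) u hM)⟩
lemma q2_rad_cp (h : HasCompactSupport (deriv (deriv g))) : Q2 (rad (cp g u)) := by
  have g1 := smooth_deriv hg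
  have g2 := smooth_deriv g1
  have s1 : ContDiff ℝ ∞ fun s => s * deriv g s := contDiff_id.mul g1
  have e1 : rad (cp g u) = cp (fun s => s * deriv g s) u := by
    ext x; rw [rad_apply, D_cp hg, Sm.smul_apply, cp_fn g1, cp_fn s1]
  have d : ∀ f : ℝ → ℝ, ContDiff ℝ ∞ f → ∀ s, HasDerivAt f (deriv f s) s := fun f hf s =>
    ((contDiff_infty_iff_deriv.1 hf).1 s).hasDerivAt
  have e2 : deriv (fun s => s * deriv g s) = fun s => 1 * deriv g s + s * deriv (deriv g) s :=
    funext fun s => ((hasDerivAt_id s).mul (d _ g1 s)).deriv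
  have e3 : deriv (deriv fun s => s * deriv g s) = (fun _ => 1) * deriv (deriv g) +
      ((fun _ => 1) * deriv (deriv g) + id * deriv (deriv (deriv g))) := by
    rw [e2]
    exact funext fun s => (((d _ g1 s).const_mul 1).add ((hasDerivAt_id s).mul (d _ g2 s))).deriv
  rw [e1]
  exact q2_cp s1 u (by rw [e3]; exact h.mul_left.add (h.mul_left.add h.deriv.mul_left))
lemma cvx_cp (h : ∀ s, 0 ≤ deriv (deriv g) s) (w z) : 0 ≤ D w (D w (cp g u)) z := by
  rw [D_cp hg, Derivation.map_smul, D_cp (smooth_deriv hg), smul_smul, Sm.smul_apply,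
    cp_fn (smooth_deriv (smooth_deriv hg))]
  exact mul_nonneg (mul_self_nonneg _) (h _)
end

lemma q2_quad (α : ℝ) : Q2 (quad α : Sm n) := fun k => by
  cases k with
  | zero => exact ⟨|α|, fun x s hs hu => by
      obtain ⟨v, w, rfl⟩ := Multiset.card_eq_two.1 hs
      have := (abs_real_inner_le_norm v w).trans (mul_le_one₀ (hu v (by simp)) (norm_nonneg _)
        (hu w (by simp)))
      rw [show DM {v, w} (quad α) = D v (D w (quad α)) from DM_cons v {w} _, quad,
        Derivation.map_smul, Derivation.map_smul, DD_nsq, Sm.smul_apply, cst_apply, ← mul_assoc,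
        div_mul_cancel₀ _ two_ne_zero, abs_mul]
      refine mul_le_of_le_one_right (abs_nonneg _) ?_
      simpa [PiLp.inner_apply] using this⟩
  | succ k => exact ⟨0, bd_quad α k⟩

theorem slab (u : ℕ → E n) (a c : ℕ → ℝ) (ha : ∀ i, 0 < a i) {α : ℝ} (hα : 0 < α) {l : ℝ}
    (h0 : 0 ≤ l) (h1 : l ≤ 1) (I : ℝ → ℝ) (hI : ∀ t, I t = ∫ x in
      {x : E n | ∀ i, |⟪u i, x⟫| ≤ a i * Real.exp (c i * t)}, Real.exp (-(α / 2) * ‖x‖ ^ 2)) :
    I 0 ^ (1 - l) * I 1 ^ l ≤ I l := by
  obtain ⟨r, r1, r2, r3, r4, r5⟩ := exists_r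
  have r6 : ∀ s, 0 ≤ r s := fun s => (le_or_gt s 1).elim (fun h => (r4 s h).ge) fun h => (r5 s h).le
  set W : ∀ N : ℕ, Option (Fin N) → Sm n := fun N k => k.elim (quad α) fun i =>
    (N : ℝ) • (cp r ((a i)⁻¹ • u i) + cp r (-((a i)⁻¹ • u i)))
  set U : ℕ → ℝ → Sm n := fun N t =>
    ∑ k : Option (Fin N), af (Real.exp (-(k.elim 0 fun i => c i) * t)) 0 (W N k)
  set y : ℝ → E n → ℕ → ℝ := fun t x i => ⟪u i, x⟫ / (a i * Real.exp (c i * t))
  have e1 : ∀ N t x, U N t x = α / 2 * ‖x‖ ^ 2 + N * ∑ i : Fin N, (r (y t x i) + r (-y t x i)) := by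
    intro N t x
    simp only [U, W, y, Fintype.sum_option, Option.elim, Sm.add_apply, Sm.sum_apply, af_apply,
      Sm.smul_apply, cp_fn r1, quad, nsq_apply, Finset.mul_sum, inner_neg_left, add_zero,
      real_inner_smul_left, real_inner_smul_right, neg_mul, Real.exp_neg]
    simp [div_eq_mul_inv, mul_comm, mul_assoc, mul_left_comm]
  have nn : ∀ (N : ℕ) t x, 0 ≤ N * ∑ i : Fin N, (r (y t x i) + r (-y t x i)) := fun N t x =>
    mul_nonneg N.cast_nonneg (Finset.sum_nonneg fun _ _ => add_nonneg (r6 _) (r6 _))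
  have lim : ∀ t, Tendsto (fun N => WI (U N t) 1) atTop (𝓝 (I t)) := by
    intro t
    rw [hI, ← integral_indicator (by
      rw [ofPred_forall]
      exact MeasurableSet.iInter fun i => (isClosed_le (by fun_prop) (by fun_prop)).measurableSet)]
    refine tendsto_integral_of_dominated_convergence (pg 0 (α / 2))
      (fun N => by have := (U N t).cont; simp only [Sm.one_apply]; fun_prop)
      (integrable_pg (half_pos hα) _)
      (fun N => Eventually.of_forall fun x => ?_) (Eventually.of_forall fun x => ?_)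
    · simp only [Sm.one_apply, one_mul, pg, pow_zero, Real.norm_eq_abs, Real.abs_exp,
        Real.exp_le_exp, e1]
      linarith [nn N t x]
    have hy : ∀ i, |y t x i| ≤ 1 ↔ |⟪u i, x⟫| ≤ a i * Real.exp (c i * t) := fun i => by
      have := mul_pos (ha i) (Real.exp_pos (c i * t))
      rw [abs_div, abs_of_pos this, div_le_one this]
    simp only [Sm.one_apply, one_mul, e1, indicator]
    split_ifs with hx
    · have := fun i => abs_le.1 ((hy i).2 (hx i))
      simp [r4 _ (this _).2, r4 _ (neg_le.1 (this _).1)]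
    · obtain ⟨i, hi⟩ := not_forall.1 hx
      rw [← hy] at hi
      have hp : 0 < r (y t x i) + r (-y t x i) := (lt_abs.1 (not_le.1 hi)).elim
        (fun h => add_pos_of_pos_of_nonneg (r5 _ h) (r6 _))
        fun h => add_pos_of_nonneg_of_pos (r6 _) (r5 _ h)
      refine Real.tendsto_exp_neg_atTop_nhds_zero.comp (tendsto_atTop_add_const_left _ _
        (tendsto_atTop_mono' _ ?_ (tendsto_natCast_atTop_atTop.atTop_mul_const hp)))
      filter_upwards [eventually_gt_atTop i] with N hN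
      exact mul_le_mul_of_nonneg_left (Finset.single_le_sum
        (f := fun i : Fin N => r (y t x i) + r (-y t x i))
        (fun _ _ => add_nonneg (r6 _) (r6 _)) (Finset.mem_univ ⟨i, hN⟩)) N.cast_nonneg
  refine le_of_tendsto_of_tendsto' (((lim 0).rpow_const (Or.inr (by linarith))).mul
    ((lim 1).rpow_const (Or.inr h0))) (lim l) fun N => ?_
  have z : ∀ t, 0 < WI (U N t) 1 := fun t => WI_pos ⟨_, half_pos hα, 0, fun x => by
    rw [e1]; linarith [nn N t x]⟩
  have := (logconc (W := W N) hα (fun k => ?_) (fun k w z => ?_) (fun k x => ?_)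
    (fun k => k.elim 0 fun i => c i) none (fun w z => (DD_quad α w z).ge) rfl fun k hk => ?_).2
    (mem_univ 0) (mem_univ 1) (sub_nonneg.2 h1) h0 (by ring)
  · simp only [smul_eq_mul, mul_zero, mul_one, zero_add] at this
    rw [Real.rpow_def_of_pos (z 0), Real.rpow_def_of_pos (z 1), ← Real.exp_add,
      ← Real.le_log_iff_exp_le (z l)]
    simp only [U, mul_zero, mul_one]
    linarith
  · cases k
    exacts [q2_quad α, ((q2_cp r1 _ r2).add (q2_cp r1 _ r2)).smul _]
  · cases k
    · exact le_of_le_of_eq (by positivity) (DD_quad α w z).symm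
    · simp only [W, Option.elim, Derivation.map_smul, map_add, Sm.smul_apply, Sm.add_apply]
      exact mul_nonneg N.cast_nonneg (add_nonneg (cvx_cp r1 _ r3 _ _) (cvx_cp r1 _ r3 _ _))
  · cases k <;> simp [W, quad, nsq_apply, cp_fn r1, add_comm]
  · cases k
    · exact absurd rfl hk
    · simp only [W, Option.elim, Derivation.map_smul, map_add]
      exact ((q2_rad_cp r1 _ r2).add (q2_rad_cp r1 _ r2)).smul _

end Vale.Agent.P227
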