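import Vale.Agent.P227.Top

open scoped ContDiff Topology
open Filter Set MeasureTheory
noncomputable section
namespace Vale.Agent.P227
variable {n : ℕ}

def Ev (u : Sm n) : Prop := ∀ x, u (-x) = u x
lemma Ev.DM {u : Sm n} (h : Ev u) (s x) : DM s u (-x) = (-1) ^ s.card * DM s u x := by
  have e1 : af (-1) 0 u = u := by ext x; simpa using h x
  conv_rhs => rw [← e1, DM_af]
  simp [← mul_assoc, ← mul_pow]
lemma Ev.D {u : Sm n} (h : Ev u) (v x) : D v u (-x) = - D v u x := by simpa using h.DM {v} x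
lemma Ev.D0 {u : Sm n} (h : Ev u) (v) : P227.D v u 0 = 0 := by
  have := h.D v 0; rw [neg_zero] at this; linarith
lemma Ev.DD {u : Sm n} (h : Ev u) (v w) : Ev (P227.D v (P227.D w u)) := fun x => by
  simpa [DM_cons] using h.DM (v ::ₘ {w}) x
lemma Ev.Q {u : Sm n} (h : Ev u) (θ w) : Ev (Q θ u w) := fun z => by
  rw [Q_apply, Q_apply]
  congr 1; ext t
  rw [← h.DD w w (z + (θ * t) • w), ← h.DD w w (z + -(θ * t) • w), add_comm (P227.D w _ _)]
  congr 3 <;> simp [add_comm]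
lemma Adm.ev_G {a b} {q : E n → Sm n} (h : Adm a b q) (hq : ∀ w, Ev (q w)) : Ev (G q) := fun z => by
  simp only [h.G_apply, ZZ, hq _ z]
lemma Adm.ev_br {a b} {q χ : E n → Sm n} (h : Adm a b q) (hq : ∀ w, Ev (q w)) (hχ : PolK χ)
    (hχ' : ∀ w, Ev (χ w)) : Ev (br q χ) := fun z => by
  simp only [h.br_apply hχ, om, ex_apply, Sm.smul_apply, Sm.sub_apply, h.ev_G hq z, hq _ z, hχ' _ z]

lemma UQ.tm {κ : Type*} {u : κ → Sm n} (h : UQ u) (C : ℝ) (h0 : ∀ i, |u i 0| ≤ C)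
    (h1 : ∀ i, BdAt 1 (u i) 0 C) : Tm u := by
  obtain ⟨M, hM⟩ := h 0
  have key : ∀ i x, BdAt 1 (u i) x ((|C| + |M|) * (1 + ‖x‖)) := by
    intro i x s hs hu
    obtain ⟨v, rfl⟩ := Multiset.card_eq_one.1 hs
    have hv : ‖v‖ ≤ 1 := hu v (by simp)
    have a1 := abs_sub_le_line (D v (u i)) 0 x (M * ‖x‖) fun t _ =>
      (BdAt.D (k := 0) (BdAt.D1 (k := 1) (hM i _) hv) x).zero
    have a2 := (BdAt.D1 (k := 0) (h1 i) hv).zero
    rw [zero_add] at a1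
    have a3 : M * ‖x‖ ≤ |M| * ‖x‖ := by gcongr; exact le_abs_self M
    have := le_abs_self C
    have := abs_nonneg M
    have : 0 ≤ |C| * ‖x‖ := by positivity
    rw [DM_single, abs_le] at *
    constructor <;> nlinarith
  intro k
  match k with
  | 0 =>
    refine ⟨|C| + (|C| + |M|), 2, fun i x => bdAt_zero ?_⟩
    have a1 := abs_sub_le_line (u i) 0 x ((|C| + |M|) * (1 + ‖x‖) * ‖x‖) fun t ht =>
      (BdAt.D (k := 0) (key i _) x).zero.trans (by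
        gcongr; simpa using norm_seg 0 x ht)
    rw [zero_add] at a1
    have a2 := (h0 i).trans (le_abs_self C)
    have a3 : |C| ≤ |C| * (1 + ‖x‖) ^ 2 := le_mul_of_one_le_right (abs_nonneg _) (one_le_wp x 2)
    have a4 : (|C| + |M|) * (1 + ‖x‖) * ‖x‖ ≤ (|C| + |M|) * (1 + ‖x‖) ^ 2 := by
      rw [sq, ← mul_assoc]; gcongr; simp
    rw [abs_le] at a1 a2 ⊢
    constructor <;> linarith
  | 1 => exact ⟨|C| + |M|, 1, fun i x => by simpa using key i x⟩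
  | k + 2 =>
    obtain ⟨M, hM⟩ := h k
    exact ⟨M, 0, fun i x => by simpa using hM i x⟩
lemma Q2.t1 {u : Sm n} (h : Q2 u) : T1 u := by
  obtain ⟨C, hC⟩ := u.locBd 1 0
  exact UQ.tm (u := fun _ : Unit => u) (fun k => by obtain ⟨M, hM⟩ := h k; exact ⟨M, fun _ => hM⟩)
    (max |u 0| C) (fun _ => le_max_left _ _) fun _ => (hC 0 (by simp)).mono (le_max_right _ _)

def BC (m : ℕ → ℝ) : Set (Sm n) := {u | u 0 = 0 ∧ Ev u ∧ ∀ k, Bd (k + 2) u (m k)}
def NC (a b : ℝ) (m : ℕ → ℝ) : Set (Sm n) := {u | u ∈ BC m ∧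
  (∀ w z, a * ‖w‖ ^ 2 ≤ D w (D w u) z) ∧ ∀ w z, D w (D w u) z ≤ b * ‖w‖ ^ 2}
lemma BC.q2 {m} {u : Sm n} (h : u ∈ BC m) : Q2 u := fun k => ⟨_, h.2.2 k⟩
lemma NC.ad {a b m} {u : Sm n} (h : u ∈ NC a b m) (ha : 0 < a) : Ad a b u :=
  ⟨ha, BC.q2 h.1, h.2.1, h.2.2⟩
lemma BC.uq {κ : Type*} {m} {u : κ → Sm n} (h : ∀ i, u i ∈ BC m) : UQ u :=
  fun k => ⟨m k, fun i => (h i).2.2 k⟩
lemma BC.tm {κ : Type*} {m} {u : κ → Sm n} (h : ∀ i, u i ∈ BC m) : Tm u :=
  (BC.uq h).tm 0 (fun i => by simp [(h i).1]) fun i s hs _ => by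
    obtain ⟨v, rfl⟩ := Multiset.card_eq_one.1 hs
    simp [(h i).2.1.D0]
lemma BC.closed (m) : Closed (BC (n := n) m) := fun U u p hu hp =>
  ⟨tendsto_nhds_unique (hp 0 0) (by simp [(hu _).1]),
    fun x => tendsto_nhds_unique (hp 0 (-x)) (by simpa [(hu _).2.1 x] using hp 0 x),
    fun k x s hs hU => le_of_tendsto' (hp s x).abs fun N => (hu N).2.2 k x s hs hU⟩
lemma NC.closed (a b m) : Closed (NC (n := n) a b m) := fun U u p hu hp => by
  have h2 : ∀ w z, Tendsto (fun N => D w (D w (u N)) z) U (𝓝 (D w (D w p) z)) := fun w z => by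
    simpa [DM_cons] using hp (w ::ₘ {w}) z
  exact ⟨BC.closed m U u p (fun N => (hu N).1) hp,
    fun w z => ge_of_tendsto' (h2 w z) fun N => (hu N).2.1 w z,
    fun w z => le_of_tendsto' (h2 w z) fun N => (hu N).2.2 w z⟩

lemma Sch.DM_St (S : Sch n) (h u) (s : Multiset (E n)) (hs : s ≠ 0) (x) :
    DM s (S.St h u) x = (1 + h * S.σ h) * (1 - h) ^ s.card * DM s (u + h • S.Γ h u) ((1 - h) • x)
      + h * DM s S.V x := by
  rw [Sch.St, DM_cen s hs, map_add, map_smul, map_smul, DM_af]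
  simp only [Sm.add_apply, Sm.smul_apply, af_apply, add_zero, mul_assoc]
lemma Sch.bd_St (S : Sch n) {h u k M v} (hh : h ∈ Ioc (0 : ℝ) (1 / 2))
    (hσ : |(1 + h * S.σ h) * (1 - h)| ≤ 1) (h1 : Bd (k + 1) (u + h • S.Γ h u) M)
    (h2 : Bd (k + 1) S.V v) : Bd (k + 1) (S.St h u) (M + h * v) := by
  intro x s hs hu
  rw [S.DM_St h u s (by rintro rfl; simp at hs), hs]
  refine (abs_add_le _ _).trans (add_le_add ?_ ?_)
  · rw [abs_mul, pow_succ', ← mul_assoc, abs_mul, abs_pow]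
    refine (mul_le_of_le_one_left (abs_nonneg _) (mul_le_one₀ hσ (by positivity) (pow_le_one₀
      (abs_nonneg _) (abs_le.2 ⟨by linarith [hh.2], by linarith [hh.1]⟩)))).trans (h1 _ s hs hu)
  · rw [abs_mul, abs_of_pos hh.1]; exact mul_le_mul_of_nonneg_left (h2 _ s hs hu) hh.1.le
lemma Sch.ev_St (S : Sch n) {h u} (h1 : Ev u) (h2 : Ev (S.Γ h u)) (h3 : Ev S.V) :
    Ev (S.St h u) := fun x => by
  simp [Sch.St, h1 _, h2 _, h3 x]
lemma Sch.St_zero (S : Sch n) (h u) : S.St h u 0 = 0 := by rw [Sch.St, cen_apply, sub_self]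

lemma sq_theta {h : ℝ} (hh : 0 ≤ h) : √(6 * h) ^ 2 = 6 * h := Real.sq_sqrt (by linarith)
lemma abs_theta (h : ℝ) : |√(6 * h)| = √6 * √h := by
  rw [abs_of_nonneg (Real.sqrt_nonneg _), Real.sqrt_mul (by norm_num)]
lemma pow_le_exp {h c T : ℝ} {j : ℕ} (hh : 0 ≤ h) (hc : 0 ≤ c) (hj : j * h ≤ T) :
    (1 + h * c) ^ j ≤ Real.exp (c * T) := by
  calc _ ≤ Real.exp (h * c) ^ j := by gcongr; linarith [Real.add_one_le_exp (h * c)]
    _ = Real.exp (c * (j * h)) := by rw [← Real.exp_nat_mul]; ring_nf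
    _ ≤ _ := by gcongr

def SL (p : Sm n) : Sch n := ⟨fun h u => br (q0 p) (Q √(6 * h) u), LT p, fun _ => 0, 0, 0⟩

lemma SL_good {a b} {p : Sm n} (hp : Ad a b p) (m) : (SL p).Good (BC m) where
  tm := BC.tm fun u => u.2
  cl := BC.closed m
  zero u hu := hu.1
  tV := tm_zero
  tΓ := tm_of_bd ((UQ.q0 (φ := fun _ => p) fun k => by
      obtain ⟨M, hM⟩ := hp.q2 k; exact ⟨M, fun _ => hM⟩).bd_br (fun _ => hp.adm0)
    ((BC.uq fun u : Ioc (0 : ℝ) (1 / 2) × BC m => u.2.2).Q _) fun u => (BC.q2 u.2.2).polK _)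
  tΓ0 := by
    simp only [SL, LT]
    exact Tm.sum _ fun i _ => Tm.sum _ fun j _ => (UQ.tm_tau (φ := fun _ => p) (fun _ => hp)
      (fun k => by obtain ⟨M, hM⟩ := hp.q2 k; exact ⟨M, fun _ => hM⟩) i j).mul
      (((BC.tm fun u : BC m => u.2).D _).D _)
  cons x := by
    refine ⟨m 1 * √6 * (Z0 n (|b| + 1))⁻¹ * ∫ w : E n, pg 3 (a / 2) w, fun h hh u hu => ?_⟩
    have h2 := BC.q2 hu
    simp only [SL]
    rw [← hp.int_q0, hp.adm0.br_apply (h2.polK _),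
      ← integral_sub (hp.adm0.int_mul (h2.polK _) x) (hp.adm0.int_mul h2.polK0 x)]
    refine (abs_int_le (a := a / 2) (by linarith [hp.pos])
      (m 1 * √6 * (Z0 n (|b| + 1))⁻¹ * √h) 3 fun w => ?_).trans (le_of_eq (by ring))
    have a1 := Q_cons (hu.2.2 1) √(6 * h) w x
    have a2 := hp.adm0.om_le w x
    have a3 := Adm.om_pos (q := q0 p) w x
    rw [← sub_mul, abs_mul, abs_of_pos a3]
    refine (mul_le_mul a1 a2 a3.le ((abs_nonneg _).trans a1)).trans (le_of_eq ?_)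
    rw [abs_theta, show 3 = 3 + 0 from rfl, ← pg_mul]; ring
  lip x := by
    refine ⟨∑ i, ∑ j, |tau p i j x|, fun u _ u' _ δ _ h => ?_⟩
    simp only [SL, LT, Sm.sum_apply, Sm.mul_apply, ← Finset.sum_sub_distrib, ← mul_sub,
      Finset.sum_mul]
    refine (Finset.abs_sum_le_sum_abs _ _).trans (Finset.sum_le_sum fun i _ =>
      (Finset.abs_sum_le_sum_abs _ _).trans (Finset.sum_le_sum fun j _ => ?_))
    rw [abs_mul]; exact mul_le_mul_of_nonneg_left (h i j) (abs_nonneg _)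
  hσ h hh := by simp [SL, hh.1.le]
  hκ := by simp [SL]

lemma stepL {a b} {p : Sm n} (hp : Ad a b p) (k : ℕ) : ∃ c, 0 ≤ c ∧ ∀ u, Q2 u → ∀ h, 0 ≤ h → ∀ M,
    (∀ j ≤ k, Bd (j + 2) u M) → ∀ j ≤ k, Bd (j + 2) (u + h • (SL p).Γ h u) (M * (1 + h * c)) := by
  obtain ⟨C, hC, h1⟩ := (UQ.q0 (φ := fun _ : Unit => p) fun k => by
      obtain ⟨M, hM⟩ := hp.q2 k; exact ⟨M, fun _ => hM⟩).qb (fun _ => hp.adm0) (k + 2)
  set I := ∫ w : E n, pg (2 + 2 * (k + 2)) (a / 2) w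
  have hI : 0 ≤ I := int_pg_nonneg _ _
  set J := 3 * (Z0 n (|b| + 1))⁻¹ * ∫ w : E n, pg 6 (a / 2) w
  have hJ : 0 ≤ J := by
    have := Z0_pos (n := n) (b := |b| + 1) (by positivity)
    have := int_pg_nonneg (n := n) 6 (a / 2)
    positivity
  refine ⟨(2 ^ (k + 2)) ^ 2 * C ^ 2 * J + (2 ^ (k + 2) + 1) * C * I, by positivity,
    fun u hu h hh M hM j hj z s hs hU => ?_⟩
  obtain ⟨b1, b2, b3⟩ := h1 () z
  have hM0 := (hM 0 (by simp)).nonneg
  have a1 := core hp.adm0 (sq_theta hh) hu (hs ▸ hM j hj) hU (A1 s) (fun _ => mem_A1) z C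
    (b1 1 le_rfl (by omega)) (b2 1 (by omega))
  have a2 := top_br hp.adm0 (hu.polK √(6 * h)) s (by omega) hU z M C (2 * (k + 2)) hM0
    (by linarith) (fun i hi w => (hM i (by omega)).Q _ w z) fun i hi => b3 i (by omega)
  have a3 : ((A1 s).card : ℝ) ≤ 2 ^ (k + 2) := by
    have := (card_A1 s).trans (Nat.pow_le_pow_right (by norm_num) (show s.card ≤ k + 2 by omega))
    exact_mod_cast this
  have a4 : (2 : ℝ) ^ s.card ≤ 2 ^ (k + 2) := pow_le_pow_right₀ (by norm_num) (by omega)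
  have a5 := mul_le_mul_of_nonneg_left a2 hh
  rw [← abs_of_nonneg hh, ← abs_mul, abs_of_nonneg hh] at a5
  have a6 : M * (1 + h * (A1 s).card ^ 2 * C ^ 2 * J) ≤
      M * (1 + h * (2 ^ (k + 2)) ^ 2 * C ^ 2 * J) := by gcongr
  have a7 : h * ((2 ^ s.card + 1) * (M * C) * I) ≤ h * ((2 ^ (k + 2) + 1) * (M * C) * I) := by
    gcongr
  simp only [DM_Q] at a5
  simp only [SL, map_add, map_smul, Sm.add_apply, Sm.smul_apply]
  rw [abs_le] at *
  constructor <;> linarith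

theorem flowL {a b} {p : Sm n} (hp : Ad a b p) (hpe : Ev p) {u0 : Sm n} (h0 : u0 0 = 0)
    (h1 : Ev u0) (h2 : Q2 u0) {T : ℝ} (hT : 0 < T) :
    ∃ m u, u 0 = u0 ∧ Flow (fun u => cen (LL p u)) (BC m) T u := by
  choose c hc hc' using stepL hp
  choose M hM using h2
  set M' : ℕ → ℝ := fun k => ∑ j ∈ Finset.range (k + 1), M j
  have hM' : ∀ k, ∀ j ≤ k, Bd (j + 2) u0 (M' k) := fun k j hj => (hM j).mono
    (Finset.single_le_sum (fun j _ => (hM j).nonneg) (Finset.mem_range.2 (Nat.lt_succ_of_le hj)))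
  have key : ∀ h ∈ Ioc (0 : ℝ) (1 / 2), ∀ i : ℕ, ((SL p).St h)^[i] u0 0 = 0 ∧
      Ev (((SL p).St h)^[i] u0) ∧
      ∀ k, ∀ j ≤ k, Bd (j + 2) (((SL p).St h)^[i] u0) (M' k * (1 + h * c k) ^ i) := by
    intro h hh i
    induction i with
    | zero => exact ⟨h0, h1, by simpa using hM'⟩
    | succ i ih =>
      obtain ⟨-, i2, i3⟩ := ih
      have hq : Q2 (((SL p).St h)^[i] u0) := fun k => ⟨_, i3 k k le_rfl⟩
      rw [Function.iterate_succ_apply']
      refine ⟨Sch.St_zero _ _ _, Sch.ev_St _ i2 (hp.adm0.ev_br (fun w => hpe.DD w w) (hq.polK _)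
        fun w => i2.Q _ w) fun _ => rfl, fun k j hj => ?_⟩
      have := Sch.bd_St (SL p) (v := 0) hh (by
        simp only [SL, mul_zero, add_zero, one_mul]
        exact abs_le.2 ⟨by linarith [hh.2], by linarith [hh.1]⟩)
        (hc' k _ hq h hh.1.le _ (i3 k) j hj) fun x s _ _ => by simp [SL]
      rwa [mul_zero, add_zero, mul_assoc, ← pow_succ] at this
  obtain ⟨u, a1, a2⟩ := (SL_good hp fun k => M' k * Real.exp (c k * T)).limit (u0 := u0)
    (fun h hh i hi => ⟨(key h hh i).1, (key h hh i).2.1, fun k =>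
      ((key h hh i).2.2 k k le_rfl).mono (mul_le_mul_of_nonneg_left
        (pow_le_exp hh.1.le (hc k) hi) (hM' k k le_rfl).nonneg)⟩) hT
  have e1 : (SL p).H = fun u => cen (LL p u) := by
    funext u; simp [Sch.H, SL, LL]
  exact ⟨_, u, a1, e1 ▸ a2⟩

def SN (V : Sm n) : Sch n :=
  ⟨fun h u => G (Q √(6 * h) u), fun u => G (q0 u), fun h => 1 / (1 - h), 1, V⟩

lemma SN_good {V : Sm n} (hV : Q2 V) {a : ℝ} (ha : 0 < a) (b m) : (SN V).Good (NC a b m) where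
  tm := BC.tm fun u => u.2.1
  cl := NC.closed a b m
  zero u hu := hu.1.1
  tV := hV.t1
  tΓ := tm_of_bd (((BC.uq fun u : Ioc (0 : ℝ) (1 / 2) × NC a b m => u.2.2.1).Q _).bd_G
    fun u => (NC.ad u.2.2 ha).adm _)
  tΓ0 := tm_of_bd ((BC.uq fun u : NC a b m => u.2.1).q0.bd_G fun u => (NC.ad u.2 ha).adm0)
  cons x := by
    obtain ⟨C, hC⟩ := G_lip (n := n) a b 3
    refine ⟨C * (m 1 * √6), fun h hh u hu => ?_⟩
    have := (hu.1.2.2 1).nonneg
    refine (hC _ _ ((NC.ad hu ha).adm _) (NC.ad hu ha).adm0 x x _ (by positivity)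
      fun w => Q_cons (hu.1.2.2 1) _ w x).trans (le_of_eq ?_)
    rw [abs_theta]; ring
  lip x := by
    obtain ⟨C, hC⟩ := G_lip (n := n) a b 2
    refine ⟨C * n ^ 2, fun u hu u' hu' δ hδ h => ?_⟩
    refine (hC _ _ (NC.ad hu ha).adm0 (NC.ad hu' ha).adm0 x x (n ^ 2 * δ) (by positivity)
      fun w => ?_).trans (le_of_eq (by ring))
    simp only [q0, DD_eq _ w w, ← Finset.sum_sub_distrib, ← mul_sub]
    refine (Finset.abs_sum_le_sum_abs _ _).trans ((Finset.sum_le_sum fun i _ =>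
      (Finset.abs_sum_le_sum_abs _ _).trans (Finset.sum_le_sum (g := fun _ => δ * (1 + ‖w‖) ^ 2)
        fun j _ => ?_)).trans (le_of_eq (by simp; ring)))
    rw [abs_mul, abs_mul, mul_comm, sq]
    have a1 := abs_coord_le w i
    have a2 := abs_coord_le w j
    gcongr
    exacts [h i j, by linarith, by linarith]
  hσ h hh := by
    have h1 : 0 < 1 - h := by linarith [hh.2]
    have h2 := hh.1
    simp only [SN]
    rw [show 1 / (1 - h) - 1 = h / (1 - h) by field_simp; ring, abs_of_pos (by positivity),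
      div_le_iff₀ h1]
    nlinarith [hh.2]
  hκ := by simp [SN]

lemma stepN (a b : ℝ) (r : ℕ) (hr : 1 ≤ r) : ∃ c, 0 ≤ c ∧ ∀ φ : Sm n, Ad a b φ → ∀ h, 0 ≤ h →
    ∀ W, Wt W (r + 2) → (∀ j, 1 ≤ j → j ≤ r → Bd (j + 2) φ (W j)) → ∀ M, Bd (r + 2) φ M →
    Bd (r + 2) (φ + h • G (Q √(6 * h) φ)) (M + h * c * (M * W 1 ^ 2 + W (r + 2))) := by
  obtain ⟨c, hc, h1⟩ := top_G (n := n) a b r hr
  set J := 3 * (Z0 n (|b| + 1))⁻¹ * ∫ w : E n, pg 6 (a / 2) w
  have hJ : 0 ≤ J := by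
    have := Z0_pos (n := n) (b := |b| + 1) (by positivity)
    have := int_pg_nonneg (n := n) 6 (a / 2)
    positivity
  have hc0 : 0 ≤ (2 ^ (r + 2)) ^ 2 * c ^ 2 * J := by positivity
  refine ⟨(2 ^ (r + 2)) ^ 2 * c ^ 2 * J + c, by positivity,
    fun φ hφ h hh W hW hb M hM z s hs hU => ?_⟩
  obtain ⟨i, l, rfl⟩ : ∃ v l', s = v ::ₘ l' := by
    induction s using Multiset.induction with
    | empty => simp at hs
    | cons v l' _ => exact ⟨v, l', rfl⟩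
  have hl : l.card = r + 1 := by simpa using hs
  obtain ⟨b1, b2⟩ := h1 _ (hφ.adm √(6 * h)) z W hW fun j c1 c2 w => (hb j c1 c2).Q _ w z
  have hM0 := hM.nonneg
  have w1 := hW.pos 1
  have w2 := hW.pos (r + 2)
  have a1 := core (hφ.adm √(6 * h)) (sq_theta hh) hφ.q2 (hs ▸ hM) hU (AA i l) (fun _ => mem_AA) z
    (c * W 1) b1 fun w => ((hb 1 le_rfl hr).Q _ w z).mono (by gcongr; nlinarith)
  have a2 := b2 i l hl hU
  have a3 : ((AA i l).card : ℝ) ≤ 2 ^ (r + 2) := by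
    have := card_AA i l
    rw [hl] at this
    exact_mod_cast this
  have a5 := mul_le_mul_of_nonneg_left a2 hh
  rw [← abs_of_nonneg hh, ← abs_mul, abs_of_nonneg hh] at a5
  have a6 : M * (1 + h * (AA i l).card ^ 2 * (c * W 1) ^ 2 * J) ≤
      M * (1 + h * (2 ^ (r + 2)) ^ 2 * (c * W 1) ^ 2 * J) := by gcongr
  have a7 : 0 ≤ h * c * (M * W 1 ^ 2) := by positivity
  have a8 : 0 ≤ h * ((2 ^ (r + 2)) ^ 2 * c ^ 2 * J) * W (r + 2) := by positivity
  simp only [DM_Q] at a5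
  simp only [map_add, map_smul, Sm.add_apply, Sm.smul_apply]
  rw [abs_le] at *
  constructor <;> linarith

lemma stepN2 (a b : ℝ) : ∃ c, 0 ≤ c ∧ ∀ φ : Sm n, Ad a b φ → ∀ h, 0 ≤ h → ∀ K, 1 ≤ K →
    Bd 3 φ K → ∀ a', (∀ w z, a' * ‖w‖ ^ 2 ≤ D w (D w φ) z) → ∀ v z,
    (a' - h * c * K ^ 2) * ‖v‖ ^ 2 ≤ D v (D v (φ + h • G (Q √(6 * h) φ))) z ∧
    D v (D v (φ + h • G (Q √(6 * h) φ))) z ≤ b * ‖v‖ ^ 2 := by
  obtain ⟨c, hc, h1⟩ := second_G (n := n) a b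
  refine ⟨c, hc, fun φ hφ h hh K hK h3 a' ha' v z => ?_⟩
  have hq := hφ.adm √(6 * h)
  obtain ⟨b1, b2⟩ := h1 _ hq z K hK (fun w => Bd.Q (k := 1) h3 _ w z) v
  have i1 := hq.int_mul ((hq.toPolK.D v).D v) z
  have key : D v (D v φ) z + h * ∫ w, D v (D v (Q √(6 * h) φ w)) z * om (Q √(6 * h) φ) w z =
      ∫ w, (D v (D v φ) z + h * Q √(6 * h) (D v (D v φ)) w z) * om (Q √(6 * h) φ) w z := by
    simp only [add_mul, mul_assoc, ← D_Q]
    rw [integral_add ((hq.om_int z).const_mul _) (i1.const_mul _), integral_const_mul,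
      integral_const_mul, hq.om_integral, mul_one]
  have i2 : Integrable fun w =>
      (D v (D v φ) z + h * Q √(6 * h) (D v (D v φ)) w z) * om (Q √(6 * h) φ) w z := by
    simp only [add_mul, mul_assoc, ← D_Q]
    exact ((hq.om_int z).const_mul _).add (i1.const_mul _)
  have hc2 := (D v (D v φ)).cont
  have e1 : ∀ t : ℝ, t = ∫ w, t * om (Q √(6 * h) φ) w z := fun t => by
    rw [integral_const_mul, hq.om_integral, mul_one]
  have e2 : ∀ t : ℝ, t = ∫ _ in (0 : ℝ)..1, t := fun t => by simp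
  have c1 : a' * ‖v‖ ^ 2 ≤ D v (D v φ) z +
      h * ∫ w, D v (D v (Q √(6 * h) φ w)) z * om (Q √(6 * h) φ) w z := by
    rw [key, e1 (a' * _)]
    refine integral_mono ((hq.om_int z).const_mul _) i2 fun w =>
      mul_le_mul_of_nonneg_right ?_ (Adm.om_pos _ _).le
    rw [Q_id0 (sq_theta hh), e2 (a' * _)]
    refine intervalIntegral.integral_mono_on zero_le_one (by simp)
      (Continuous.intervalIntegrable (by fun_prop) _ _) fun u _ => ?_
    linarith [ha' v (z + (√(6 * h) * u) • w), ha' v (z + -(√(6 * h) * u) • w)]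
  have c2 : D v (D v φ) z +
      h * ∫ w, D v (D v (Q √(6 * h) φ w)) z * om (Q √(6 * h) φ) w z ≤ b * ‖v‖ ^ 2 := by
    rw [key, e1 (b * _)]
    refine integral_mono i2 ((hq.om_int z).const_mul _) fun w =>
      mul_le_mul_of_nonneg_right ?_ (Adm.om_pos _ _).le
    rw [Q_id0 (sq_theta hh), e2 (b * _)]
    refine intervalIntegral.integral_mono_on zero_le_one
      (Continuous.intervalIntegrable (by fun_prop) _ _) (by simp) fun u _ => ?_
    linarith [hφ.hi v (z + (√(6 * h) * u) • w), hφ.hi v (z + -(√(6 * h) * u) • w)]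
  simp only [map_add, Derivation.map_smul, Sm.add_apply, Sm.smul_apply]
  constructor <;> nlinarith

lemma Q2.bdG {a b} {φ : Sm n} (h : Ad a b φ) (θ k) : ∃ M, Bd k (G (Q θ φ)) M := by
  obtain ⟨M, hM⟩ := ((UQ.Q (φ := fun _ : Unit => φ) (fun k => by
      obtain ⟨M, hM⟩ := h.q2 k; exact ⟨M, fun _ => hM⟩) fun _ => θ).bd_G fun _ => h.adm θ) k
  exact ⟨M, hM ()⟩

lemma SN_σ (V : Sm n) {h : ℝ} (hh : h ∈ Ioc (0 : ℝ) (1 / 2)) :
    (1 + h * (SN V).σ h) * (1 - h) = 1 := by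
  have h1 : 1 - h ≠ 0 := by linarith [hh.2]
  simp only [SN]; field_simp; ring

lemma stepA2 {V : Sm n} {α β : ℝ} (hV : Ad α β V) (K : ℝ) (hK : 1 ≤ K) :
    ∃ d, 0 < d ∧ ∀ h ∈ Ioc (0 : ℝ) (1 / 2), ∀ ψ a, Ad a β ψ → α / 2 ≤ a → a ≤ α → Bd 3 ψ K →
    0 < a - h * d → Ad (a - h * d) β ((SN V).St h ψ) := by
  have hα := hV.pos
  obtain ⟨c2, hc2, s2⟩ := stepN2 (n := n) (α / 2) β
  refine ⟨α + c2 * K ^ 2, by positivity, fun h hh ψ a i2 j1 j2 i3 j3 => ?_⟩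
  have h0 := hh.1
  have i5 := i2.mono (by linarith) j1
  have hσ : |(1 + h * (SN V).σ h) * (1 - h)| ≤ 1 := by rw [SN_σ V hh, abs_one]
  have k2 : ∀ w z, D w (D w ((SN V).St h ψ)) z = (1 - h) *
      D w (D w (ψ + h • G (Q √(6 * h) ψ))) ((1 - h) • z) + h * D w (D w V) z := fun w z => by
    have := (SN V).DM_St h ψ (w ::ₘ {w}) (by simp) z
    simp only [DM_cons, DM_single, Multiset.card_cons, Multiset.card_singleton] at this
    rw [this, pow_succ', ← mul_assoc, SN_σ V hh]; simp [SN]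
  refine ⟨j3, fun k => ?_, fun w z => ?_, fun w z => ?_⟩
  · obtain ⟨M, hM⟩ := i2.q2 k
    obtain ⟨M', hM'⟩ := Q2.bdG i2 √(6 * h) (k + 2)
    obtain ⟨v, hv⟩ := hV.q2 k
    exact ⟨_, Sch.bd_St (SN V) hh hσ (fun x => (hM x).add ((hM' x).smul h)) hv⟩
  · have a1 := (s2 ψ i5 h h0.le K hK i3 _ i2.lo w ((1 - h) • z)).1
    have a2 := mul_nonneg h0.le ((mul_nonneg hα.le (sq_nonneg _)).trans (hV.lo w z))
    have a3 : a - h * (α + c2 * K ^ 2) ≤ (1 - h) * (a - h * c2 * K ^ 2) := by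
      have : 0 ≤ h * (h * c2 * K ^ 2) := by positivity
      have := mul_le_mul_of_nonneg_left j2 h0.le
      linarith
    have a4 := mul_le_mul_of_nonneg_left a1 (show 0 ≤ 1 - h by linarith [hh.2])
    have a5 := mul_le_mul_of_nonneg_right a3 (sq_nonneg ‖w‖)
    rw [k2]; linarith
  · have a1 := (s2 ψ i5 h h0.le K hK i3 _ i2.lo w ((1 - h) • z)).2
    have a2 := mul_le_mul_of_nonneg_left (hV.hi w z) h0.le
    have a4 := mul_le_mul_of_nonneg_left a1 (show 0 ≤ 1 - h by linarith [hh.2])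
    rw [k2]; linarith

lemma stepA3 {V : Sm n} (hV : Q2 V) (a β : ℝ) (K : ℝ) (hK : 1 ≤ K) :
    ∃ d, 0 < d ∧ ∀ h ∈ Ioc (0 : ℝ) (1 / 2), ∀ ψ M, Ad a β ψ → M ≤ K → Bd 3 ψ M → Bd 4 ψ M →
    Bd 3 ((SN V).St h ψ) (M + h * d) ∧ Bd 4 ((SN V).St h ψ) (M + h * d) := by
  obtain ⟨c1, hc1, s1⟩ := stepN (n := n) a β 1 le_rfl
  obtain ⟨c2, hc2, s2⟩ := stepN (n := n) a β 2 one_le_two
  obtain ⟨v1, hv1⟩ := hV 1
  obtain ⟨v2, hv2⟩ := hV 2
  have := hv1.nonneg
  have := hv2.nonneg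
  refine ⟨(c1 + c2) * (2 * K ^ 4) + v1 + v2 + 1, by positivity, fun h hh ψ M i5 j2 i3 i4 => ?_⟩
  have h0 := hh.1
  have p1 : K ≤ K ^ 2 := le_self_pow₀ hK (by norm_num)
  have p2 : K ^ 3 ≤ K ^ 4 := pow_le_pow_right₀ hK (by norm_num)
  have p3 : M * (K ^ 1) ^ 2 ≤ K ^ 4 := by
    refine le_trans ?_ p2
    rw [pow_one, pow_succ' K 2]; gcongr
  have hσ : |(1 + h * (SN V).σ h) * (1 - h)| ≤ 1 := by rw [SN_σ V hh, abs_one]
  constructor
  · refine (Sch.bd_St (SN V) hh hσ (s1 ψ i5 h h0.le _ (wt_pow hK _)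
      (fun j c1 c2 => ?_) _ i3) hv1).mono ?_
    · obtain rfl : j = 1 := by omega
      simpa using i3.mono j2
    · have : h * c1 * (M * (K ^ 1) ^ 2 + K ^ (1 + 2)) ≤ h * c1 * (2 * K ^ 4) := by
        rw [show 1 + 2 = 3 from rfl]; gcongr; linarith
      have : 0 ≤ h * (c2 * (2 * K ^ 4) + v2 + 1) := by positivity
      linarith
  · refine (Sch.bd_St (SN V) hh hσ (s2 ψ i5 h h0.le _ (wt_pow hK _)
      (fun j c1 c2 => ?_) _ i4) hv2).mono ?_
    · obtain rfl | rfl : j = 1 ∨ j = 2 := by omega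
      · simpa using i3.mono j2
      · exact i4.mono (j2.trans p1)
    · have : h * c2 * (M * (K ^ 1) ^ 2 + K ^ (2 + 2)) ≤ h * c2 * (2 * K ^ 4) := by
        rw [show 2 + 2 = 4 from rfl]; gcongr; linarith
      have : 0 ≤ h * (c1 * (2 * K ^ 4) + v1 + 1) := by positivity
      linarith

lemma stepB {V : Sm n} (hV : Q2 V) (a β : ℝ) (r : ℕ) (K : ℝ) (hK : 1 ≤ K) :
    ∃ c, 0 ≤ c ∧ ∀ h ∈ Ioc (0 : ℝ) (1 / 2), ∀ ψ M, Ad a β ψ → (∀ k ≤ r + 2, Bd (k + 2) ψ K) →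
    1 ≤ M → Bd (r + 5) ψ M → Bd (r + 5) ((SN V).St h ψ) (M * (1 + h * c)) := by
  obtain ⟨c, hc, s3⟩ := stepN (n := n) a β (r + 3) (by omega)
  obtain ⟨v, hv⟩ := hV (r + 3)
  have := hv.nonneg
  refine ⟨c * (K ^ 2 + K ^ (r + 5)) + v, by positivity, fun h hh ψ M i1 i2 hM1 i3 => ?_⟩
  have h0 := hh.1
  have hW : Wt (fun j => K ^ j * if j < r + 3 then 1 else M) (r + 3 + 2) :=
    ⟨fun j => one_le_mul_of_one_le_of_one_le (one_le_pow₀ hK) (by split_ifs <;> linarith),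
      fun a b hab => by
        rw [mul_mul_mul_comm, ← pow_add]
        gcongr
        split_ifs <;> first | omega | linarith⟩
  refine (Sch.bd_St (SN V) hh (by rw [SN_σ V hh, abs_one])
    (s3 _ i1 h h0.le _ hW (fun k c1 c2 => ?_) _ i3) hv).mono ?_
  · split_ifs with c3
    · exact (i2 k (by omega)).mono (by rw [mul_one]; exact le_self_pow₀ hK (by omega))
    · obtain rfl : k = r + 3 := by omega
      exact i3.mono (le_mul_of_one_le_left (by linarith) (one_le_pow₀ hK))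
  · rw [if_pos (by omega), if_neg (by omega)]
    have : h * v ≤ M * (h * v) := le_mul_of_one_le_left (by positivity) hM1
    rw [show r + 3 + 2 = r + 5 from rfl]; linarith

theorem iterN {V : Sm n} {α β : ℝ} (hV : Ad α β V) (hVe : Ev V) (hβ : 0 ≤ β) (K : ℝ) (hK : 1 ≤ K) :
    ∃ T, 0 < T ∧ ∀ φ0 : Sm n, φ0 0 = 0 → Ev φ0 → Ad α β φ0 → Bd 3 φ0 K → Bd 4 φ0 K →
    ∃ m, ∀ h ∈ Ioc (0 : ℝ) (1 / 2), ∀ j : ℕ, j * h ≤ T →
      ((SN V).St h)^[j] φ0 ∈ NC (α / 2) β m := by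
  have hα := hV.pos
  obtain ⟨d1, hd1, s1⟩ := stepA2 hV (K + 1) (by linarith)
  obtain ⟨d2, hd2, s2⟩ := stepA3 hV.q2 (α / 2) β (K + 1) (by linarith)
  refine ⟨min (α / 2 / d1) (1 / d2), by positivity, fun φ0 z0 e0 a0 b3 b4 => ?_⟩
  set T := min (α / 2 / d1) (1 / d2)
  have T1 : T * d1 ≤ α / 2 := by rw [← le_div_iff₀ hd1]; exact min_le_left _ _
  have T2 : T * d2 ≤ 1 := by rw [← le_div_iff₀ hd2]; exact min_le_right _ _
  have T3 : ∀ t, t ≤ T → t * d1 ≤ α / 2 := fun t ht =>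
    (mul_le_mul_of_nonneg_right ht hd1.le).trans T1
  have T4 : ∀ t, t ≤ T → t * d2 ≤ 1 := fun t ht =>
    (mul_le_mul_of_nonneg_right ht hd2.le).trans T2
  have A : ∀ h ∈ Ioc (0 : ℝ) (1 / 2), ∀ j : ℕ, j * h ≤ T → ∀ ψ, ψ = ((SN V).St h)^[j] φ0 →
      ψ 0 = 0 ∧ Ev ψ ∧ Ad (α - j * h * d1) β ψ ∧ Bd 3 ψ (K + j * h * d2) ∧
      Bd 4 ψ (K + j * h * d2) := by
    intro h hh j
    have h0 := hh.1
    induction j with
    | zero => rintro - ψ rfl; simpa using ⟨z0, e0, a0, b3, b4⟩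
    | succ j ih =>
      rintro hj _ rfl
      push_cast at hj ⊢
      have hj' : j * h ≤ T := by linarith
      obtain ⟨-, i1, i2, i3, i4⟩ := ih hj' _ rfl
      rw [Function.iterate_succ_apply']
      set ψ := ((SN V).St h)^[j] φ0
      have j1 : α / 2 ≤ α - j * h * d1 := by linarith [T3 _ hj']
      have j2 : K + j * h * d2 ≤ K + 1 := by linarith [T4 _ hj']
      have j3 : 0 ≤ j * h * d1 := by positivity
      have i5 := i2.mono (by linarith) j1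
      have a1 := s1 h hh ψ _ i2 j1 (by linarith) (i3.mono j2) (by linarith [T3 _ hj])
      obtain ⟨a2, a3⟩ := s2 h hh ψ _ i5 j2 i3 i4
      refine ⟨Sch.St_zero _ _ _, Sch.ev_St _ i1 ((i5.adm _).ev_G fun w => i1.Q _ w) hVe,
        ?_, a2.mono (le_of_eq (by ring)), a3.mono (le_of_eq (by ring))⟩
      convert a1 using 1; ring
  have A' : ∀ h ∈ Ioc (0 : ℝ) (1 / 2), ∀ j : ℕ, j * h ≤ T →
      Ad (α / 2) β (((SN V).St h)^[j] φ0) := fun h hh j hj =>
    (A h hh j hj _ rfl).2.2.1.mono (by linarith) (by linarith [T3 _ hj])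
  have B : ∀ r, ∃ M, 1 ≤ M ∧ ∀ h ∈ Ioc (0 : ℝ) (1 / 2), ∀ j : ℕ, j * h ≤ T → ∀ k ≤ r + 2,
      Bd (k + 2) (((SN V).St h)^[j] φ0) M := by
    intro r
    induction r with
    | zero =>
      refine ⟨K + 1 + β, by linarith, fun h hh j hj k hk => ?_⟩
      obtain ⟨-, -, -, i3, i4⟩ := A h hh j hj _ rfl
      have j2 : K + j * h * d2 ≤ K + 1 + β := by linarith [T4 _ hj]
      obtain rfl | rfl | rfl : k = 0 ∨ k = 1 ∨ k = 2 := by omega
      · exact fun z => (bd2_of _ z β hβ (fun w => le_trans (by positivity) ((A' h hh j hj).lo w z))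
          fun w => (A' h hh j hj).hi w z).mono (by linarith)
      exacts [i3.mono j2, i4.mono j2]
    | succ r ih =>
      obtain ⟨K', hK', ih⟩ := ih
      obtain ⟨M0, hM0⟩ := a0.q2 (r + 3)
      obtain ⟨c', hc', s3⟩ := stepB hV.q2 (α / 2) β r K' hK'
      have hM := hM0.nonneg
      have C : ∀ h ∈ Ioc (0 : ℝ) (1 / 2), ∀ j : ℕ, j * h ≤ T →
          Bd (r + 5) (((SN V).St h)^[j] φ0) ((M0 + 1) * (1 + h * c') ^ j) := by
        intro h hh j
        have h0 := hh.1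
        induction j with
        | zero => intro _; simpa using hM0.mono (by linarith)
        | succ j ih' =>
          intro hj
          push_cast at hj
          have hj' : j * h ≤ T := by linarith
          rw [Function.iterate_succ_apply', pow_succ, ← mul_assoc]
          exact s3 h hh _ _ (A' h hh j hj') (ih h hh j hj') (one_le_mul_of_one_le_of_one_le
            (by linarith) (one_le_pow₀ (le_add_of_nonneg_right (by positivity)))) (ih' hj')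
      have hT : 0 ≤ T := by positivity
      have := one_le_mul_of_one_le_of_one_le (show 1 ≤ M0 + 1 by linarith)
        (Real.one_le_exp (mul_nonneg hc' hT))
      refine ⟨K' + (M0 + 1) * Real.exp (c' * T), by linarith, fun h hh j hj k hk => ?_⟩
      rcases Nat.lt_or_ge k (r + 3) with c1 | c1
      · exact (ih h hh j hj k (by omega)).mono (by linarith)
      · obtain rfl : k = r + 3 := by omega
        refine (C h hh j hj).mono ?_
        have := mul_le_mul_of_nonneg_left (pow_le_exp hh.1.le hc' hj) (show 0 ≤ M0 + 1 by linarith)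
        linarith
  choose m hm using B
  exact ⟨m, fun h hh j hj => ⟨⟨(A h hh j hj _ rfl).1, (A h hh j hj _ rfl).2.1,
    fun k => (hm k).2 h hh j hj k (by omega)⟩, (A' h hh j hj).lo, (A' h hh j hj).hi⟩⟩

def HN (V u : Sm n) : Sm n := G (q0 u) - rad u + u + V

theorem flowN {V : Sm n} {α β : ℝ} (hV : Ad α β V) (hVe : Ev V) (hβ : 0 ≤ β) (K : ℝ) (hK : 1 ≤ K) :
    ∃ T, 0 < T ∧ ∀ φ0 : Sm n, φ0 0 = 0 → Ev φ0 → Ad α β φ0 → Bd 3 φ0 K → Bd 4 φ0 K →
    ∃ m φ, φ 0 = φ0 ∧ Flow (fun u => cen (HN V u)) (NC (α / 2) β m) T φ := by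
  obtain ⟨T, hT, h⟩ := iterN hV hVe hβ K hK
  refine ⟨T, hT, fun φ0 h1 h2 h3 h4 h5 => ?_⟩
  obtain ⟨m, hm⟩ := h φ0 h1 h2 h3 h4 h5
  obtain ⟨φ, a1, a2⟩ := (SN_good hV.q2 (half_pos hV.pos) β m).limit hm hT
  have e1 : (SN V).H = fun u => cen (HN V u) := by
    funext u; simp [Sch.H, SN, HN]
  exact ⟨m, φ, a1, e1 ▸ a2⟩

end Vale.Agent.P227
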