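import Mathlib

open scoped ContDiff
noncomputable section
namespace Vale.Agent.P227

abbrev E (n : ℕ) := EuclideanSpace ℝ (Fin n)
variable {n : ℕ}

def smAlg (n : ℕ) : Subalgebra ℝ (E n → ℝ) where
  carrier := {f | ContDiff ℝ ∞ f}
  mul_mem' {a b} ha hb := by
    have h1 : ContDiff ℝ ∞ a := ha
    have h2 : ContDiff ℝ ∞ b := hb
    exact h1.mul h2
  add_mem' {a b} ha hb := by
    have h1 : ContDiff ℝ ∞ a := ha
    have h2 : ContDiff ℝ ∞ b := hb
    exact h1.add h2
  algebraMap_mem' r := by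
    have h1 : ContDiff ℝ ∞ (fun _ : E n => r) := contDiff_const
    exact h1

def Sm (n : ℕ) : Type := ↥(smAlg n)
instance : CommRing (Sm n) := inferInstanceAs (CommRing ↥(smAlg n))
instance : Algebra ℝ (Sm n) := inferInstanceAs (Algebra ℝ ↥(smAlg n))
@[coe] def Sm.fn (f : Sm n) : E n → ℝ := f.1
instance : CoeFun (Sm n) (fun _ => E n → ℝ) := ⟨Sm.fn⟩

def Sm.of (f : E n → ℝ) (h : ContDiff ℝ ∞ f) : Sm n := (⟨f, h⟩ : ↥(smAlg n))

namespace Sm
lemma smooth (f : Sm n) : ContDiff ℝ ∞ f := f.2
lemma cont (f : Sm n) : Continuous f := f.smooth.continuous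
lemma diff (f : Sm n) : Differentiable ℝ f := f.smooth.differentiable (by simp)
lemma hasF (f : Sm n) (x : E n) : HasFDerivAt f (fderiv ℝ f x) x := (f.diff x).hasFDerivAt
@[ext] lemma ext {f g : Sm n} (h : ∀ x, f x = g x) : f = g := Subtype.ext (funext h)
@[simp] lemma of_apply (f : E n → ℝ) (h) (x : E n) : Sm.of f h x = f x := rfl
lemma of_fn (f : E n → ℝ) (h) : (Sm.of f h : E n → ℝ) = f := rfl
@[simp] lemma add_apply (f g : Sm n) (x) : (f + g) x = f x + g x := rfl
@[simp] lemma sub_apply (f g : Sm n) (x) : (f - g) x = f x - g x := rfl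
@[simp] lemma mul_apply (f g : Sm n) (x) : (f * g) x = f x * g x := rfl
@[simp] lemma neg_apply (f : Sm n) (x) : (-f) x = -f x := rfl
@[simp] lemma zero_apply (x) : (0 : Sm n) x = 0 := rfl
@[simp] lemma one_apply (x) : (1 : Sm n) x = 1 := rfl
@[simp] lemma smul_apply (c : ℝ) (f : Sm n) (x) : (c • f) x = c * f x := rfl
@[simp] lemma algebraMap_apply (c : ℝ) (x) : (algebraMap ℝ (Sm n) c) x = c := rfl
lemma add_fn (f g : Sm n) : ((f + g : Sm n) : E n → ℝ) = fun x => f x + g x := rfl
lemma mul_fn (f g : Sm n) : ((f * g : Sm n) : E n → ℝ) = fun x => f x * g x := rfl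
lemma smul_fn (c : ℝ) (f : Sm n) : ((c • f : Sm n) : E n → ℝ) = fun x => c * f x := rfl
end Sm

def ev (x : E n) : Sm n →ₐ[ℝ] ℝ where
  toFun f := f x
  map_one' := rfl
  map_mul' _ _ := rfl
  map_zero' := rfl
  map_add' _ _ := rfl
  commutes' _ := rfl

@[simp] lemma ev_apply (x : E n) (f : Sm n) : ev x f = f x := rfl

@[simp] lemma Sm.sum_apply {κ : Type*} (s : Finset κ) (f : κ → Sm n) (x) :
    (∑ i ∈ s, f i) x = ∑ i ∈ s, f i x := map_sum (ev x) f s
@[simp] lemma Sm.pow_apply (f : Sm n) (k : ℕ) (x) : (f ^ k) x = f x ^ k := map_pow (ev x) f k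
@[simp] lemma Sm.natCast_apply (k : ℕ) (x) : (k : Sm n) x = k := map_natCast (ev x) k
@[simp] lemma Sm.ofNat_apply (k : ℕ) [k.AtLeastTwo] (x) :
    (OfNat.ofNat k : Sm n) x = OfNat.ofNat k := map_ofNat (ev x) k
@[simp] lemma Sm.nsmul_apply (k : ℕ) (f : Sm n) (x) : (k • f) x = k * f x := by
  rw [nsmul_eq_mul]; simp
lemma Sm.msum_apply {κ : Type*} (s : Multiset κ) (f : κ → Sm n) (x) :
    (s.map f).sum x = (s.map fun i => f i x).sum := by
  induction s using Multiset.induction with
  | empty => simp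
  | cons a s ih => simp [ih]

def cst (c : ℝ) : Sm n := algebraMap ℝ (Sm n) c
@[simp] lemma cst_apply (c : ℝ) (x : E n) : cst c x = c := rfl

open Classical in
def mk (f : E n → ℝ) : Sm n := if h : ContDiff ℝ ∞ f then Sm.of f h else 0
lemma mk_fn {f : E n → ℝ} (h : ContDiff ℝ ∞ f) : (mk f : E n → ℝ) = f := by
  rw [mk, dif_pos h]; rfl
lemma mk_apply {f : E n → ℝ} (h : ContDiff ℝ ∞ f) (x) : mk f x = f x := by rw [mk_fn h]

def Dl (v : E n) : Sm n →ₗ[ℝ] Sm n where
  toFun f := Sm.of (fun x => fderiv ℝ f x v)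
    ((f.smooth.fderiv_right (m := ∞) (by simp)).clm_apply contDiff_const)
  map_add' f g := by
    ext x; simp only [Sm.of_apply, Sm.add_apply, Sm.add_fn]
    rw [fderiv_fun_add (f.diff x) (g.diff x)]; rfl
  map_smul' c f := by
    ext x; simp only [Sm.of_apply, Sm.smul_apply, Sm.smul_fn, RingHom.id_apply]
    rw [fderiv_const_mul (f.diff x)]; rfl

def D (v : E n) : Derivation ℝ (Sm n) (Sm n) := Derivation.mk' (Dl v) (by
  intro f g; ext x
  show fderiv ℝ (fun x => f x * g x) x v = f x * fderiv ℝ g x v + g x * fderiv ℝ f x v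
  rw [fderiv_fun_mul (f.diff x) (g.diff x)]; rfl)

lemma D_apply (v : E n) (f : Sm n) (x) : D v f x = fderiv ℝ f x v := rfl
lemma D_mul (v : E n) (f g : Sm n) : D v (f * g) = D v f * g + f * D v g := by
  rw [Derivation.leibniz]; simp [mul_comm, add_comm]
@[simp] lemma D_cst (v : E n) (c : ℝ) : D v (cst c) = 0 := Derivation.map_algebraMap _ _

lemma D_comm (v w : E n) (f : Sm n) : D v (D w f) = D w (D v f) := by
  ext x
  have h2 : ContDiff ℝ 2 f := contDiff_infty.1 f.smooth 2
  have hs := (h2.contDiffAt (x := x)).isSymmSndFDerivAt (by simp)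
  have hd : DifferentiableAt ℝ (fderiv ℝ f) x :=
    ((f.smooth.fderiv_right (m := ∞) (by simp)).differentiable (by simp)) x
  have key : ∀ a b : E n, D a (D b f) x = fderiv ℝ (fderiv ℝ f) x a b := by
    intro a b
    show fderiv ℝ (fun y => fderiv ℝ f y b) x a = _
    rw [fderiv_clm_apply hd (differentiableAt_const b)]; simp
  rw [key, key, hs.eq]

lemma D_add_dir (v w : E n) (f : Sm n) : D (v + w) f = D v f + D w f := by
  ext x; simp [D_apply]
lemma D_sub_dir (v w : E n) (f : Sm n) : D (v - w) f = D v f - D w f := by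
  ext x; simp [D_apply]
lemma D_smul_dir (c : ℝ) (v : E n) (f : Sm n) : D (c • v) f = c • D v f := by
  ext x; simp [D_apply]
lemma D_neg_dir (v : E n) (f : Sm n) : D (-v) f = - D v f := by
  ext x; simp [D_apply]
@[simp] lemma D_zero_dir (f : Sm n) : D (0 : E n) f = 0 := by
  ext x; simp [D_apply]
lemma D_sum_dir {κ : Type*} (s : Finset κ) (v : κ → E n) (f : Sm n) :
    D (∑ i ∈ s, v i) f = ∑ i ∈ s, D (v i) f := by
  ext x; simp [D_apply]

def e (a : Fin n) : E n := EuclideanSpace.single a (1 : ℝ)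
@[simp] lemma norm_e (a : Fin n) : ‖e a‖ = 1 := by simp [e]
lemma e_apply (a b : Fin n) : e a b = if b = a then 1 else 0 := by simp [e]
lemma sum_e (v : E n) : ∑ a, v a • e a = v := by
  ext b; simp [e, Finset.sum_apply, Pi.single_apply]
lemma D_eq_sum (v : E n) (f : Sm n) : D v f = ∑ a, v a • D (e a) f := by
  conv_lhs => rw [← sum_e v, D_sum_dir]
  simp [D_smul_dir]
lemma normsq_eq (v : E n) : ‖v‖ ^ 2 = ∑ a, v a ^ 2 := by
  rw [EuclideanSpace.norm_sq_eq]; simp
lemma abs_coord_le (v : E n) (a : Fin n) : |v a| ≤ ‖v‖ := by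
  have := EuclideanSpace.norm_eq v
  simpa using PiLp.norm_apply_le v a

def X (a : Fin n) : Sm n := Sm.of (fun x => x a) (by fun_prop)
@[simp] lemma X_apply (a : Fin n) (x : E n) : X a x = x a := rfl
lemma D_X (v : E n) (a : Fin n) : D v (X a) = cst (v a) := by
  ext x
  have : HasFDerivAt (fun x : E n => x a) (EuclideanSpace.proj (𝕜 := ℝ) a) x :=
    (EuclideanSpace.proj (𝕜 := ℝ) a).hasFDerivAt
  show fderiv ℝ (fun x : E n => x a) x v = _
  rw [this.fderiv]; simp

def rad : Derivation ℝ (Sm n) (Sm n) := ∑ a, X a • D (e a)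
lemma rad_eq (f : Sm n) : rad f = ∑ a, X a * D (e a) f := by
  have := map_sum (Derivation.coeFnAddMonoidHom (R := ℝ) (A := Sm n) (M := Sm n))
    (fun a => X a • D (e a)) Finset.univ
  have h2 := congrFun this f
  rw [Finset.sum_apply] at h2
  exact h2
lemma rad_apply (f : Sm n) (x : E n) : rad f x = D x f x := by
  rw [rad_eq, D_eq_sum x]; simp
lemma cst_mul (c : ℝ) (f : Sm n) : cst c * f = c • f := by ext; simp
lemma D_rad (v : E n) (f : Sm n) : D v (rad f) = rad (D v f) + D v f := by
  rw [rad_eq, rad_eq, map_sum]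
  simp only [D_mul, D_X, Finset.sum_add_distrib, cst_mul, D_comm v]
  rw [← D_eq_sum, add_comm]

instance : LeftCommutative (fun (v : E n) (L : Module.End ℝ (Sm n)) => Dl v * L) where
  left_comm v w L := by
    ext f x
    have := D_comm v w (L f)
    exact congrArg (fun g : Sm n => g x) this

def DM (s : Multiset (E n)) : Module.End ℝ (Sm n) :=
  Multiset.foldr (fun (v : E n) (L : Module.End ℝ (Sm n)) => Dl v * L) 1 s

@[simp] lemma DM_zero (f : Sm n) : DM 0 f = f := rfl
lemma DM_cons (v : E n) (s) (f : Sm n) : DM (v ::ₘ s) f = D v (DM s f) := by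
  rw [DM, Multiset.foldr_cons]; rfl
@[simp] lemma DM_single (v : E n) (f : Sm n) : DM {v} f = D v f := rfl
lemma DM_D (s) (v : E n) (f : Sm n) : DM s (D v f) = D v (DM s f) := by
  induction s using Multiset.induction with
  | empty => rfl
  | cons a s ih => rw [DM_cons, DM_cons, ih, D_comm]
lemma DM_cons' (v : E n) (s) (f : Sm n) : DM (v ::ₘ s) f = DM s (D v f) := by
  rw [DM_cons, DM_D]
lemma DM_add (s t) (f : Sm n) : DM (s + t) f = DM s (DM t f) := by
  induction s using Multiset.induction with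
  | empty => simp
  | cons a s ih => rw [Multiset.cons_add, DM_cons, DM_cons, ih]
lemma DM_comm (s t) (f : Sm n) : DM s (DM t f) = DM t (DM s f) := by
  rw [← DM_add, ← DM_add, add_comm]
lemma DM_cst (s : Multiset (E n)) (hs : s ≠ 0) (c : ℝ) : DM s (cst c) = 0 := by
  induction s using Multiset.induction with
  | empty => exact absurd rfl hs
  | cons a s _ => rw [DM_cons', D_cst, map_zero]
lemma DM_rad (s) (f : Sm n) : DM s (rad f) = rad (DM s f) + (s.card : ℝ) • DM s f := by
  induction s using Multiset.induction with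
  | empty => simp
  | cons a s ih =>
    rw [DM_cons, ih, map_add, D_rad, Derivation.map_smul, ← DM_cons, Multiset.card_cons]
    push_cast; rw [add_smul, one_smul]; abel

lemma DM_mul (s) (f g : Sm n) :
    DM s (f * g) = ((Multiset.antidiagonal s).map fun p => DM p.1 f * DM p.2 g).sum := by
  induction s using Multiset.induction with
  | empty => simp
  | cons a s ih =>
    rw [DM_cons, ih, Multiset.antidiagonal_cons, Multiset.map_add, Multiset.sum_add,
      Multiset.map_map, Multiset.map_map, ← Multiset.sum_map_add]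
    have := map_multiset_sum (D a) ((Multiset.antidiagonal s).map fun p => DM p.1 f * DM p.2 g)
    rw [this, Multiset.map_map]
    congr 1
    refine Multiset.map_congr rfl fun p _ => ?_
    simp only [Function.comp, Prod.map, id, DM_cons, D_mul]; ring

def af (r : ℝ) (y : E n) : Sm n →ₗ[ℝ] Sm n where
  toFun f := Sm.of (fun x => f (r • x + y)) (f.smooth.comp (by fun_prop))
  map_add' _ _ := rfl
  map_smul' _ _ := rfl
@[simp] lemma af_apply (r : ℝ) (y : E n) (f : Sm n) (x) : af r y f x = f (r • x + y) := rfl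
lemma D_af (r : ℝ) (y v : E n) (f : Sm n) : D v (af r y f) = r • af r y (D v f) := by
  ext x
  have h1 : HasFDerivAt (fun x : E n => r • x + y) (r • ContinuousLinearMap.id ℝ (E n)) x :=
    ((hasFDerivAt_id x).const_smul r).add_const y
  have h2 := (f.hasF (r • x + y)).comp x h1
  show fderiv ℝ (f ∘ fun x => r • x + y) x v = _
  rw [h2.fderiv]; simp [D_apply]
lemma DM_af (r : ℝ) (y : E n) (s) (f : Sm n) :
    DM s (af r y f) = r ^ s.card • af r y (DM s f) := by
  induction s using Multiset.induction with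
  | empty => simp
  | cons a s ih =>
    rw [DM_cons, ih, Derivation.map_smul, D_af, DM_cons, smul_smul, Multiset.card_cons, pow_succ]

def ex (f : Sm n) : Sm n := Sm.of (fun x => Real.exp (f x)) f.smooth.exp
@[simp] lemma ex_apply (f : Sm n) (x) : ex f x = Real.exp (f x) := rfl
lemma D_ex (v : E n) (f : Sm n) : D v (ex f) = ex f * D v f := by
  ext x
  show fderiv ℝ (fun x => Real.exp (f x)) x v = _
  rw [(f.hasF x).exp.fderiv]; simp [D_apply]

lemma hasDerivAt_line (f : Sm n) (x v : E n) (t : ℝ) :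
    HasDerivAt (fun u : ℝ => f (x + u • v)) (D v f (x + t • v)) t := by
  have h1 : HasDerivAt (fun u : ℝ => x + u • v) v t := by
    simpa using ((hasDerivAt_id t).smul_const v).const_add x
  exact (f.hasF (x + t • v)).comp_hasDerivAt t h1

lemma jets (J : Multiset (E n) → E n → ℝ)
    (h : ∀ s x, DifferentiableAt ℝ (J s) x ∧ ∀ v, fderiv ℝ (J s) x v = J (v ::ₘ s) x) :
    ∃ p : Sm n, ∀ s x, DM s p x = J s x := by
  have h1 : ∀ k : ℕ, ∀ s, ContDiff ℝ k (J s) := by
    intro k
    induction k with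
    | zero => intro s; exact contDiff_zero.2 (Differentiable.continuous fun x => (h s x).1)
    | succ k ih =>
      intro s
      rw [Nat.cast_succ, contDiff_succ_iff_fderiv_apply]
      refine ⟨fun x => (h s x).1, by simp, fun y => ?_⟩
      have : (fun x => fderiv ℝ (J s) x y) = J (y ::ₘ s) := funext fun x => (h s x).2 y
      rw [this]; exact ih _
  have h2 : ∀ s, ContDiff ℝ ∞ (J s) := fun s => contDiff_infty.2 fun k => h1 k s
  refine ⟨Sm.of (J 0) (h2 0), fun s => ?_⟩
  induction s using Multiset.induction with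
  | empty => intro x; rfl
  | cons a s ih =>
    intro x
    have : (DM s (Sm.of (J 0) (h2 0)) : E n → ℝ) = J s := funext ih
    rw [DM_cons, D_apply, this, (h s x).2]

end Vale.Agent.P227
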