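import Vale.Agent.P227.Limit

open scoped ContDiff Topology
open Filter Set MeasureTheory
noncomputable section
namespace Vale.Agent.P227
variable {n : ℕ}

lemma frame (τ : Fin n → Fin n → ℝ) (hs : ∀ a b, τ a b = τ b a)
    (hp : ∀ ξ : Fin n → ℝ, 0 ≤ ∑ a, ∑ b, τ a b * ξ a * ξ b) :
    ∃ m : Matrix (Fin n) (Fin n) ℝ, ∀ a b, τ a b = ∑ i, m a i * m b i := by
  have h : (Matrix.of τ).PosSemidef := by
    refine Matrix.PosSemidef.of_dotProduct_mulVec_nonneg (by ext a b; simp [hs b a]) fun ξ => ?_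
    refine (hp ξ).trans (le_of_eq ?_)
    simp only [dotProduct, Matrix.mulVec, Matrix.of_apply, star_trivial, Finset.mul_sum]
    exact Finset.sum_congr rfl fun a _ => Finset.sum_congr rfl fun b _ => by ring
  open scoped MatrixOrder in
  obtain ⟨B, hB⟩ := CStarAlgebra.nonneg_iff_eq_star_mul_self.mp h.nonneg
  refine ⟨B.transpose, fun a b => ?_⟩
  have := congrFun (congrFun hB a) b
  simpa [Matrix.mul_apply] using this

def q0 (φ : Sm n) (w : E n) : Sm n := D w (D w φ)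
lemma DM_q0 (φ : Sm n) (w s) : DM s (q0 φ w) = q0 (DM s φ) w := by simp only [q0, DM_D]
lemma D_q0 (φ : Sm n) (w v) : D v (q0 φ w) = q0 (D v φ) w := DM_q0 φ w {v}
lemma Q2.polK0 {ψ : Sm n} (h : Q2 ψ) : PolK (q0 ψ) :=
  ⟨fun z => ((DD_cont ψ).comp (f := fun w => (w, z)) (by fun_prop)).measurable, fun k => by
    obtain ⟨M, hM⟩ := h k; exact ⟨M, fun w z => hM.DD w z⟩⟩

structure Ad (a b : ℝ) (φ : Sm n) : Prop where
  pos : 0 < a
  q2 : Q2 φ
  lo : ∀ w z, a * ‖w‖ ^ 2 ≤ D w (D w φ) z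
  hi : ∀ w z, D w (D w φ) z ≤ b * ‖w‖ ^ 2

lemma Ad.adm0 {a b} {φ : Sm n} (h : Ad a b φ) : Adm a b (q0 φ) :=
  ⟨h.q2.polK0, h.pos, h.lo, h.hi⟩
lemma Ad.adm {a b} {φ : Sm n} (h : Ad a b φ) (θ) : Adm a b (Q θ φ) :=
  ⟨h.q2.polK θ, h.pos, fun _ _ => le_Q _ _ _ _ _ fun _ _ => h.lo _ _,
    fun _ _ => Q_le _ _ _ _ _ fun _ _ => h.hi _ _⟩
lemma Ad.mono {a b a'} {φ : Sm n} (h : Ad a b φ) (h0 : 0 < a') (h1 : a' ≤ a) : Ad a' b φ :=
  ⟨h0, h.q2, fun w z => le_trans (by gcongr) (h.lo w z), h.hi⟩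

lemma bd2_of (φ : Sm n) (z) (b : ℝ) (hb : 0 ≤ b) (h0 : ∀ w, 0 ≤ D w (D w φ) z)
    (h1 : ∀ w, D w (D w φ) z ≤ b * ‖w‖ ^ 2) : BdAt 2 φ z b := by
  intro s hs hu
  obtain ⟨v, w, rfl⟩ := Multiset.card_eq_two.1 hs
  have hv : ‖v‖ ≤ 1 := hu v (by simp)
  have hw : ‖w‖ ≤ 1 := hu w (by simp)
  have e1 : DM {v, w} φ = D v (D w φ) := DM_cons v {w} φ
  have a1 := h0 (v + w)
  have a2 := h0 (v - w)
  have a3 := (h1 v).trans (mul_le_of_le_one_right hb (pow_le_one₀ (norm_nonneg _) hv))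
  have a4 := (h1 w).trans (mul_le_of_le_one_right hb (pow_le_one₀ (norm_nonneg _) hw))
  simp only [D_add_dir, D_sub_dir, map_add, map_sub, D_comm w v, Sm.add_apply, Sm.sub_apply] at a1 a2
  rw [e1, abs_le]; constructor <;> linarith

def gm (φ : Sm n) (a b : Fin n) : Sm n := D (e a) (D (e b) φ)
lemma gm_symm (φ : Sm n) (a b) : gm φ a b = gm φ b a := D_comm _ _ _
def ww (a b : Fin n) (w : E n) : Sm n := cst (w a * w b)
lemma bdAt_ww (a b : Fin n) (j) (w z : E n) :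
    BdAt j (ww a b w) z ((if j = 0 then 1 else 0) * ‖w‖ ^ 2) := by
  intro s hs _
  by_cases h : s = 0
  · subst h; subst hs
    simp only [DM_zero, ww, cst_apply, Multiset.card_zero, if_true, one_mul, abs_mul, sq]
    exact mul_le_mul (abs_coord_le _ _) (abs_coord_le _ _) (abs_nonneg _) (norm_nonneg _)
  · rw [ww, DM_cst s h, if_neg (by rw [← hs]; simpa using h)]; simp
lemma polK_ww (a b : Fin n) : PolK (ww a b) :=
  ⟨fun z => by simp only [ww, cst_apply]; fun_prop, fun k => ⟨_, bdAt_ww a b k⟩⟩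
def tau (φ : Sm n) (a b : Fin n) : Sm n := br (q0 φ) (ww a b)
lemma tau_symm (φ : Sm n) (a b) : tau φ a b = tau φ b a := by
  have : ww a b = ww b a := funext fun w => by rw [ww, ww, mul_comm]
  rw [tau, tau, this]
def LT (φ w : Sm n) : Sm n := ∑ a, ∑ b, tau φ a b * D (e a) (D (e b) w)
def LL (φ w : Sm n) : Sm n := LT φ w - rad w

lemma integral_sum2 {F : Fin n → Fin n → E n → ℝ} (hF : ∀ i j, Integrable (F i j)) :
    ∫ w, ∑ i, ∑ j, F i j w = ∑ i, ∑ j, ∫ w, F i j w := by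
  rw [integral_finsetSum _ fun i _ => integrable_finsetSum _ fun j _ => hF i j]
  exact Finset.sum_congr rfl fun i _ => integral_finsetSum _ fun j _ => hF i j

lemma BdAt.DD {ψ : Sm n} {M k y} (h : BdAt (k + 2) ψ y M) (w) :
    BdAt k (P227.D w (P227.D w ψ)) y (M * ‖w‖ ^ 2) := by
  have := (h.D w).D w
  rwa [mul_assoc, ← sq] at this

lemma inv_bounds {g τ : Fin n → Fin n → ℝ} (hg : ∀ a b, g a b = g b a)
    (h : ∀ i k, ∑ j, τ i j * g j k = if i = k then 1 else 0) {a b : ℝ} (ha : 0 < a)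
    (lo : ∀ w : E n, a * ‖w‖ ^ 2 ≤ ∑ i, ∑ j, w i * w j * g i j)
    (hi : ∀ w : E n, ∑ i, ∑ j, w i * w j * g i j ≤ b * ‖w‖ ^ 2) (ξ : E n) :
    ‖ξ‖ ^ 2 ≤ b * ∑ i, ∑ j, τ i j * ξ i * ξ j ∧ a * ∑ i, ∑ j, τ i j * ξ i * ξ j ≤ ‖ξ‖ ^ 2 := by
  set w : E n := WithLp.toLp 2 fun j => ∑ i, τ i j * ξ i with hw
  have w1 : ∀ j, w j = ∑ i, τ i j * ξ i := fun j => rfl
  have w2 : ∀ k, ∑ j, w j * g j k = ξ k := fun k => by
    simp only [w1, Finset.sum_mul]
    rw [Finset.sum_comm]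
    have : ∀ i, ∑ j, τ i j * ξ i * g j k = ξ i * ∑ j, τ i j * g j k := fun i => by
      rw [Finset.mul_sum]; exact Finset.sum_congr rfl fun _ _ => by ring
    simp [this, h]
  set s := ∑ i, ∑ j, τ i j * ξ i * ξ j
  have s1 : ∑ j, w j * ξ j = s := by
    simp only [w1, Finset.sum_mul, s]; rw [Finset.sum_comm]
  have B : ∀ u : E n, ∑ i, ∑ j, w i * u j * g i j = ∑ j, ξ j * u j := fun u => by
    rw [Finset.sum_comm]
    refine Finset.sum_congr rfl fun j _ => ?_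
    rw [← w2, Finset.sum_mul]; exact Finset.sum_congr rfl fun _ _ => by ring
  have B' : ∀ u : E n, ∑ i, ∑ j, u i * w j * g i j = ∑ j, ξ j * u j := fun u => by
    rw [← B, Finset.sum_comm]
    exact Finset.sum_congr rfl fun _ _ => Finset.sum_congr rfl fun _ _ => by rw [hg]; ring
  have s2 : ∑ j, ξ j * w j = s := by rw [← s1]; simp only [mul_comm]
  have s3 : ∑ j, ξ j * ξ j = ‖ξ‖ ^ 2 := by rw [normsq_eq]; simp only [sq]
  constructor
  · by_cases h0 : ξ = 0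
    · simp [h0, s]
    have hb : 0 < b := by
      have := (lo ξ).trans (hi ξ)
      have h2 : 0 < ‖ξ‖ ^ 2 := by positivity
      nlinarith
    have a1 := (mul_nonneg ha.le (sq_nonneg _)).trans (lo (b • w - ξ))
    have e1 : ∑ i, ∑ j, (b • w - ξ) i * (b • w - ξ) j * g i j =
        b ^ 2 * ∑ i, ∑ j, w i * w j * g i j - b * ∑ i, ∑ j, w i * ξ j * g i j
        - b * ∑ i, ∑ j, ξ i * w j * g i j + ∑ i, ∑ j, ξ i * ξ j * g i j := by
      simp only [Finset.mul_sum, ← Finset.sum_sub_distrib, ← Finset.sum_add_distrib]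
      exact Finset.sum_congr rfl fun _ _ => Finset.sum_congr rfl fun _ _ => by simp; ring
    rw [e1, B, B, B', s2, s3] at a1
    have := hi ξ
    nlinarith
  · have a1 := lo w
    rw [B, s2] at a1
    have a2 : 0 ≤ ‖ξ - a • w‖ ^ 2 := sq_nonneg _
    have e1 : ‖ξ - a • w‖ ^ 2 = ‖ξ‖ ^ 2 - 2 * a * s + a ^ 2 * ‖w‖ ^ 2 := by
      rw [← s2]
      simp only [normsq_eq, Finset.mul_sum, ← Finset.sum_sub_distrib, ← Finset.sum_add_distrib]
      exact Finset.sum_congr rfl fun _ _ => by simp; ring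
    nlinarith

namespace Ad
variable {a b : ℝ} {φ : Sm n} (h : Ad a b φ)
include h

lemma tau_apply (i j z) : tau φ i j z = ∫ w, w i * w j * om (q0 φ) w z :=
  h.adm0.br_apply (polK_ww i j) z
lemma tau_int (i j z) : Integrable fun w : E n => w i * w j * om (q0 φ) w z :=
  h.adm0.br_int (polK_ww i j) 0 z
lemma int_q0 (u : Sm n) (z) : ∫ w, q0 u w z * om (q0 φ) w z = LT φ u z := by
  simp only [LT, Sm.sum_apply, Sm.mul_apply, h.tau_apply, ← integral_mul_const]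
  rw [← integral_sum2 fun i j => (h.tau_int i j z).mul_const _]
  congr 1; ext w
  simp only [q0, DD_eq u w w, Finset.sum_mul]
  exact Finset.sum_congr rfl fun a _ => Finset.sum_congr rfl fun b _ => by ring
lemma br_q0 {u : Sm n} (hu : Q2 u) : br (q0 φ) (q0 u) = LT φ u := by
  ext z; rw [h.adm0.br_apply hu.polK0, h.int_q0]
lemma D_G0 (v) : D v (G (q0 φ)) = LT φ (D v φ) := by
  ext z; rw [h.adm0.D_G', ← h.int_q0]; simp only [D_q0]

lemma tau_mul (i k z) : ∑ j, tau φ i j z * gm φ j k z = if i = k then 1 else 0 := by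
  set U : Sm n := (1 / 2 : ℝ) • ∑ c, ∑ d, gm φ c d z • (X c * X d)
  have hU : ∀ w, U w = 1 / 2 * q0 φ w z := by
    intro w
    simp only [U, q0, DD_eq φ w w, Sm.smul_apply, Sm.sum_apply, Sm.mul_apply, X_apply, gm]
    congr 1
    exact Finset.sum_congr rfl fun a _ => Finset.sum_congr rfl fun b _ => by ring
  have hU1 : T1 U := (Tm.sum _ fun c _ => Tm.sum _ fun d _ => ((tm_X c).mul (tm_X d)).smul _).smul _
  have hU2 : Coer U := ⟨a / 2, by linarith [h.pos], 0, fun w => by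
    rw [hU]; linarith [h.adm0.lo w z]⟩
  have hU3 : ∀ w, D (e k) U w = ∑ j, w j * gm φ j k z := by
    intro w
    simp only [U, Derivation.map_smul, map_sum, D_mul, D_X, Sm.smul_apply, Sm.sum_apply,
      Sm.mul_apply, X_apply, Sm.add_apply, cst_apply, e_apply, mul_add, Finset.sum_add_distrib]
    rw [Finset.sum_comm]
    simp [gm_symm φ k, mul_comm]; ring
  have h1 := WI_ibp (tm_X i) hU2 hU1 (e k)
  have hZ := (h.adm0.ZZ_pos z).ne'
  have e1 : ∀ w, Real.exp (-U w) = om (q0 φ) w z * ZZ (q0 φ) z := fun w => by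
    rw [h.adm0.om_apply, hU, div_mul_cancel₀ _ hZ, neg_mul]
  simp only [WI, D_X, cst_apply, Sm.mul_apply, X_apply, hU3, e1, ← mul_assoc, integral_mul_const,
    integral_const_mul, h.adm0.om_integral, mul_one, mul_left_inj' hZ, e_apply] at h1
  rw [h1]
  simp only [h.tau_apply, ← integral_mul_const]
  rw [← integral_finsetSum _ fun j _ => (h.tau_int i j z).mul_const _]
  congr 1; ext w
  rw [Finset.mul_sum, Finset.sum_mul]
  exact Finset.sum_congr rfl fun b _ => by ring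
lemma tau_bounds (z ξ : E n) : ‖ξ‖ ^ 2 ≤ b * ∑ i, ∑ j, tau φ i j z * ξ i * ξ j ∧
    a * ∑ i, ∑ j, tau φ i j z * ξ i * ξ j ≤ ‖ξ‖ ^ 2 :=
  inv_bounds (g := fun i j => gm φ i j z) (fun i j => by rw [gm_symm])
    (h.tau_mul · · z) h.pos
    (fun w => by have := h.lo w z; rwa [DD_eq] at this)
    (fun w => by have := h.hi w z; rwa [DD_eq] at this) ξ
lemma tau_nonneg (z : E n) (ξ : Fin n → ℝ) : 0 ≤ ∑ i, ∑ j, tau φ i j z * ξ i * ξ j := by
  simp only [h.tau_apply, ← integral_mul_const]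
  rw [← integral_sum2 fun i j => ((h.tau_int i j z).mul_const _).mul_const _]
  refine integral_nonneg fun w => ?_
  have : ∑ i, ∑ j, w i * w j * om (q0 φ) w z * ξ i * ξ j =
      (∑ i, w i * ξ i) ^ 2 * om (q0 φ) w z := by
    rw [sq, Finset.sum_mul_sum, Finset.sum_mul]
    refine Finset.sum_congr rfl fun _ _ => ?_
    rw [Finset.sum_mul]; exact Finset.sum_congr rfl fun _ _ => by ring
  simp only [this, Pi.zero_apply]
  exact mul_nonneg (sq_nonneg _) (Adm.om_pos _ _).le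
end Ad

lemma tau_bd (a b : ℝ) (r : ℕ) : ∃ c : ℝ, 1 ≤ c ∧ ∀ φ : Sm n, Ad a b φ → ∀ z W, Wt W r →
    (∀ j, 1 ≤ j → j ≤ r → BdAt (j + 2) φ z (W j)) →
    ∀ j ≤ r, ∀ i k, BdAt j (tau φ i k) z (c * W j) := by
  obtain ⟨c, hc, h1⟩ := qb (n := n) a b r
  set I := ∫ w : E n, pg (2 + 2 * r) (a / 2) w
  have hI : 0 ≤ I := int_pg_nonneg _ _
  refine ⟨1 + 2 ^ r * c * I, le_add_of_nonneg_right (by positivity),
    fun φ h z W hW hφ j hj i k => ?_⟩
  obtain ⟨-, h2⟩ := h1 _ h.adm0 z W hW fun j b1 b2 w => (hφ j b1 b2).DD w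
  have := hW.pos j
  refine (h.adm0.br_bd (polK_ww i k) j (2 * r) z (fun j => if j = 0 then 1 else 0)
    (fun j => c * W j) (c * W j) (fun j _ w => bdAt_ww i k j w z)
    (fun j _ => by split_ifs <;> norm_num) (fun j _ => by have := hW.pos j; positivity)
    (fun j' hj' => h2 j' (hj'.trans hj)) fun i' j' hij => ?_).mono ?_
  · split_ifs with h0
    · subst h0; rw [zero_add] at hij; rw [hij, one_mul]
    · rw [zero_mul]; positivity
  · have : (2 : ℝ) ^ j ≤ 2 ^ r := pow_le_pow_right₀ (by norm_num) hj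
    calc _ ≤ 2 ^ r * (c * W j) * I := by gcongr
      _ = (2 ^ r * c * I) * W j := by ring
      _ ≤ _ := by gcongr; linarith

def UP {κ : Type*} (χ : κ → E n → Sm n) : Prop :=
  ∀ k, ∃ M : ℝ, ∀ i w z, BdAt k (χ i w) z (M * ‖w‖ ^ 2)
lemma UP.upto {κ : Type*} {χ : κ → E n → Sm n} (h : UP χ) (k : ℕ) :
    ∃ C : ℝ, 1 ≤ C ∧ ∀ j ≤ k, ∀ i w z, BdAt j (χ i w) z (C * ‖w‖ ^ 2) := by
  choose C hC using h
  refine ⟨1 + ∑ j ∈ Finset.range (k + 1), |C j|, by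
    have := Finset.sum_nonneg (s := Finset.range (k + 1)) fun j _ => abs_nonneg (C j)
    linarith, fun j hj i w z => (hC j i w z).mono ?_⟩
  have := Finset.single_le_sum (s := Finset.range (k + 1)) (f := fun j => |C j|)
    (fun j _ => abs_nonneg (C j)) (Finset.mem_range.2 (Nat.lt_succ_of_le hj))
  have := le_abs_self (C j)
  gcongr; linarith

lemma UP.qb {κ : Type*} {q : κ → E n → Sm n} {a b} (h : ∀ i, Adm a b (q i)) (hq : UP q) (k : ℕ) :
    ∃ C : ℝ, 1 ≤ C ∧ ∀ i z, (∀ j, 1 ≤ j → j ≤ k → BdAt j (G (q i)) z C) ∧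
      (∀ j ≤ k, ∀ w, BdAt j (q i w) z (C * ‖w‖ ^ 2)) ∧
      ∀ j ≤ k, ∀ w, BdAt j (om (q i) w) z (C * pg (2 * k) (a / 2) w) := by
  obtain ⟨c, hc, h1⟩ := P227.qb (n := n) a b k
  obtain ⟨K, hK, h2⟩ := hq.upto k
  have hK' : 1 ≤ K ^ (k + 1) := one_le_pow₀ hK
  refine ⟨c * K ^ (k + 1), by nlinarith, fun i z => ?_⟩
  obtain ⟨a1, a2⟩ := h1 _ (h i) z _ (wt_pow hK k) fun j b1 b2 w => (h2 j b2 i w z).mono (by
    gcongr; exact le_self_pow₀ hK (by omega))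
  have a3 : ∀ j ≤ k, c * K ^ j ≤ c * K ^ (k + 1) := fun j hj => by
    gcongr; omega
  refine ⟨fun j b1 b2 => (a1 j b1 b2).mono (a3 j b2), fun j hj w => (h2 j hj i w z).mono ?_,
    fun j hj w => (a2 j hj w).mono ?_⟩
  · gcongr
    have := le_self_pow₀ hK (show k + 1 ≠ 0 by omega)
    nlinarith
  · exact mul_le_mul_of_nonneg_right (a3 j hj) (pg_pos _ _ _).le

lemma tm_of_bd {κ : Type*} {F : κ → Sm n} (h : ∀ k, ∃ M, ∀ i, Bd k (F i) M) : Tm F := fun k => by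
  obtain ⟨M, hM⟩ := h k
  exact ⟨M, 0, fun i x => by simpa using hM i x⟩

lemma UP.bd_G {κ : Type*} {q : κ → E n → Sm n} {a b} (h : ∀ i, Adm a b (q i)) (hq : UP q) (k) :
    ∃ M, ∀ i, Bd k (G (q i)) M := by
  rcases Nat.eq_zero_or_pos k with rfl | hk
  · obtain ⟨C, hC⟩ := G_abs (n := n) a b
    exact ⟨C, fun i x => bdAt_zero (hC _ (h i) x)⟩
  · obtain ⟨C, -, hC⟩ := hq.qb h k
    exact ⟨C, fun i x => (hC i x).1 k hk le_rfl⟩

lemma UP.bd_br {κ : Type*} {q χ : κ → E n → Sm n} {a b} (h : ∀ i, Adm a b (q i)) (hq : UP q)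
    (hχ : UP χ) (hχ' : ∀ i, PolK (χ i)) (k) : ∃ M, ∀ i, Bd k (br (q i) (χ i)) M := by
  obtain ⟨C, h0, hC⟩ := hq.qb h k
  obtain ⟨K, hK, h2⟩ := hχ.upto k
  exact ⟨_, fun i z => (h i).br_bd (hχ' i) k (2 * k) z (fun _ => K) (fun _ => C) (K * C)
    (fun j hj w => h2 j hj i w z) (fun _ _ => by linarith) (fun _ _ => by linarith)
    (hC i z).2.2 fun _ _ _ => le_rfl⟩

def UQ {κ : Type*} (φ : κ → Sm n) : Prop := ∀ k, ∃ M, ∀ i, Bd (k + 2) (φ i) M
lemma UQ.q0 {κ : Type*} {φ : κ → Sm n} (h : UQ φ) : UP fun i => q0 (φ i) := fun k => by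
  obtain ⟨M, hM⟩ := h k; exact ⟨M, fun i w z => (hM i).DD w z⟩
lemma UQ.Q {κ : Type*} {φ : κ → Sm n} (h : UQ φ) (θ : κ → ℝ) : UP fun i => Q (θ i) (φ i) :=
  fun k => by obtain ⟨M, hM⟩ := h k; exact ⟨M, fun i w z => (hM i).Q _ w z⟩
lemma UQ.bd_tau {κ : Type*} {φ : κ → Sm n} {a b} (h : ∀ i, Ad a b (φ i)) (hq : UQ φ) (j l k) :
    ∃ M, ∀ i, Bd k (tau (φ i) j l) M :=
  hq.q0.bd_br (fun i => (h i).adm0) (χ := fun _ => ww j l)
    (fun k => ⟨_, fun _ => bdAt_ww j l k⟩) (fun _ => polK_ww j l) k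
lemma UQ.tm_tau {κ : Type*} {φ : κ → Sm n} {a b} (h : ∀ i, Ad a b (φ i)) (hq : UQ φ) (j l) :
    Tm fun i => tau (φ i) j l := tm_of_bd (hq.bd_tau h j l)

end Vale.Agent.P227
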