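import Vale.Agent.P227.Leib

open scoped ContDiff Topology
open Filter Set
noncomputable section
namespace Vale.Agent.P227
variable {n : ℕ} {κ : Type*}

def Tm (F : κ → Sm n) : Prop :=
  ∀ k, ∃ C : ℝ, ∃ p : ℕ, ∀ i x, BdAt k (F i) x (C * (1 + ‖x‖) ^ p)

lemma one_le_w (x : E n) : 1 ≤ 1 + ‖x‖ := by simp
lemma one_le_wp (x : E n) (p : ℕ) : 1 ≤ (1 + ‖x‖) ^ p := one_le_pow₀ (one_le_w x)

lemma wp_mono {C C' : ℝ} {p p' : ℕ} (x : E n) (hC : C ≤ C') (h0 : 0 ≤ C') (hp : p ≤ p') :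
    C * (1 + ‖x‖) ^ p ≤ C' * (1 + ‖x‖) ^ p' :=
  (mul_le_mul_of_nonneg_right hC (by positivity)).trans
    (mul_le_mul_of_nonneg_left (pow_le_pow_right₀ (one_le_w x) hp) h0)

lemma Tm.upto {F : κ → Sm n} (h : Tm F) (k : ℕ) :
    ∃ C : ℝ, ∃ p : ℕ, 0 ≤ C ∧ ∀ j ≤ k, ∀ i x, BdAt j (F i) x (C * (1 + ‖x‖) ^ p) := by
  induction k with
  | zero =>
    obtain ⟨C, p, h⟩ := h 0
    refine ⟨|C|, p, abs_nonneg _, fun j hj i x => ?_⟩
    obtain rfl := Nat.le_zero.1 hj
    exact (h i x).mono (wp_mono x (le_abs_self C) (abs_nonneg _) le_rfl)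
  | succ k ih =>
    obtain ⟨C, p, h0, h1⟩ := ih
    obtain ⟨C', p', h2⟩ := h (k + 1)
    refine ⟨max C C', max p p', le_max_of_le_left h0, fun j hj i x => ?_⟩
    rcases Nat.lt_or_ge j (k + 1) with h | h
    · exact (h1 j (by omega) i x).mono
        (wp_mono x (le_max_left _ _) (le_max_of_le_left h0) (le_max_left _ _))
    · obtain rfl : j = k + 1 := by omega
      exact (h2 i x).mono (wp_mono x (le_max_right _ _) (le_max_of_le_left h0) (le_max_right _ _))

lemma Tm.pos {F : κ → Sm n} (h : Tm F) (k : ℕ) :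
    ∃ C : ℝ, ∃ p : ℕ, 0 ≤ C ∧ ∀ i x, BdAt k (F i) x (C * (1 + ‖x‖) ^ p) := by
  obtain ⟨C, p, h0, h1⟩ := h.upto k
  exact ⟨C, p, h0, h1 k le_rfl⟩

lemma Tm.val {F : κ → Sm n} (h : Tm F) :
    ∃ C : ℝ, ∃ p : ℕ, 0 ≤ C ∧ ∀ i x, |F i x| ≤ C * (1 + ‖x‖) ^ p := by
  obtain ⟨C, p, h0, h1⟩ := h.pos 0
  exact ⟨C, p, h0, fun i x => (h1 i x).zero⟩

lemma Tm.loc {F : κ → Sm n} (h : Tm F) (k : ℕ) (R : ℝ) :
    ∃ C : ℝ, 0 ≤ C ∧ ∀ i x, ‖x‖ ≤ R → BdAt k (F i) x C := by
  obtain ⟨C, p, h0, h1⟩ := h.pos k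
  refine ⟨C * (1 + |R|) ^ p, by positivity, fun i x hx => (h1 i x).mono ?_⟩
  have := le_abs_self R
  gcongr; linarith

lemma Tm.comp {κ' : Type*} {F : κ → Sm n} (h : Tm F) (g : κ' → κ) : Tm fun i => F (g i) := by
  intro k; obtain ⟨C, p, h⟩ := h k; exact ⟨C, p, fun i x => h _ x⟩

lemma Tm.add {F G : κ → Sm n} (h : Tm F) (h' : Tm G) : Tm fun i => F i + G i := by
  intro k
  obtain ⟨C, p, h0, h⟩ := h.pos k
  obtain ⟨C', p', h0', h'⟩ := h'.pos k
  refine ⟨C + C', max p p', fun i x => ((h i x).add (h' i x)).mono ?_⟩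
  rw [add_mul]
  exact add_le_add (wp_mono x le_rfl h0 (le_max_left _ _)) (wp_mono x le_rfl h0' (le_max_right _ _))

lemma Tm.smul' {F : κ → Sm n} (h : Tm F) (c : κ → ℝ) (B : ℝ) (hc : ∀ i, |c i| ≤ B) :
    Tm fun i => c i • F i := by
  intro k
  obtain ⟨C, p, h0, h⟩ := h.pos k
  refine ⟨B * C, p, fun i x => ((h i x).smul (c i)).mono ?_⟩
  rw [mul_assoc]; exact mul_le_mul_of_nonneg_right (hc i) (by positivity)
lemma Tm.smul {F : κ → Sm n} (h : Tm F) (c : ℝ) : Tm fun i => c • F i :=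
  h.smul' (fun _ => c) |c| fun _ => le_rfl
lemma Tm.neg {F : κ → Sm n} (h : Tm F) : Tm fun i => - F i := by
  simpa using h.smul (-1)
lemma Tm.sub {F G : κ → Sm n} (h : Tm F) (h' : Tm G) : Tm fun i => F i - G i := by
  simpa [sub_eq_add_neg] using h.add h'.neg

lemma Tm.mul {F G : κ → Sm n} (h : Tm F) (h' : Tm G) : Tm fun i => F i * G i := by
  intro k
  obtain ⟨C, p, h0, h⟩ := h.upto k
  obtain ⟨C', p', h0', h'⟩ := h'.upto k
  refine ⟨2 ^ k * (C * C'), p + p', fun i x s hs hu => ?_⟩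
  refine (abs_DM_mul_le s _ _ x (C * C' * (1 + ‖x‖) ^ (p + p')) ?_).trans
    (by rw [hs]; ring_nf; rfl)
  rintro s1 s2 rfl
  rw [Multiset.card_add] at hs
  have a1 := h s1.card (by omega) i x s1 rfl hu.left
  have a2 := h' s2.card (by omega) i x s2 rfl hu.right
  calc _ ≤ (C * (1 + ‖x‖) ^ p) * (C' * (1 + ‖x‖) ^ p') := by gcongr
    _ = _ := by ring

lemma Tm.D' {F : κ → Sm n} (h : Tm F) (v : κ → E n) (B : ℝ) (hv : ∀ i, ‖v i‖ ≤ B) :
    Tm fun i => D (v i) (F i) := by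
  intro k
  obtain ⟨C, p, h0, h⟩ := h.pos (k + 1)
  refine ⟨C * B, p, fun i x => ((h i x).D (v i)).mono ?_⟩
  have := hv i
  calc _ ≤ C * (1 + ‖x‖) ^ p * B := by gcongr
    _ = _ := by ring
lemma Tm.D {F : κ → Sm n} (h : Tm F) (v : E n) : Tm fun i => D v (F i) :=
  h.D' (fun _ => v) ‖v‖ fun _ => le_rfl
lemma Tm.DM {F : κ → Sm n} (h : Tm F) (s : Multiset (E n)) : Tm fun i => DM s (F i) := by
  induction s using Multiset.induction with
  | empty => exact h
  | cons a s ih => simpa only [DM_cons] using ih.D a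

lemma tm_cst (c : κ → ℝ) (B : ℝ) (hc : ∀ i, |c i| ≤ B) : Tm fun i => (cst (c i) : Sm n) := by
  intro k
  refine ⟨|B|, 0, fun i x s hs _ => ?_⟩
  by_cases h : s = 0
  · subst h; simpa using (hc i).trans (le_abs_self B)
  · rw [DM_cst s h]; simp
lemma tm_cst' (c : ℝ) : Tm fun _ : κ => (cst c : Sm n) := tm_cst (fun _ => c) |c| fun _ => le_rfl
lemma tm_zero : Tm fun _ : κ => (0 : Sm n) := by simpa [cst] using tm_cst' (κ := κ) (n := n) 0
lemma tm_one : Tm fun _ : κ => (1 : Sm n) := by simpa [cst] using tm_cst' (κ := κ) (n := n) 1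
lemma Tm.sum {ι : Type*} (t : Finset ι) {F : ι → κ → Sm n} (h : ∀ j ∈ t, Tm (F j)) :
    Tm fun i => ∑ j ∈ t, F j i := by
  classical
  induction t using Finset.induction with
  | empty => simpa using tm_zero
  | insert a t ha ih =>
    simp only [Finset.sum_insert ha]
    exact (h a (Finset.mem_insert_self _ _)).add (ih fun j hj => h j (Finset.mem_insert_of_mem hj))
lemma Tm.pow {F : κ → Sm n} (h : Tm F) (k : ℕ) : Tm fun i => F i ^ k := by
  induction k with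
  | zero => simpa using tm_one
  | succ k ih => simpa only [pow_succ] using ih.mul h

lemma tm_X (a : Fin n) : Tm fun _ : κ => X a := by
  intro k
  refine ⟨1, 1, fun i x s hs hu => ?_⟩
  induction s using Multiset.induction with
  | empty => simpa using (abs_coord_le x a).trans (by linarith)
  | cons v s _ =>
    rw [DM_cons', D_X]
    have := norm_nonneg x
    by_cases h : s = 0
    · subst h; simpa using ((abs_coord_le v a).trans hu.head).trans (by linarith)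
    · rw [DM_cst s h]; simp; linarith
lemma Tm.rad {F : κ → Sm n} (h : Tm F) : Tm fun i => rad (F i) := by
  simp only [rad_eq]
  exact Tm.sum _ fun a _ => (tm_X a).mul (h.D _)
lemma Tm.hs {F : κ → Sm n} (h : Tm F) (j : ℕ) : Tm fun i => hs j (F i) := by
  induction j generalizing F with
  | zero => exact h.pow 2
  | succ j ih => exact Tm.sum _ fun a _ => ih (h.D _)

lemma Tm.af {F : κ → Sm n} (h : Tm F) (r : κ → ℝ) (hr : ∀ i, |r i| ≤ 1) :
    Tm fun i => af (r i) 0 (F i) := by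
  intro k
  obtain ⟨C, p, h0, h⟩ := h.pos k
  refine ⟨C, p, fun i x s hs hu => ?_⟩
  rw [DM_af, Sm.smul_apply, af_apply, abs_mul, abs_pow]
  refine (mul_le_of_le_one_left (abs_nonneg _) (pow_le_one₀ (abs_nonneg _) (hr i))).trans
    ((h i _ s hs hu).trans ?_)
  gcongr
  rw [add_zero, norm_smul]
  exact mul_le_of_le_one_left (norm_nonneg _) (hr i)

def cen (f : Sm n) : Sm n := f - cst (f 0)
@[simp] lemma cen_apply (f : Sm n) (x) : cen f x = f x - f 0 := rfl
lemma D_cen (v) (f : Sm n) : D v (cen f) = D v f := by simp [cen]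
lemma DM_cen (s : Multiset (E n)) (hs : s ≠ 0) (f : Sm n) : DM s (cen f) = DM s f := by
  simp [cen, DM_cst s hs]
lemma Tm.cen {F : κ → Sm n} (h : Tm F) : Tm fun i => cen (F i) := by
  obtain ⟨C, p, _, h1⟩ := h.val
  exact h.sub (tm_cst _ _ fun i => h1 i 0)

lemma abs_sub_le_line (f : Sm n) (x v : E n) (L : ℝ)
    (h : ∀ t ∈ Icc (0 : ℝ) 1, |D v f (x + t • v)| ≤ L) : |f (x + v) - f x| ≤ L := by
  have := norm_image_sub_le_of_norm_deriv_le_segment_01' (f := fun u : ℝ => f (x + u • v))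
    (f' := fun u => D v f (x + u • v)) (C := L)
    (fun t _ => (hasDerivAt_line f x v t).hasDerivWithinAt) (fun t ht => h t (Ico_subset_Icc_self ht))
  simpa using this

lemma taylor2 (f : Sm n) (x v : E n) (L : ℝ)
    (h : ∀ t ∈ Icc (0 : ℝ) 1, |D v (D v f) (x + t • v)| ≤ L) :
    |f (x + v) - f x - D v f x| ≤ L := by
  have := norm_image_sub_le_of_norm_deriv_le_segment_01'
    (f := fun u : ℝ => f (x + u • v) - u * D v f x)
    (f' := fun u => D v f (x + u • v) - D v f x) (C := L)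
    (fun t _ => ((hasDerivAt_line f x v t).sub
      (by simpa using (hasDerivAt_id t).mul_const (D v f x))).hasDerivWithinAt) (fun t ht => by
        refine (abs_sub_le_line (D v f) x (t • v) (t * L) fun u hu => ?_).trans
          (mul_le_of_le_one_left ((abs_nonneg _).trans (h 0 (by simp))) ht.2.le)
        rw [D_smul_dir, Sm.smul_apply, abs_mul, abs_of_nonneg ht.1, smul_smul]
        exact mul_le_mul_of_nonneg_left (h _ ⟨mul_nonneg hu.1 ht.1,
          mul_le_one₀ hu.2 ht.1 ht.2.le⟩) ht.1)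
  simp only [one_smul, one_mul, zero_smul, add_zero, zero_mul, sub_zero, Real.norm_eq_abs] at this
  convert this using 2; ring

lemma norm_seg (x v : E n) {t : ℝ} (ht : t ∈ Icc (0 : ℝ) 1) : ‖x + t • v‖ ≤ ‖x‖ + ‖v‖ := by
  refine (norm_add_le _ _).trans ?_
  rw [norm_smul, Real.norm_eq_abs, abs_of_nonneg ht.1]
  have := mul_le_of_le_one_left (norm_nonneg v) ht.2
  linarith

lemma Tm.lip {F : κ → Sm n} (h : Tm F) (x : E n) :
    ∃ C : ℝ, 0 ≤ C ∧ ∀ i v, ‖v‖ ≤ 1 → |F i (x + v) - F i x| ≤ C * ‖v‖ := by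
  obtain ⟨C, h0, h1⟩ := h.loc 1 (‖x‖ + 1)
  exact ⟨C, h0, fun i v hv => abs_sub_le_line _ _ _ _ fun t ht =>
    ((h1 i _ ((norm_seg x v ht).trans (by linarith))).D v).zero⟩

lemma Tm.tay {F : κ → Sm n} (h : Tm F) (x : E n) :
    ∃ C : ℝ, 0 ≤ C ∧ ∀ i v, ‖v‖ ≤ 1 → |F i (x + v) - F i x - P227.D v (F i) x| ≤ C * ‖v‖ ^ 2 := by
  obtain ⟨C, h0, h1⟩ := h.loc 2 (‖x‖ + 1)
  refine ⟨C, h0, fun i v hv => taylor2 _ _ _ _ fun t ht => ?_⟩
  have := (((h1 i _ ((norm_seg x v ht).trans (by linarith))).D v).D v).zero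
  rwa [mul_assoc, ← sq] at this

lemma Tm.tendsto_D {F : κ → Sm n} (h : Tm F) {l : Filter κ} {G : Sm n}
    (hG : ∀ x, Tendsto (fun i => F i x) l (𝓝 (G x))) (v x : E n) :
    Tendsto (fun i => P227.D v (F i) x) l (𝓝 (P227.D v G x)) := by
  obtain ⟨C, h0, h1⟩ := h.tay x
  rw [Metric.tendsto_nhds]
  intro ε hε
  have h2 : Tendsto (fun δ : ℝ => δ⁻¹ * (G (x + δ • v) - G x)) (𝓝[>] 0) (𝓝 (P227.D v G x)) := by
    have := (hasDerivAt_line G x v 0).tendsto_slope_zero_right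
    simpa using this
  have h3 : Tendsto (fun δ : ℝ => δ * ‖v‖) (𝓝[>] 0) (𝓝 0) := by
    have : Tendsto (fun δ : ℝ => δ * ‖v‖) (𝓝 0) (𝓝 (0 * ‖v‖)) := tendsto_id.mul_const _
    rw [zero_mul] at this; exact this.mono_left nhdsWithin_le_nhds
  have h4 : Tendsto (fun δ : ℝ => δ * (C * ‖v‖ ^ 2)) (𝓝[>] 0) (𝓝 0) := by
    have : Tendsto (fun δ : ℝ => δ * (C * ‖v‖ ^ 2)) (𝓝 0) (𝓝 (0 * (C * ‖v‖ ^ 2))) :=
      tendsto_id.mul_const _
    rw [zero_mul] at this; exact this.mono_left nhdsWithin_le_nhds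
  obtain ⟨δ, ⟨⟨a1, a2⟩, a3⟩, a4⟩ := ((((Metric.tendsto_nhds.1 h2 (ε / 3) (by linarith)).and
    (h3.eventually (gt_mem_nhds one_pos))).and
    (h4.eventually (gt_mem_nhds (show 0 < ε / 3 by linarith)))).and self_mem_nhdsWithin).exists
  have hδ : 0 < δ := a4
  have h5 := ((hG (x + δ • v)).sub (hG x)).const_mul δ⁻¹
  filter_upwards [Metric.tendsto_nhds.1 h5 (ε / 3) (by linarith)] with i hi
  have h6 := h1 i (δ • v) (by rw [norm_smul, Real.norm_eq_abs, abs_of_pos hδ]; exact a2.le)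
  rw [D_smul_dir, Sm.smul_apply, norm_smul, Real.norm_eq_abs, abs_of_pos hδ] at h6
  have h7 : |δ⁻¹ * (F i (x + δ • v) - F i x) - P227.D v (F i) x| ≤ δ * (C * ‖v‖ ^ 2) := by
    have : δ⁻¹ * (F i (x + δ • v) - F i x) - P227.D v (F i) x
        = δ⁻¹ * (F i (x + δ • v) - F i x - δ * P227.D v (F i) x) := by field_simp
    rw [this, abs_mul, abs_of_pos (inv_pos.2 hδ), inv_mul_le_iff₀ hδ]
    refine h6.trans (le_of_eq ?_); ring
  rw [Real.dist_eq] at *
  have := abs_lt.1 hi; have := abs_lt.1 a1; have := abs_le.1 h7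
  rw [abs_lt]; constructor <;> linarith

lemma Tm.tendsto_DM {F : κ → Sm n} (h : Tm F) {l : Filter κ} {G : Sm n}
    (hG : ∀ x, Tendsto (fun i => F i x) l (𝓝 (G x))) (s : Multiset (E n)) (x : E n) :
    Tendsto (fun i => P227.DM s (F i) x) l (𝓝 (P227.DM s G x)) := by
  induction s using Multiset.induction generalizing x with
  | empty => exact hG x
  | cons a s ih => simp only [DM_cons]; exact (h.DM s).tendsto_D ih a x

lemma Tm.ulim {F : κ → Sm n} (h : Tm F) (U : Ultrafilter κ) :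
    ∃ p : Sm n, ∀ s x, Tendsto (fun i => P227.DM s (F i) x) U (𝓝 (P227.DM s p x)) := by
  have h1 : ∀ s x, ∃ y, Tendsto (fun i => P227.DM s (F i) x) U (𝓝 y) := by
    intro s x
    obtain ⟨C, p, _, h1⟩ := (h.DM s).val
    obtain ⟨y, _, hy⟩ := (isCompact_Icc (a := -(C * (1 + ‖x‖) ^ p))
      (b := C * (1 + ‖x‖) ^ p)).ultrafilter_le_nhds
      (U.map fun i => P227.DM s (F i) x) (by
        rw [le_principal_iff, Ultrafilter.coe_map, mem_map]
        exact univ_mem' fun i => abs_le.1 (h1 i x))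
    exact ⟨y, hy⟩
  choose J hJ using h1
  have h2 : ∀ s x v, J (v ::ₘ s) x = ∑ a, v a * J (e a ::ₘ s) x := by
    intro s x v
    refine tendsto_nhds_unique (hJ _ x) ?_
    have : ∀ i, P227.DM (v ::ₘ s) (F i) x = ∑ a, v a * P227.DM (e a ::ₘ s) (F i) x := by
      intro i; rw [DM_cons, D_eq_sum]; simp [DM_cons]
    simp only [this]
    exact tendsto_finsetSum _ fun a _ => (hJ _ x).const_mul _
  obtain ⟨p, hp⟩ := jets J fun s x => by
    obtain ⟨C, h0, h3⟩ := (h.DM s).tay x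
    have h4 : HasFDerivAt (J s)
        (∑ a, J (e a ::ₘ s) x • (EuclideanSpace.proj a : E n →L[ℝ] ℝ)) x := by
      rw [hasFDerivAt_iff_isLittleO_nhds_zero]
      refine Asymptotics.IsBigO.trans_isLittleO (g := fun v : E n => ‖v‖ ^ 2) ?_
        (Asymptotics.isLittleO_norm_pow_id (by norm_num))
      refine Asymptotics.IsBigO.of_bound C ?_
      filter_upwards [Metric.closedBall_mem_nhds (0 : E n) one_pos] with v hv
      have h5 := (((hJ s (x + v)).sub (hJ s x)).sub (hJ (v ::ₘ s) x)).abs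
      have h6 := le_of_tendsto' h5 fun i => by
        simpa only [DM_cons] using h3 i v (by simpa using hv)
      rw [h2] at h6
      simpa [mul_comm] using h6
    refine ⟨h4.differentiableAt, fun v => ?_⟩
    rw [h4.fderiv, h2]; simp [mul_comm]
  exact ⟨p, fun s x => by rw [hp]; exact hJ s x⟩

lemma Tm.continuous [TopologicalSpace κ] {F : κ → Sm n} (h : Tm F)
    (hc : ∀ x, Continuous fun i => F i x) : Continuous fun p : κ × E n => F p.1 p.2 := by
  rw [continuous_iff_continuousAt]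
  rintro ⟨i, x⟩
  obtain ⟨C, h0, h1⟩ := h.lip x
  have h2 : Tendsto (fun p : κ × E n => F p.1 x) (𝓝 (i, x)) (𝓝 (F i x)) :=
    ((hc x).comp continuous_fst).continuousAt
  have h3 : Tendsto (fun p : κ × E n => F p.1 p.2 - F p.1 x) (𝓝 (i, x)) (𝓝 0) := by
    have h4 : Tendsto (fun p : κ × E n => ‖p.2 - x‖) (𝓝 (i, x)) (𝓝 0) := by
      have : Continuous fun p : κ × E n => ‖p.2 - x‖ := by fun_prop
      simpa using this.tendsto (i, x)
    refine squeeze_zero_norm' ?_ (by simpa using h4.const_mul C)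
    filter_upwards [h4.eventually (gt_mem_nhds one_pos)] with p hp
    simpa using h1 p.1 (p.2 - x) hp.le
  simpa [ContinuousAt] using h3.add h2

lemma Tm.dil {F : κ → Sm n} (hF : Tm F) (h : κ → ℝ) (h0 : ∀ i, 0 < h i) (h1 : ∀ i, h i ≤ 1) :
    Tm fun i => (h i)⁻¹ • (P227.af (1 - h i) 0 (F i) - F i) := by
  intro k
  obtain ⟨C, p, hC, hb⟩ := hF.upto (k + 1)
  refine ⟨k * C + C, p + 1, fun i x s hs hu => ?_⟩
  have := h0 i; have := h1 i
  have n1 : ∀ t ∈ Icc (0 : ℝ) 1, ‖x + t • (-(h i) • x)‖ ≤ ‖x‖ := by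
    intro t ht
    have : x + t • (-(h i) • x) = (1 - t * h i) • x := by
      rw [smul_smul, sub_smul, one_smul, mul_neg, neg_smul, sub_eq_add_neg]
    rw [this, norm_smul, Real.norm_eq_abs, abs_of_nonneg (by nlinarith [ht.1, ht.2])]
    exact mul_le_of_le_one_left (norm_nonneg _) (by nlinarith [ht.1])
  have e1 : (1 - h i) • x + 0 = x + (-(h i) • x) := by
    rw [sub_smul, one_smul, neg_smul, add_zero, sub_eq_add_neg]
  have a1 := abs_sub_le_line (P227.DM s (F i)) x (-(h i) • x) (C * (1 + ‖x‖) ^ p * (h i * ‖x‖))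
    fun t ht => by
      have := (BdAt.D (k := 0) (BdAt.DM1 (k := 1) (by
        rw [hs, add_comm]; exact hb (k + 1) le_rfl i (x + t • (-(h i) • x))) hu)
        (-(h i) • x)).zero
      refine this.trans ?_
      rw [norm_smul, norm_neg, Real.norm_eq_abs, abs_of_pos (h0 i)]
      gcongr; exact n1 t ht
  have a2 := hb k k.le_succ i (x + (-(h i) • x)) s hs hu
  have a3 : |(1 - h i) ^ k - 1| ≤ k * h i := by
    have := one_add_mul_le_pow (a := -h i) (by linarith) k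
    have h2 : (1 - h i) ^ k ≤ 1 := pow_le_one₀ (by linarith) (by linarith)
    rw [abs_le, ← sub_eq_add_neg] at *
    constructor
    · linarith
    · have : 0 ≤ k * h i := by positivity
      linarith
  have a4 : C * (1 + ‖x + (-(h i) • x)‖) ^ p ≤ C * (1 + ‖x‖) ^ p := by
    gcongr; simpa using n1 1 (by simp)
  rw [map_smul, map_sub, DM_af, Sm.smul_apply, Sm.sub_apply, Sm.smul_apply, af_apply, e1, hs,
    abs_mul, abs_of_pos (inv_pos.2 (h0 i)), inv_mul_le_iff₀ (h0 i)]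
  set A := P227.DM s (F i) (x + (-(h i) • x))
  set B := P227.DM s (F i) x
  have a5 : |(1 - h i) ^ k * A - B| ≤ k * h i * (C * (1 + ‖x‖) ^ p)
      + C * (1 + ‖x‖) ^ p * (h i * ‖x‖) := by
    rw [show (1 - h i) ^ k * A - B = ((1 - h i) ^ k - 1) * A + (A - B) by ring]
    refine (abs_add_le _ _).trans (add_le_add ?_ a1)
    rw [abs_mul]; gcongr; exact a2.trans a4
  refine a5.trans ?_
  have := norm_nonneg x
  have : 0 ≤ C * (1 + ‖x‖) ^ p * h i := by positivity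
  have : 0 ≤ k * (C * (1 + ‖x‖) ^ p * h i) * ‖x‖ := by positivity
  rw [pow_succ]; nlinarith

lemma Tm.dil_cons {F : κ → Sm n} (hF : Tm F) (x : E n) : ∃ C : ℝ, ∀ i (h : ℝ), 0 < h → h ≤ 1 →
    |h⁻¹ * (F i ((1 - h) • x) - F i x) + P227.rad (F i) x| ≤ C * h := by
  obtain ⟨C, hC, hb⟩ := hF.loc 2 (‖x‖ + ‖x‖)
  refine ⟨C * ‖x‖ ^ 2, fun i h h0 h1 => ?_⟩
  have e1 : (1 - h) • x = x + (-h • x) := by
    rw [sub_smul, one_smul, neg_smul, sub_eq_add_neg]
  have n1 : ‖-h • x‖ = h * ‖x‖ := by rw [norm_smul, norm_neg, Real.norm_eq_abs, abs_of_pos h0]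
  have := taylor2 (F i) x (-h • x) (C * (h * ‖x‖) * (h * ‖x‖)) fun t ht => by
    have := (((hb i (x + t • (-h • x)) ((norm_seg _ _ ht).trans (by
      rw [n1]; have := mul_le_of_le_one_left (norm_nonneg x) h1; linarith))).D
        (-h • x)).D (-h • x)).zero
    rwa [n1] at this
  rw [e1, rad_apply]
  rw [D_smul_dir, Sm.smul_apply] at this
  have e2 : h⁻¹ * (F i (x + -h • x) - F i x) + P227.D x (F i) x =
      h⁻¹ * (F i (x + -h • x) - F i x - -h * P227.D x (F i) x) := by field_simp; ring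
  rw [e2, abs_mul, abs_of_pos (inv_pos.2 h0), inv_mul_le_iff₀ h0]
  refine this.trans (le_of_eq ?_); ring

structure Uc (F : ℝ → Sm n) : Prop where
  tm : Tm F
  cont : ∀ x, Continuous fun t => F t x

namespace Uc
variable {F G : ℝ → Sm n}
lemma add (h : Uc F) (h' : Uc G) : Uc fun t => F t + G t :=
  ⟨h.tm.add h'.tm, fun x => (h.cont x).add (h'.cont x)⟩
lemma sub (h : Uc F) (h' : Uc G) : Uc fun t => F t - G t :=
  ⟨h.tm.sub h'.tm, fun x => (h.cont x).sub (h'.cont x)⟩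
lemma mul (h : Uc F) (h' : Uc G) : Uc fun t => F t * G t :=
  ⟨h.tm.mul h'.tm, fun x => (h.cont x).mul (h'.cont x)⟩
lemma smul (h : Uc F) (c : ℝ) : Uc fun t => c • F t :=
  ⟨h.tm.smul c, fun x => (h.cont x).const_mul c⟩
lemma D (h : Uc F) (v : E n) : Uc fun t => D v (F t) :=
  ⟨h.tm.D v, fun x => continuous_iff_continuousAt.2 fun t =>
    h.tm.tendsto_D (fun y => (h.cont y).tendsto t) v x⟩
lemma DM (h : Uc F) (s) : Uc fun t => DM s (F t) :=
  ⟨h.tm.DM s, fun x => continuous_iff_continuousAt.2 fun t =>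
    h.tm.tendsto_DM (fun y => (h.cont y).tendsto t) s x⟩
lemma const {f : Sm n} (h : Tm fun _ : Unit => f) : Uc fun _ => f :=
  ⟨h.comp fun _ => (), fun _ => continuous_const⟩
lemma sum {ι : Type*} (t : Finset ι) {F : ι → ℝ → Sm n} (h : ∀ j ∈ t, Uc (F j)) :
    Uc fun i => ∑ j ∈ t, F j i :=
  ⟨Tm.sum t fun j hj => (h j hj).tm, fun x => by
    simp only [Sm.sum_apply]; exact continuous_finsetSum _ fun j hj => (h j hj).cont x⟩
lemma hs (h : Uc F) (j : ℕ) : Uc fun i => hs j (F i) := by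
  induction j generalizing F with
  | zero => simpa only [P227.hs, sq] using h.mul h
  | succ j ih => exact Uc.sum _ fun a _ => ih (h.D _)
lemma rad (h : Uc F) : Uc fun t => rad (F t) := by
  simp only [rad_eq]
  exact Uc.sum _ fun a _ => (Uc.const (tm_X a)).mul (h.D _)
lemma continuous (h : Uc F) : Continuous fun p : ℝ × E n => F p.1 p.2 := h.tm.continuous h.cont
end Uc

end Vale.Agent.P227
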