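import Vale.Agent.P227.Tau

open scoped ContDiff Topology
open Filter Set MeasureTheory
noncomputable section
namespace Vale.Agent.P227
variable {n : ℕ}

lemma Adm.int_A {a b : ℝ} {q χ : E n → Sm n} (h : Adm a b q) (hχ : PolK χ)
    (A : Multiset (Multiset (E n) × Multiset (E n))) (z) :
    Integrable fun w => (A.map fun p => DM p.1 (χ w) z * DM p.2 (om q w) z).sum :=
  (msum_integral A (fun p w => DM p.1 (χ w) z * DM p.2 (om q w) z)
    fun _ => h.int_mul_DM (hχ.DM _) _ z).1
lemma Adm.int_mul {a b : ℝ} {q χ : E n → Sm n} (h : Adm a b q) (hχ : PolK χ) (z) :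
    Integrable fun w => χ w z * om q w z := h.int_mul_DM hχ 0 z

lemma top_br {a b : ℝ} {q χ : E n → Sm n} (h : Adm a b q) (hχ : PolK χ) (s : Multiset (E n))
    (hs : 2 ≤ s.card) (hu : Un s) (z) (M K : ℝ) (p : ℕ) (hM : 0 ≤ M) (hK : 0 ≤ K)
    (h1 : ∀ j, j + 2 ≤ s.card → ∀ w, BdAt j (χ w) z (M * ‖w‖ ^ 2))
    (h2 : ∀ j ≤ s.card, ∀ w, BdAt j (om q w) z (K * pg p (a / 2) w)) :
    |DM s (br q χ) z - (∫ w, DM s (χ w) z * om q w z) -
      ∫ w, ((A1 s).map fun p => DM p.1 (χ w) z * DM p.2 (om q w) z).sum|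
      ≤ (2 ^ s.card + 1) * (M * K) * ∫ w : E n, pg (2 + p) (a / 2) w := by
  rw [h.br_DM hχ, ← integral_sub (h.br_int hχ s z) (h.int_mul (hχ.DM s) z),
    ← integral_sub (by exact (h.br_int hχ s z).sub (h.int_mul (hχ.DM s) z)) (h.int_A hχ _ z)]
  refine abs_int_le (by linarith [h.pos]) _ _ fun w => ?_
  have := sq_le_w w
  have := pg_pos p (a / 2) w
  have key : ∀ s1 s2, s1 + s2 = s → 2 ≤ s2.card →
      |DM s1 (χ w) z| * |DM s2 (om q w) z| ≤ M * K * pg (2 + p) (a / 2) w := by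
    rintro s1 s2 rfl b1
    rw [Multiset.card_add] at h1 h2
    have a1 := h1 s1.card (by omega) w s1 rfl hu.left
    have a2 := h2 s2.card (by omega) w s2 rfl hu.right
    rw [← pg_mul]
    calc _ ≤ (M * (1 + ‖w‖) ^ 2) * (K * pg p (a / 2) w) := by
          gcongr; exact a1.trans (by gcongr)
      _ = _ := by ring
  have a1 := abs_DM_mul_sub3_le s hs (χ w) (om q w) z _
    (mul_nonneg (mul_nonneg hM hK) (pg_pos _ _ _).le) fun s1 s2 b1 _ b2 => key s1 s2 b1 b2
  have a2 := key 0 s (zero_add s) hs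
  rw [← abs_mul, DM_zero] at a2
  rw [abs_le] at *
  constructor <;> linarith

def AA (i : E n) (l : Multiset (E n)) : Multiset (Multiset (E n) × Multiset (E n)) :=
  (l, {i}) ::ₘ (A1 l).map fun p => (i ::ₘ p.1, p.2)
lemma card_AA (i : E n) (l) : (AA i l).card ≤ 2 ^ (l.card + 1) := by
  have := card_A1 l
  have : 1 ≤ 2 ^ l.card := Nat.one_le_two_pow
  simp [AA, pow_succ]; omega
lemma mem_AA {i : E n} {l p} (hp : p ∈ AA i l) : ∃ a, p.2 = {a} ∧ a ::ₘ p.1 = i ::ₘ l := by
  rcases Multiset.mem_cons.1 hp with rfl | hp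
  · exact ⟨i, rfl, rfl⟩
  · obtain ⟨p, hp', rfl⟩ := Multiset.mem_map.1 hp
    obtain ⟨a, h1, h2⟩ := mem_A1 hp'
    exact ⟨a, h1, by rw [← h2]; exact Multiset.cons_swap _ _ _⟩

lemma top_G (a b : ℝ) (r : ℕ) (hr : 1 ≤ r) : ∃ c : ℝ, 1 ≤ c ∧ ∀ q : E n → Sm n, Adm a b q →
    ∀ z W, Wt W (r + 2) → (∀ j, 1 ≤ j → j ≤ r → ∀ w, BdAt j (q w) z (W j * ‖w‖ ^ 2)) →
    BdAt 1 (G q) z (c * W 1) ∧
    ∀ i l, l.card = r + 1 → Un (i ::ₘ l) →
    |DM (i ::ₘ l) (G q) z - (∫ w, DM (i ::ₘ l) (q w) z * om q w z) -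
      ∫ w, ((AA i l).map fun p => DM p.1 (q w) z * DM p.2 (om q w) z).sum| ≤ c * W (r + 2) := by
  obtain ⟨c, hc, h0⟩ := qb (n := n) a b r
  set I := ∫ w : E n, pg (4 + 2 * r) (a / 2) w
  have hI : 0 ≤ I := int_pg_nonneg _ _
  have hc' : 0 ≤ 2 ^ (r + 3) * c ^ 2 * I := by positivity
  refine ⟨c + 2 ^ (r + 3) * c ^ 2 * I, by linarith, fun q h z W hW hq => ?_⟩
  obtain ⟨hG, ho⟩ := h0 q h z W (hW.mono (by omega)) hq
  refine ⟨(hG 1 le_rfl hr).mono (by have := hW.pos 1; gcongr; linarith), fun i l hl hu => ?_⟩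
  obtain ⟨v, l', rfl⟩ : ∃ v l', l = v ::ₘ l' := by
    induction l using Multiset.induction with
    | empty => simp at hl
    | cons v l' _ => exact ⟨v, l', rfl⟩
  set l := v ::ₘ l' with hl0
  have hl' : l'.card = r := by simpa [l] using hl
  have ha : 0 < a / 2 := by linarith [h.pos]
  have hP := h.toPolK
  have wW := hW.pos (r + 1)
  have wW2 := hW.pos (r + 2)
  have wW1 := hW.pos 1
  have W12 : W 1 * W (r + 1) ≤ W (r + 2) := by
    have := hW.mul 1 (r + 1) (by omega); rwa [show 1 + (r + 1) = r + 2 by omega] at this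
  have hc2 : c ≤ c ^ 2 := by nlinarith
  have b1 : |DM l (G q) z - ∫ w, DM l (q w) z * om q w z| ≤ 2 ^ r * (c * W (r + 1)) * I := by
    rw [hl0, DM_cons', h.D_G, h.br_DM (hP.D v),
      ← integral_sub (h.br_int (hP.D v) l' z) (h.int_mul (hP.DM _) z)]
    refine abs_int_le ha _ _ fun w => ?_
    have := pg_pos (4 + 2 * r) (a / 2) w
    rw [mul_comm (D v (q w)), DM_cons', mul_comm (DM l' _ z), mul_assoc]
    refine (abs_DM_mul_sub_le l' _ _ z (c * W (r + 1) * pg (4 + 2 * r) (a / 2) w)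
      (by positivity) ?_).trans (by rw [hl'])
    intro s1 s2 e1 e2
    have e3 := congrArg Multiset.card e1
    have := Multiset.card_pos.2 e2
    rw [Multiset.card_add, hl'] at e3
    have a1 := ho s1.card (by omega) w s1 rfl (e1 ▸ hu.tail.tail).left
    have a2 := (hq (s2.card + 1) (by omega) (by omega) w).D1 hu.tail.head s2 rfl
      (e1 ▸ hu.tail.tail).right
    have a3 := hW.mul s1.card (s2.card + 1) (by omega)
    rw [← add_assoc, e3] at a3
    have := hW.pos s1.card; have := hW.pos (s2.card + 1); have := pg_pos (2 * r) (a / 2) w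
    have := sq_le_w w
    have := pg_pos (2 + 2 * r) (a / 2) w
    calc _ ≤ (c * W s1.card * pg (2 * r) (a / 2) w) * (W (s2.card + 1) * (1 + ‖w‖) ^ 2) := by
          gcongr; exact a2.trans (by gcongr)
      _ = c * (W s1.card * W (s2.card + 1)) * pg (2 + 2 * r) (a / 2) w := by rw [← pg_mul]; ring
      _ ≤ _ := by gcongr; exact pg_mono (by omega) _ _
  have i1 := h.br_int (hP.D i) l z
  have i2 := h.int_mul (hP.DM (i ::ₘ l)) z
  have i3 := h.int_A hP (AA i l) z
  have i4 := ((h.int_mul (hP.D i) z).const_mul (DM l (G q) z)).sub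
    ((h.int_mul (hP.DM l) z).const_mul (D i (G q) z))
  have b2 : |∫ w, (DM l (D i (q w) * om q w) z - DM (i ::ₘ l) (q w) z * om q w z -
      ((AA i l).map fun p => DM p.1 (q w) z * DM p.2 (om q w) z).sum - 1 / 2 *
      (DM l (G q) z * (D i (q w) z * om q w z) - D i (G q) z * (DM l (q w) z * om q w z)))|
      ≤ (2 ^ (r + 2) * c ^ 2 * W (r + 2)) * I := by
    refine abs_int_le ha _ _ fun w => ?_
    have p4 := pg_pos (4 + 2 * r) (a / 2) w
    have p2 := pg_pos (2 + 2 * r) (a / 2) w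
    have p0 := pg_pos (2 * r) (a / 2) w
    have hw := sq_le_w w
    have hw1 := one_le_wp w 2
    have c1 := abs_DM_mul_sub3_le l (by omega) (D i (q w)) (om q w) z
      (c * W (r + 2) * pg (4 + 2 * r) (a / 2) w) (by positivity) fun s1 s2 e1 e2 e4 => by
        have e3 := congrArg Multiset.card e1
        have := Multiset.card_pos.2 e2
        rw [Multiset.card_add, hl] at e3
        have a1 := ho s2.card (by omega) w s2 rfl (e1 ▸ hu.tail).right
        have a2 := (hq (s1.card + 1) (by omega) (by omega) w).D1 hu.head s1 rfl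
          (e1 ▸ hu.tail).left
        have a3 := hW.mul (s1.card + 1) s2.card (by omega)
        rw [show s1.card + 1 + s2.card = r + 2 by omega] at a3
        have := hW.pos s2.card; have := hW.pos (s1.card + 1)
        calc _ ≤ (W (s1.card + 1) * (1 + ‖w‖) ^ 2) * (c * W s2.card * pg (2 * r) (a / 2) w) := by
              gcongr; exact a2.trans (by gcongr)
          _ = c * (W (s1.card + 1) * W s2.card) * pg (2 + 2 * r) (a / 2) w := by
              rw [← pg_mul]; ring
          _ ≤ _ := by gcongr; exact pg_mono (by omega) _ _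
    have c2 := abs_DM_mul_sub_le l' (om q w) (D v ((1 / 2 : ℝ) • (G q - q w))) z
      (c ^ 2 * W (r + 1) * pg (2 + 2 * r) (a / 2) w) (by positivity) fun s1 s2 e1 e2 => by
        have e3 := congrArg Multiset.card e1
        have := Multiset.card_pos.2 e2
        rw [Multiset.card_add, hl'] at e3
        have a1 := ho s1.card (by omega) w s1 rfl (e1 ▸ hu.tail.tail).left
        have a2 := (((hG (s2.card + 1) (by omega) (by omega)).sub
          (hq (s2.card + 1) (by omega) (by omega) w)).smul (1 / 2)).D1 hu.tail.head s2 rfl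
          (e1 ▸ hu.tail.tail).right
        have a3 := hW.mul s1.card (s2.card + 1) (by omega)
        rw [← add_assoc, e3] at a3
        have := hW.pos s1.card; have := hW.pos (s2.card + 1)
        rw [abs_of_pos (show (0 : ℝ) < 1 / 2 by norm_num)] at a2
        have a4 : 1 / 2 * (c * W (s2.card + 1) + W (s2.card + 1) * ‖w‖ ^ 2) ≤
            c * W (s2.card + 1) * (1 + ‖w‖) ^ 2 := by
          have d1 : c * W (s2.card + 1) ≤ c * W (s2.card + 1) * (1 + ‖w‖) ^ 2 :=
            le_mul_of_one_le_right (by positivity) hw1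
          have d2 : W (s2.card + 1) * ‖w‖ ^ 2 ≤ c * W (s2.card + 1) * (1 + ‖w‖) ^ 2 := by
            gcongr; exact le_mul_of_one_le_left (by positivity) hc
          linarith
        calc _ ≤ (c * W s1.card * pg (2 * r) (a / 2) w) *
              (c * W (s2.card + 1) * (1 + ‖w‖) ^ 2) := by
              gcongr; exact a2.trans a4
          _ = c ^ 2 * (W s1.card * W (s2.card + 1)) * pg (2 + 2 * r) (a / 2) w := by
              rw [← pg_mul]; ring
          _ ≤ _ := by gcongr
    have c3 := ((hq 1 le_rfl hr w).D1 hu.head).zero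
    have c4 : DM l (om q w) = DM l' (om q w * D v ((1 / 2 : ℝ) • (G q - q w))) := by
      rw [hl0, DM_cons', om, D_ex]
    rw [← c4, ← DM_cons', ← hl0, hl'] at c2
    have c5 := mul_le_mul c3 c2 (abs_nonneg _) (by positivity)
    rw [← abs_mul] at c5
    have c6 : W 1 * ‖w‖ ^ 2 * (2 ^ r * (c ^ 2 * W (r + 1) * pg (2 + 2 * r) (a / 2) w)) ≤
        2 ^ (r + 1) * c ^ 2 * W (r + 2) * pg (4 + 2 * r) (a / 2) w := by
      calc _ ≤ W 1 * (1 + ‖w‖) ^ 2 * (2 ^ (r + 1) *
            (c ^ 2 * W (r + 1) * pg (2 + 2 * r) (a / 2) w)) := by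
            gcongr; exacts [by norm_num, by omega]
        _ = 2 ^ (r + 1) * c ^ 2 * (W 1 * W (r + 1)) * pg (2 + (2 + 2 * r)) (a / 2) w := by
            rw [← pg_mul 2 (2 + 2 * r)]; ring
        _ ≤ _ := by
            have := pg_pos (2 + (2 + 2 * r)) (a / 2) w
            gcongr; exact pg_mono (by omega) _ _
    have c7 : 2 ^ l.card * (c * W (r + 2) * pg (4 + 2 * r) (a / 2) w) ≤
        2 ^ (r + 1) * c ^ 2 * W (r + 2) * pg (4 + 2 * r) (a / 2) w := by
      rw [hl, mul_assoc, mul_assoc, mul_assoc]; gcongr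
    simp only [AA, Multiset.map_cons, Multiset.sum_cons, Multiset.map_map, Function.comp,
      DM_single, Adm.D_om, DM_cons' i, map_smul, map_sub, Sm.smul_apply, Sm.sub_apply,
      Sm.mul_apply] at c1 c5 ⊢
    rw [pow_succ 2 (r + 1)]
    rw [abs_le] at *
    constructor <;> linarith
  rw [integral_sub (by exact (i1.sub i2).sub i3) (by exact i4.const_mul _),
    integral_sub (by exact i1.sub i2) i3, integral_sub i1 i2, integral_const_mul,
    integral_sub ((h.int_mul (hP.D i) z).const_mul _) ((h.int_mul (hP.DM l) z).const_mul _),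
    integral_const_mul, integral_const_mul, ← h.D_G', ← h.br_DM (hP.D i), ← h.D_G,
    ← DM_cons'] at b2
  have b3 := mul_le_mul ((hG 1 le_rfl hr).D1 hu.head).zero b1 (abs_nonneg _) (by positivity)
  rw [← abs_mul] at b3
  have b4 : c * W 1 * (2 ^ r * (c * W (r + 1)) * I) ≤ 2 ^ (r + 2) * c ^ 2 * W (r + 2) * I := by
    calc _ = 2 ^ r * c ^ 2 * (W 1 * W (r + 1)) * I := by ring
      _ ≤ _ := by gcongr; exacts [by norm_num, by omega]
  have b5 : 0 ≤ c * W (r + 2) := by positivity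
  have b6 : 0 ≤ 2 ^ (r + 2) * c ^ 2 * W (r + 2) * I := by positivity
  rw [pow_succ 2 (r + 2)]
  rw [abs_le] at *
  constructor <;> linarith

lemma second_G (a b : ℝ) : ∃ c : ℝ, 0 ≤ c ∧ ∀ q : E n → Sm n, Adm a b q → ∀ z K, 1 ≤ K →
    (∀ w, BdAt 1 (q w) z (K * ‖w‖ ^ 2)) → ∀ v,
    D v (D v (G q)) z ≤ ∫ w, D v (D v (q w)) z * om q w z ∧
    (∫ w, D v (D v (q w)) z * om q w z) - c * K ^ 2 * ‖v‖ ^ 2 ≤ D v (D v (G q)) z := by
  obtain ⟨c, hc, h0⟩ := qb (n := n) a b 1
  set I := ∫ w : E n, pg (2 + 2 * 1) (a / 2) w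
  have hI : 0 ≤ I := int_pg_nonneg _ _
  refine ⟨c * I, by positivity, fun q h z K hK hq v => ?_⟩
  obtain ⟨-, ho⟩ := h0 q h z _ (wt_pow hK 1) fun j b1 b2 w => by
    obtain rfl : j = 1 := by omega
    simpa using hq w
  have hP := h.toPolK
  have i1 := h.int_mul ((hP.D v).D v) z
  have i2 := h.int_mul_DM (hP.D v) {v} z
  have e1 : D v (D v (G q)) z = (∫ w, D v (D v (q w)) z * om q w z) +
      ∫ w, D v (q w) z * D v (om q w) z := by
    rw [h.D_G, ← DM_single, h.br_DM (hP.D v), ← integral_add i1 (by exact i2)]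
    simp only [DM_single, D_mul, Sm.add_apply, Sm.mul_apply]
  rw [e1]
  constructor
  · have i3 := h.int_mul (hP.D v) z
    have i4 := (h.om_int z).const_mul (D v (G q) z)
    have e2 : ∫ w, D v (G q) z * (1 / 2 * (D v (G q) z * om q w z - D v (q w) z * om q w z)) = 0 := by
      rw [integral_const_mul, integral_const_mul, integral_sub i4 i3, integral_const_mul,
        h.om_integral, ← h.D_G']; ring
    rw [add_le_iff_nonpos_right, ← e2]
    refine integral_mono i2 (((i4.sub i3).const_mul _).const_mul _) fun w => ?_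
    have := Adm.om_pos (q := q) w z
    simp only [Adm.D_om, Sm.smul_apply, Sm.sub_apply, Sm.mul_apply]
    nlinarith [mul_nonneg this.le (sq_nonneg (D v (G q) z - D v (q w) z))]
  · have : |∫ w, D v (q w) z * D v (om q w) z| ≤ (c * K ^ 2 * ‖v‖ ^ 2) * I := by
      refine abs_int_le (by linarith [h.pos]) _ _ fun w => ?_
      have a1 := (BdAt.D (k := 0) (hq w) v).zero
      have a2 := (BdAt.D (k := 0) (ho 1 le_rfl w) v).zero
      have := sq_le_w w
      have := pg_pos (2 * 1) (a / 2) w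
      rw [abs_mul, ← pg_mul]
      calc _ ≤ (K * (1 + ‖w‖) ^ 2 * ‖v‖) * (c * K ^ 1 * pg (2 * 1) (a / 2) w * ‖v‖) := by
            gcongr; exact a1.trans (by gcongr)
        _ = _ := by ring
    linarith [(abs_le.1 this).1]

end Vale.Agent.P227
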